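import Vale.Agent.P086.Gap

/-!
A free generator can be moved approximately into the algebra of two other generators.
-/

set_option linter.unusedSectionVars false
set_option linter.deprecated false

namespace Vale.Agent.P086

open Finset Filter Topology
open FreeGroup (of)
open scoped InnerProductSpace ComplexConjugate

section General

variable {G : Type} [Group G]

theorem near_tendsto {α : Type} {l : Filter α} {U : α → Op G} (hU : ∀ n, IsAut (U n)) {s : Set G}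
    (hs : ∀ g ∈ s, Tendsto (fun n => ‖U n (dl g) - dl g‖) l (𝓝 0)) {g : G}
    (hg : g ∈ Subgroup.closure s) : Tendsto (fun n => ‖U n (dl g) - dl g‖) l (𝓝 0) := by
  induction hg using Subgroup.closure_induction with
  | mem x hx => exact hs x hx
  | one => simpa [(hU _).fix] using tendsto_const_nhds
  | mul x y _ _ hx hy =>
    refine squeeze_zero (fun _ => norm_nonneg _) (fun n => (hU n).near_mul x y) ?_
    simpa using hx.add hy
  | inv x _ hx => simpa only [(hU _).near_inv] using hx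

theorem cut_pair_lower (Γ : Subgroup G) {U : Op G} (hU : IsAut U) {u b : G} (hu : u ∈ Γ)
    (hne : u ≠ b * u⁻¹ * b) :
    1 + ‖cut Γ (bet U b (lam u⁻¹ (bet U b (dl 1))))‖ ^ 2 - 6 * ‖U (dl u) - dl u‖
      ≤ ‖cut Γ (U (dl u - dl (b * u⁻¹ * b)))‖ ^ 2 := by
  set e := ‖U (dl u) - dl u‖ with he
  set x := bet U b with hx
  have nx := unitary_opnorm (hU.bet_unitary b)
  have he0 : 0 ≤ e := norm_nonneg _
  have nU : ∀ g, ‖U (dl g)‖ = 1 := fun g => by rw [unitary_norm hU.uni, norm_dl]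
  have he2 : e ≤ 2 := (norm_sub_le _ _).trans (by rw [nU, norm_dl]; norm_num)
  have a1 : ‖U (dl u) - cut Γ (U (dl u))‖ ≤ e := norm_sub_cut_le_dist _ _ _ (cut_dl_mem hu)
  have a2 := cut_pythagoras (Γ : Set G) (U (dl u))
  rw [nU] at a2
  have a3 : 1 - 2 * e ≤ ‖cut Γ (U (dl u))‖ ^ 2 := by
    nlinarith [norm_nonneg (U (dl u) - cut Γ (U (dl u)))]
  have a4 : ‖U (dl (b * u⁻¹ * b)) - x (lam u⁻¹ (x (dl 1)))‖ ≤ e := by
    rw [mul_assoc, hU.dl_mul, hU.dl_mul, ← hU.bet_hat b, ← hx, ← map_sub]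
    refine (norm_apply_le_of_le_one nx _).trans ?_
    have h1 := norm_mul_hat_le (sub_mem (hU.bet_mem u⁻¹) (lam_mem u⁻¹)) (hU.bet_mem b)
    have h2 : (bet U u⁻¹ - lam u⁻¹) (dl 1) = U (dl u⁻¹) - dl u⁻¹ := by
      rw [ContinuousLinearMap.sub_apply, hU.bet_hat, lam_dl, mul_one]
    rw [h2, hU.near_inv, ← he] at h1
    refine le_trans (le_of_eq rfl) (h1.trans ?_)
    nlinarith
  have a5 : ‖cut Γ (x (lam u⁻¹ (x (dl 1))))‖ ^ 2 - 2 * e ≤ ‖cut Γ (U (dl (b * u⁻¹ * b)))‖ ^ 2 := by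
    have h1 : ‖cut Γ (x (lam u⁻¹ (x (dl 1))))‖ ≤ 1 := by
      refine (norm_cut_le _ _).trans ((norm_apply_le_of_le_one nx _).trans ?_)
      rw [norm_lam]
      exact (norm_apply_le_of_le_one nx _).trans (norm_dl _).le
    have h2 : ‖cut Γ (U (dl (b * u⁻¹ * b)))‖ ≤ 1 := (norm_cut_le _ _).trans (nU _).le
    have h3 : ‖cut Γ (x (lam u⁻¹ (x (dl 1))))‖ - ‖cut Γ (U (dl (b * u⁻¹ * b)))‖ ≤ e := by
      refine (norm_sub_norm_le _ _).trans ?_
      rw [← map_sub]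
      refine (norm_cut_le _ _).trans ?_
      rwa [norm_sub_rev]
    nlinarith [norm_nonneg (cut Γ (x (lam u⁻¹ (x (dl 1))))),
      norm_nonneg (cut Γ (U (dl (b * u⁻¹ * b))))]
  have a6 : (⟪cut Γ (U (dl u)), cut Γ (U (dl (b * u⁻¹ * b)))⟫_ℂ).re ≤ e := by
    have h0 : ⟪U (dl u), U (dl (b * u⁻¹ * b))⟫_ℂ = 0 := by
      rw [unitary_inner hU.uni, inner_dl_left, dl_apply_ne hne]
    have h1 : ⟪cut Γ (U (dl u)), cut Γ (U (dl (b * u⁻¹ * b)))⟫_ℂ
        = -⟪U (dl u) - cut Γ (U (dl u)), U (dl (b * u⁻¹ * b))⟫_ℂ := by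
      rw [← inner_cut, cut_cut, inner_sub_left, h0]; simp
    refine (Complex.re_le_norm _).trans ?_
    rw [h1, norm_neg]
    refine (norm_inner_le_norm _ _).trans ?_
    rw [nU, mul_one]; exact a1
  rw [map_sub, map_sub, @norm_sub_sq ℂ]
  simp only [RCLike.re_to_complex]
  linarith

theorem cut_expand (s : Set G) {U : Op G} (hU : U ∈ unitary (Op G)) (x D r : L2 G) (t : ℝ)
    (nD : ‖D‖ ≤ 2) :
    ‖cut s (U x)‖ ^ 2 + 2 * (⟪star U (cut s (U x)), (t : ℂ) • D + r⟫_ℂ).re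
      + t ^ 2 * ‖cut s (U D)‖ ^ 2 - 4 * |t| * ‖r‖ ≤ ‖cut s (U (x + (t : ℂ) • D + r))‖ ^ 2 := by
  rw [add_assoc x, map_add U x, map_add (cut s), @norm_add_sq ℂ, inner_star_left, ← inner_cut,
    cut_cut]
  simp only [RCLike.re_to_complex]
  have h1 : t ^ 2 * ‖cut s (U D)‖ ^ 2 - 4 * |t| * ‖r‖ ≤ ‖cut s (U ((t : ℂ) • D + r))‖ ^ 2 := by
    rw [map_add, map_add, map_smul, map_smul, @norm_add_sq ℂ, norm_smul, Complex.norm_real,
      Real.norm_eq_abs, mul_pow, sq_abs]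
    simp only [RCLike.re_to_complex]
    have h2 := (abs_le.1 ((Complex.abs_re_le_norm _).trans
      (norm_inner_le_norm (𝕜 := ℂ) ((t : ℂ) • cut s (U D)) (cut s (U r))))).1
    rw [norm_smul, Complex.norm_real, Real.norm_eq_abs] at h2
    have h3 : ‖cut s (U D)‖ ≤ 2 := (norm_cut_le _ _).trans ((unitary_norm hU _).le.trans nD)
    have h4 : ‖cut s (U r)‖ ≤ ‖r‖ := (norm_cut_le _ _).trans (unitary_norm hU _).le
    have h5 : |t| * ‖cut s (U D)‖ * ‖cut s (U r)‖ ≤ |t| * 2 * ‖r‖ := by gcongr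
    nlinarith [sq_nonneg ‖cut s (U r)‖]
  linarith

theorem exists_weak_limit (𝒰 : Ultrafilter ℕ) (ξ : ℕ → L2 G) (h : ∀ n, ‖ξ n‖ ≤ 1) :
    ∃ η : L2 G, ‖η‖ ≤ 1 ∧ ∀ y, Tendsto (fun n => ⟪ξ n, y⟫_ℂ) 𝒰 (𝓝 ⟪η, y⟫_ℂ) := by
  let f : ℕ → WeakDual ℂ (L2 G) := fun n =>
    StrongDual.toWeakDual (InnerProductSpace.toDual ℂ (L2 G) (ξ n))
  have hc := WeakDual.isCompact_closedBall (𝕜 := ℂ) (E := L2 G) 0 1
  obtain ⟨p, hp, hlim⟩ := hc.ultrafilter_le_nhds (𝒰.map f) (by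
    rw [le_principal_iff, Ultrafilter.mem_coe, Ultrafilter.mem_map]
    refine Filter.univ_mem' fun n => ?_
    simpa [f] using h n)
  refine ⟨(InnerProductSpace.toDual ℂ (L2 G)).symm (WeakDual.toStrongDual p), ?_, fun y => ?_⟩
  · rw [LinearIsometryEquiv.norm_map]
    simpa using hp
  · rw [InnerProductSpace.toDual_symm_apply]
    exact ((WeakDual.eval_continuous y).tendsto p).comp hlim

theorem exists_truncation (ξ : L2 G) (b : G) (ε : ℝ) (hε : 0 < ε) :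
    ∃ W : Finset G, b ∈ W ∧ ‖ξ - ∑ w ∈ W, ξ w • dl w‖ ≤ ε := by
  have h := (l2_hasSum_dl ξ)
  have h1 : ∀ᶠ W : Finset G in atTop, dist (∑ w ∈ W, ξ w • dl w) ξ < ε :=
    Metric.tendsto_nhds.1 h ε hε
  obtain ⟨W, h2, h3⟩ := (h1.and (eventually_ge_atTop {b})).exists
  refine ⟨W, by simpa using h3, ?_⟩
  rw [dist_comm, dist_eq_norm] at h2
  exact h2.le

open Classical in
theorem re_inner_lower (ξ r : L2 G) (nξ : ‖ξ‖ ≤ 1) (b : G) (W : Finset G) (hb : b ∈ W) (ε : ℝ)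
    (hW : ‖ξ - ∑ w ∈ W, ξ w • dl w‖ ≤ ε) (c : ℝ) (B : G → ℝ)
    (hB : ∀ w ∈ W, ‖r w + (if w = b then ((c : ℝ) : ℂ) else 0)‖ ≤ B w) :
    -(c * (ξ b).re) - ∑ w ∈ W, B w - ε * ‖r‖ ≤ (⟪ξ, r⟫_ℂ).re := by
  have e : ⟪ξ, r⟫_ℂ = ⟪ξ - ∑ w ∈ W, ξ w • dl w, r⟫_ℂ
      + ∑ w ∈ W, conj (ξ w) * (r w + (if w = b then ((c : ℝ) : ℂ) else 0))
      - conj (ξ b) * c := by
    simp only [inner_sub_left, sum_inner, inner_smul_left, inner_dl_left, mul_add, sum_add_distrib,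
      mul_ite, mul_zero, sum_ite_eq', hb, if_true]
    ring
  have h1 := (abs_le.1 ((Complex.abs_re_le_norm _).trans
    (norm_inner_le_norm (𝕜 := ℂ) (ξ - ∑ w ∈ W, ξ w • dl w) r))).1
  have h2 : ‖ξ - ∑ w ∈ W, ξ w • dl w‖ * ‖r‖ ≤ ε * ‖r‖ := by gcongr
  have h3 : ‖∑ w ∈ W, conj (ξ w) * (r w + (if w = b then ((c : ℝ) : ℂ) else 0))‖
      ≤ ∑ w ∈ W, B w := by
    refine (norm_sum_le _ _).trans (sum_le_sum fun w hw => ?_)
    rw [norm_mul, RCLike.norm_conj]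
    have := (norm_apply_le ξ w).trans nξ
    nlinarith [hB w hw, norm_nonneg (ξ w),
      norm_nonneg (r w + (if w = b then ((c : ℝ) : ℂ) else 0))]
  have h4 := (abs_le.1 ((Complex.abs_re_le_norm _).trans h3)).1
  rw [e, Complex.sub_re, Complex.add_re, Complex.mul_re]
  simp only [Complex.conj_re, Complex.ofReal_re, Complex.ofReal_im, mul_zero, sub_zero]
  linarith

end General

variable {ι : Type}

/-- attainable values of the squared norm of the projection -/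
def Att (a c b : ι) (ρ : ℝ) : Prop :=
  ∀ ε : ℝ, 0 < ε → ∃ U : Op (FreeGroup ι), IsAut U ∧
    (∀ j, j ≠ a → j ≠ b → U (dl (of j)) = dl (of j)) ∧ ‖U (dl (of a)) - dl (of a)‖ ≤ ε ∧
    ρ - ε ≤ ‖cut (Gam a c) (U (dl (of b)))‖ ^ 2

theorem gain_arith (ρ ρn t e0 ε A Lw k m q S : ℝ) (hρ0 : 0 ≤ ρ) (hρ1 : ρ < 1) (hn : ρ - e0 ≤ ρn)
    (hn0 : 0 ≤ ρn) (ht0 : 0 < t) (ht1 : t ≤ 1) (he0 : 0 < e0) (hm : 0 < m)
    (hε : ε = (1 - ρ) ^ 2 / 160) (h1 : 6 * q ≤ (1 - ρ) ^ 2 / 8 * m)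
    (h2 : t * (40 * Lw + 40) ≤ (1 - ρ) ^ 2 / 8) (h3 : 4 * A / k ≤ (1 - ρ) ^ 2 / 8)
    (h4 : (17 + 2 * A) * e0 ≤ t ^ 2 * (1 - ρ) ^ 2 / 4)
    (hS : m * ρn ^ 2 - 3 * (2 * q) ≤ S) :
    m * (ρ + t ^ 2 * (1 - ρ) ^ 2 / 4) ≤
      m * (ρn + 2 * (-(t ^ 2 * ρ) - (A * (2 * t ^ 2 / k + e0) + 20 * t ^ 3 * Lw)
        - ε * (10 * t ^ 2 + e0) - e0) + t ^ 2 * (1 - 6 * e0) - 4 * t * (10 * t ^ 2 + e0))
        + t ^ 2 * S := by
  have hθ : (1 - ρ) ^ 2 ≤ 1 := by nlinarith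
  have hsq : ρ ^ 2 - 2 * e0 ≤ ρn ^ 2 := by
    rcases le_total ρ ρn with h | h
    · nlinarith
    · nlinarith
  have ht2 : t ^ 2 ≤ 1 := by nlinarith
  have b1 : t ^ 2 * (m * (ρ ^ 2 - 2 * e0) - (1 - ρ) ^ 2 / 8 * m) ≤ t ^ 2 * S := by
    apply mul_le_mul_of_nonneg_left _ (sq_nonneg t)
    nlinarith
  have b2 : ρ + t ^ 2 * (1 - ρ) ^ 2 / 4 ≤
      (ρn + 2 * (-(t ^ 2 * ρ) - (A * (2 * t ^ 2 / k + e0) + 20 * t ^ 3 * Lw)
        - ε * (10 * t ^ 2 + e0) - e0) + t ^ 2 * (1 - 6 * e0) - 4 * t * (10 * t ^ 2 + e0))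
        + t ^ 2 * ((ρ ^ 2 - 2 * e0) - (1 - ρ) ^ 2 / 8) := by
    have c1 : A * (2 * t ^ 2 / k) = t ^ 2 * (4 * A / k) / 2 := by ring
    have c2 := mul_le_mul_of_nonneg_left h3 (sq_nonneg t)
    have c3 := mul_le_mul_of_nonneg_left h2 (sq_nonneg t)
    have c4 : ε * e0 ≤ e0 := by rw [hε]; nlinarith
    have c5 : t ^ 2 * e0 ≤ e0 := by nlinarith
    have c6 : t * e0 ≤ e0 := by nlinarith
    have c7 : ε * t ^ 2 = t ^ 2 * (1 - ρ) ^ 2 / 160 := by rw [hε]; ring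
    nlinarith
  have b3 := mul_le_mul_of_nonneg_left b2 hm.le
  nlinarith

theorem improve {a c b : ι} (hac : a ≠ c) (hab : a ≠ b) (hcb : c ≠ b) {ρ : ℝ} (hρ0 : 0 ≤ ρ)
    (hρ1 : ρ < 1) (hA : Att a c b ρ) (hmax : ∀ ρ', Att a c b ρ' → ρ' ≤ ρ) : False := by
  classical
  have hseq := fun n : ℕ => hA (1 / ((n : ℝ) + 1)) (by positivity)
  choose U hU hUfix hUa hUb using hseq
  let 𝒰 : Ultrafilter ℕ := Ultrafilter.of atTop
  have h𝒰 : (𝒰 : Filter ℕ) ≤ atTop := Ultrafilter.of_le _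
  set Γ := Gam a c with hΓ
  let ρn : ℕ → ℝ := fun n => ‖cut Γ (U n (dl (of b)))‖ ^ 2
  let ξn : ℕ → L2 (FreeGroup ι) := fun n => star (U n) (cut Γ (U n (dl (of b))))
  have nξn : ∀ n, ‖ξn n‖ ≤ 1 := fun n => by
    simp only [ξn]
    rw [unitary_norm (hU n).adj.uni]
    exact (norm_cut_le _ _).trans (by rw [unitary_norm (hU n).uni, norm_dl])
  obtain ⟨ξ, nξ, hξ⟩ := exists_weak_limit 𝒰 ξn nξn
  have hone : Tendsto (fun n : ℕ => 1 / ((n : ℝ) + 1)) 𝒰 (𝓝 0) :=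
    tendsto_one_div_add_atTop_nhds_zero_nat.mono_left h𝒰
  have hta : Tendsto (fun n => ‖U n (dl (of a)) - dl (of a)‖) 𝒰 (𝓝 0) :=
    squeeze_zero (fun _ => norm_nonneg _) hUa hone
  have hnear : ∀ g ∈ Γ, Tendsto (fun n => ‖U n (dl g) - dl g‖) 𝒰 (𝓝 0) := by
    intro g hg
    refine near_tendsto hU ?_ hg
    rintro x (rfl | rfl)
    · exact hta
    · simp [hUfix _ c hac.symm hcb]
  have hρlim : Tendsto ρn 𝒰 (𝓝 (ξ (of b)).re) := by
    have h1 := (Complex.continuous_re.tendsto _).comp (hξ (dl (of b)))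
    rw [inner_dl_right, Complex.conj_re] at h1
    refine h1.congr fun n => ?_
    simp only [Function.comp, ξn, ρn]
    rw [inner_star_left, ← inner_conj_symm, inner_cut_self, Complex.conj_re, Complex.ofReal_re]
  have hρeq : (ξ (of b)).re = ρ := by
    apply le_antisymm
    · apply hmax
      intro ε hε
      obtain ⟨n, h1, h2⟩ := ((hta.eventually (ge_mem_nhds hε)).and
        (hρlim.eventually (le_mem_nhds (show (ξ (of b)).re - ε < (ξ (of b)).re by linarith)))).exists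
      exact ⟨U n, hU n, hUfix n, h1, h2⟩
    · have h1 : Tendsto (fun n : ℕ => ρ - 1 / ((n : ℝ) + 1)) 𝒰 (𝓝 (ρ - 0)) := hone.const_sub ρ
      rw [sub_zero] at h1
      exact le_of_tendsto_of_tendsto' h1 hρlim hUb
  rw [hρeq] at hρlim
  have hθ : 0 < (1 - ρ) ^ 2 := by have : 0 < 1 - ρ := by linarith
                                  positivity
  -- choice of the parameters
  obtain ⟨m, hm⟩ : ∃ m : ℕ, 0 < m ∧ 6 * √m ≤ (1 - ρ) ^ 2 / 8 * m := by
    obtain ⟨q, hq⟩ := exists_nat_gt (48 / (1 - ρ) ^ 2)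
    have hq0 : (0 : ℝ) < q := lt_trans (by positivity) hq
    refine ⟨q ^ 2, pow_pos (by exact_mod_cast hq0) 2, ?_⟩
    push_cast
    rw [Real.sqrt_sq hq0.le]
    rw [div_lt_iff₀ hθ] at hq
    nlinarith
  obtain ⟨W, hbW, hW⟩ := exists_truncation ξ (of b) ((1 - ρ) ^ 2 / 160) (by positivity)
  set Lw : ℝ := ∑ w ∈ W, (len w : ℝ) with hLw
  have hLw0 : 0 ≤ Lw := sum_nonneg fun _ _ => Nat.cast_nonneg _
  set t : ℝ := (1 - ρ) ^ 2 / 8 / (40 * Lw + 40) with ht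
  have ht0 : 0 < t := by positivity
  have ht2 : t * (40 * Lw + 40) ≤ (1 - ρ) ^ 2 / 8 := by
    rw [ht, div_mul_cancel₀ _ (by positivity)]
  have ht1 : t ≤ 1 := by nlinarith
  have hgain : Att a c b (ρ + t ^ 2 * (1 - ρ) ^ 2 / 4) := by
    intro ε' hε'
    have k1 : ∀ᶠ k : ℕ in atTop, 4 * (W.card : ℝ) / k ≤ (1 - ρ) ^ 2 / 8 :=
      eventually_div_le _ _ (by positivity)
    have k2 : ∀ᶠ k : ℕ in atTop, 2 / (k : ℝ) ≤ (ε' / 3) ^ 2 := eventually_div_le _ _ (by positivity)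
    have k3 : ∀ᶠ k : ℕ in atTop, ∀ w ∈ W, |(abz a c w).1| < 2 * ((k : ℤ) + 1) := by
      rw [eventually_all_finset]
      intro w _
      filter_upwards [eventually_ge_atTop (abz a c w).1.natAbs] with k hk
      rw [abs_lt]
      omega
    obtain ⟨k, hk1, hk2, hk3, hk4⟩ := (k1.and (k2.and (k3.and (eventually_ge_atTop 1)))).exists
    set e0 : ℝ := min (ε' / 3) (t ^ 2 * (1 - ρ) ^ 2 / 4 / (17 + 2 * W.card)) with he0
    have he0p : 0 < e0 := lt_min (by positivity) (by positivity)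
    have he01 : e0 ≤ ε' / 3 := min_le_left _ _
    have he02 : (17 + 2 * (W.card : ℝ)) * e0 ≤ t ^ 2 * (1 - ρ) ^ 2 / 4 := by
      have := min_le_right (ε' / 3) (t ^ 2 * (1 - ρ) ^ 2 / 4 / (17 + 2 * W.card))
      rw [← he0, le_div_iff₀ (by positivity)] at this
      linarith
    have hidx : ∀ i : ℕ, ∃ V : Op (FreeGroup ι), IsAut V ∧
        (∀ j, j ≠ a → j ≠ b → V (dl (of j)) = dl (of j)) ∧
        ‖V (dl (of a)) - dl (of a)‖ ≤ 2 * ε' / 3 ∧ ∀ᶠ n in (𝒰 : Filter ℕ),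
        (ρn n + 2 * (-(t ^ 2 * ρ) - (W.card * (2 * t ^ 2 / k + e0) + 20 * t ^ 3 * Lw)
          - (1 - ρ) ^ 2 / 160 * (10 * t ^ 2 + e0) - e0) + t ^ 2 * (1 - 6 * e0)
          - 4 * t * (10 * t ^ 2 + e0))
          + t ^ 2 * ‖cut Γ (bet (U n) (of b) (lam (uw a c k i)⁻¹ (bet (U n) (of b) (dl 1))))‖ ^ 2
          ≤ ‖cut Γ (U n (V (dl (of b))))‖ ^ 2 := by
      intro i
      set u := uw a c k i with hu
      set D := dl u - dl (of b * u⁻¹ * of b) with hD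
      obtain ⟨s, hs1, hs2⟩ : ∃ s : ℝ, |s| = t ∧ 0 ≤ (⟪ξ, (s : ℂ) • D⟫_ℂ).re := by
        rcases le_total 0 (⟪ξ, (t : ℂ) • D⟫_ℂ).re with h | h
        · exact ⟨t, abs_of_pos ht0, h⟩
        · refine ⟨-t, by rw [abs_neg, abs_of_pos ht0], ?_⟩
          rw [Complex.ofReal_neg, neg_smul, inner_neg_right, Complex.neg_re]
          linarith
      have hs3 : s ^ 2 = t ^ 2 := by rw [← sq_abs, hs1]
      obtain ⟨V, r, hV, hVfix, hVa, hVb, nr, hr⟩ := step_pkg hac hab hcb k hk4 i s W hk3 e0 he0p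
      rw [hs1] at hVa hr
      rw [hs3] at nr hr
      refine ⟨V, hV, hVfix, ?_, ?_⟩
      · have h1 : √(2 / (k : ℝ)) ≤ ε' / 3 := Real.sqrt_le_iff.2 ⟨by positivity, hk2⟩
        have h2 : t * √(2 / (k : ℝ)) ≤ 1 * (ε' / 3) := by gcongr
        linarith
      · have huG : u ∈ Γ := uw_mem a c k i
        have hne : u ≠ of b * u⁻¹ * of b := by
          intro e
          have := congrArg (fun x => Multiplicative.toAdd (exb b x)) e
          have hb : exb b (of b) = Multiplicative.ofAdd 1 := by simp [exb]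
          simp only [map_mul, map_inv, exb_Gam hab hcb huG, hb, toAdd_mul, toAdd_inv, toAdd_ofAdd,
            toAdd_one] at this
          omega
        have nD : ‖D‖ ≤ 2 := (norm_sub_le _ _).trans (by rw [norm_dl, norm_dl]; norm_num)
        have l1 := re_inner_lower ξ r nξ (of b) W hbW _ hW (t ^ 2)
          (fun w => 2 * t ^ 2 / k + 20 * t ^ 3 * len w + e0) (fun w hw => by convert hr w hw)
        rw [hρeq, sum_add_distrib, sum_add_distrib, sum_const, sum_const, ← mul_sum, ← hLw,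
          nsmul_eq_mul, nsmul_eq_mul] at l1
        have l2 : (1 - ρ) ^ 2 / 160 * ‖r‖ ≤ (1 - ρ) ^ 2 / 160 * (10 * t ^ 2 + e0) := by gcongr
        have l3 := ((Complex.continuous_re.tendsto _).comp (hξ ((s : ℂ) • D + r))).eventually
          (le_mem_nhds (show (⟪ξ, (s : ℂ) • D + r⟫_ℂ).re - e0 < (⟪ξ, (s : ℂ) • D + r⟫_ℂ).re by
            linarith))
        filter_upwards [l3, (hnear u huG).eventually (ge_mem_nhds he0p)] with n n1 n2
        have m1 := cut_expand (Γ : Set _) (hU n).uni (dl (of b)) D r s nD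
        have m2 := cut_pair_lower Γ (hU n) huG hne
        rw [← hD] at m2
        rw [hs1, hs3, ← hVb] at m1
        simp only [Function.comp, inner_add_right, Complex.add_re] at n1
        rw [inner_add_right, Complex.add_re] at m1
        have m3 := mul_le_mul_of_nonneg_left m2 (sq_nonneg t)
        have m4 : 4 * t * ‖r‖ ≤ 4 * t * (10 * t ^ 2 + e0) := by gcongr
        have m5 : t ^ 2 * ‖U n (dl u) - dl u‖ ≤ t ^ 2 * e0 := by gcongr
        simp only [ρn, ξn] at n1 ⊢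
        linarith only [l1, l2, hs2, n1, m1, m3, m4, m5]
    choose V hV hVfix hVa hVb using hidx
    obtain ⟨n, n1, n2, n3⟩ := (((eventually_all_finset (range m)).2 (fun i _ => hVb i)).and
      ((hta.eventually (ge_mem_nhds (show 0 < ε' / 3 by positivity))).and
      (hρlim.eventually (le_mem_nhds (show ρ - e0 < ρ by linarith))))).exists
    have g1 := gap_estimate Γ (range m) (uw a c k) (fun i _ => uw_mem a c k i) (2 * √m)
      (by positivity) (uw_gap hac k m) ((hU n).bet_mem (of b))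
      (unitary_opnorm ((hU n).bet_unitary (of b)))
    rw [card_range] at g1
    have g2 := sum_le_sum n1
    rw [sum_add_distrib, sum_const, card_range, nsmul_eq_mul, ← mul_sum] at g2
    have g3 := gain_arith ρ (ρn n) t e0 _ W.card Lw k m (√m) _ hρ0 hρ1 n3 (by positivity) ht0 ht1
      he0p (by exact_mod_cast hm.1) rfl hm.2 ht2 hk1 he02
      (by simpa only [(hU n).bet_hat] using g1)
    have g4 : ∑ i ∈ range m, (ρ + t ^ 2 * (1 - ρ) ^ 2 / 4)
        ≤ ∑ i ∈ range m, ‖cut Γ (U n (V i (dl (of b))))‖ ^ 2 := by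
      rw [sum_const, card_range, nsmul_eq_mul]
      simp only [(hU n).bet_hat] at g2
      linarith
    obtain ⟨i, _, hi⟩ := exists_le_of_sum_le (nonempty_range_iff.2 hm.1.ne') g4
    refine ⟨U n * V i, (hU n).mul (hV i), fun j j1 j2 => ?_, ?_, ?_⟩
    · rw [op_mul_apply, hVfix i j j1 j2, hUfix n j j1 j2]
    · have e : (U n * V i) (dl (of a)) - dl (of a)
          = U n (V i (dl (of a)) - dl (of a)) + (U n (dl (of a)) - dl (of a)) := by simp
      rw [e]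
      refine (norm_add_le _ _).trans ?_
      rw [unitary_norm (hU n).uni]
      linarith [hVa i]
    · rw [op_mul_apply]; linarith
  have := hmax _ hgain
  have : 0 < t ^ 2 * (1 - ρ) ^ 2 / 4 := by positivity
  linarith

theorem absorb_one {a c b : ι} (hac : a ≠ c) (hab : a ≠ b) (hcb : c ≠ b) (ε : ℝ) (hε : 0 < ε) :
    ∃ U : Op (FreeGroup ι), IsAut U ∧ (∀ j, j ≠ a → j ≠ b → U (dl (of j)) = dl (of j)) ∧
      ‖U (dl (of a)) - dl (of a)‖ ≤ ε ∧
      ‖U (dl (of b)) - cut (Gam a c) (U (dl (of b)))‖ ≤ ε := by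
  have h0 : Att a c b 0 := fun ε hε =>
    ⟨1, IsAut.one, fun _ _ _ => rfl, by simpa using hε.le,
      le_trans (by linarith) (sq_nonneg _)⟩
  have hbd : ∀ ρ, Att a c b ρ → ρ ≤ 2 := by
    intro ρ h
    obtain ⟨U, hU, -, -, h1⟩ := h 1 one_pos
    have : ‖cut (Gam a c) (U (dl (of b)))‖ ≤ 1 :=
      (norm_cut_le _ _).trans (by rw [unitary_norm hU.uni, norm_dl])
    nlinarith [norm_nonneg (cut (Gam a c) (U (dl (of b))))]
  have hB : BddAbove {ρ | Att a c b ρ} := ⟨2, hbd⟩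
  have hsup : Att a c b (sSup {ρ | Att a c b ρ}) := by
    intro ε hε
    obtain ⟨ρ, h1, h2⟩ := exists_lt_of_lt_csSup (s := {ρ | Att a c b ρ}) ⟨0, h0⟩
      (show sSup {ρ | Att a c b ρ} - ε / 2 < sSup {ρ | Att a c b ρ} by linarith)
    obtain ⟨U, hU, h3, h4, h5⟩ := h1 (ε / 2) (by positivity)
    exact ⟨U, hU, h3, by linarith, by linarith⟩
  have hone : 1 ≤ sSup {ρ | Att a c b ρ} := by
    by_contra h
    exact improve hac hab hcb (le_csSup hB h0) (not_le.1 h) hsup (fun ρ' h' => le_csSup hB h')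
  obtain ⟨U, hU, h1, h2, h3⟩ := hsup (min ε (ε ^ 2)) (lt_min hε (by positivity))
  refine ⟨U, hU, h1, h2.trans (min_le_left _ _), ?_⟩
  apply (pow_le_pow_iff_left₀ (norm_nonneg _) hε.le two_ne_zero).1
  rw [cut_pythagoras, unitary_norm hU.uni, norm_dl]
  linarith [min_le_right ε (ε ^ 2)]

end Vale.Agent.P086
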