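import Vale.Agent.P086.Iso

/-!
The Baire category argument.
-/

set_option linter.unusedSectionVars false
set_option linter.deprecated false

namespace Vale.Agent.P086

open Finset Filter Topology
open FreeGroup (of)
open scoped InnerProductSpace ComplexConjugate

section General

variable {G : Type} [Group G]

theorem exists_unitary_of_closure {ζ : L2 G}
    (h : ζ ∈ closure {η : L2 G | ∃ A ∈ VN G, A ∈ unitary (Op G) ∧ A (dl 1) = η}) :
    ∃ A : unitary (Op G), (A : Op G) ∈ VN G ∧ (A : Op G) (dl 1) = ζ := by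
  classical
  have horth : Orthonormal ℂ (fun g : G => rho g⁻¹ ζ) := by
    rw [orthonormal_iff_ite]
    intro g k
    refine closure_minimal (t := {η : L2 G | ⟪rho g⁻¹ η, rho k⁻¹ η⟫_ℂ = if g = k then 1 else 0})
      ?_ (isClosed_eq ((rho g⁻¹).continuous.inner (rho k⁻¹).continuous) continuous_const) h
    rintro _ ⟨A, hA, hu, rfl⟩
    show ⟪rho g⁻¹ (A (dl 1)), rho k⁻¹ (A (dl 1))⟫_ℂ = _
    rw [← VN_dl hA, ← VN_dl hA, unitary_inner hu, inner_dl_left, dl_apply]
  let A : Op G := (isoOf horth).toContinuousLinearMap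
  have hA : ∀ g, A (dl g) = rho g⁻¹ ζ := fun g => isoOf_dl horth g
  have hA1 : A (dl 1) = ζ := by rw [hA, inv_one, rho_one]; rfl
  have hV : A ∈ VN G := by
    rw [mem_VN]
    intro k
    apply op_ext
    intro g
    rw [op_mul_apply, op_mul_apply, rho_dl, hA, hA, ← op_mul_apply, ← rho_mul]
    simp
  have nA : ‖A‖ ≤ 1 := ContinuousLinearMap.opNorm_le_bound _ zero_le_one
    (fun ξ => by rw [one_mul]; exact ((isoOf horth).norm_map ξ).le)
  have h2 : A * star A = 1 := by
    apply VN_ext (mul_mem hV (star_mem hV)) (one_mem _)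
    rw [← sub_eq_zero, ← norm_le_zero_iff]
    refine le_of_forall_pos_le_add fun ε hε => ?_
    obtain ⟨_, ⟨B, hB, hu, rfl⟩, hd⟩ := Metric.mem_closure_iff.1 h (ε / 2) (by positivity)
    have h3 := mul_hat_sub_le (y := star A) hV hB (star_mem hB) nA
      (unitary_opnorm (Unitary.star_mem hu))
    rw [star_hat_sub hV hB, apply_star_apply hu, hA1] at h3
    rw [dist_eq_norm] at hd
    rw [op_mul_apply, ContinuousLinearMap.one_apply]
    linarith
  exact ⟨⟨A, Unitary.mem_iff.2 ⟨star_mul_self_of_isometry _, h2⟩⟩, hV, hA1⟩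

/-- the representation of the free group on two generators given by a unitary and a group
element -/
noncomputable def piA (c : G) (A : unitary (Op G)) : FreeGroup Bool →* unitary (Op G) :=
  FreeGroup.lift (fun t => cond t A ⟨lam c, lam_unitary c⟩)

theorem piA_true (c : G) (A : unitary (Op G)) : piA c A (of true) = A := by simp [piA]

theorem piA_false (c : G) (A : unitary (Op G)) : (piA c A (of false) : Op G) = lam c := by
  simp [piA]

theorem piA_inv (c : G) (A : unitary (Op G)) (w : FreeGroup Bool) :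
    (piA c A w⁻¹ : Op G) = star (piA c A w : Op G) := by
  rw [map_inv, ← Unitary.star_eq_inv]; rfl

theorem piA_mem (c : G) {A : unitary (Op G)} (hA : (A : Op G) ∈ VN G) (w : FreeGroup Bool) :
    (piA c A w : Op G) ∈ VN G := by
  induction w using FreeGroup.induction_on with
  | C1 => rw [map_one]; exact one_mem _
  | of t =>
    cases t
    · rw [piA_false]; exact lam_mem c
    · rw [piA_true]; exact hA
  | inv_of t ih => rw [piA_inv]; exact star_mem ih
  | mul x y hx hy => rw [map_mul]; exact mul_mem hx hy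

theorem piA_lip (c : G) (w : FreeGroup Bool) : ∃ C : ℝ, 0 ≤ C ∧ ∀ A B : unitary (Op G),
    (A : Op G) ∈ VN G → (B : Op G) ∈ VN G →
    ‖(piA c A w : Op G) (dl 1) - (piA c B w : Op G) (dl 1)‖
      ≤ C * ‖(A : Op G) (dl 1) - (B : Op G) (dl 1)‖ := by
  induction w using FreeGroup.induction_on with
  | C1 => exact ⟨0, le_rfl, fun A B _ _ => by simp⟩
  | of t =>
    cases t
    · exact ⟨0, le_rfl, fun A B _ _ => by simp [piA_false]⟩
    · exact ⟨1, zero_le_one, fun A B _ _ => by simp [piA_true]⟩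
  | inv_of t ih =>
    obtain ⟨C, hC, h⟩ := ih
    refine ⟨C, hC, fun A B hA hB => ?_⟩
    rw [piA_inv, piA_inv, star_hat_sub (piA_mem c hA _) (piA_mem c hB _)]
    exact h A B hA hB
  | mul x y hx hy =>
    obtain ⟨C, hC, h⟩ := hx
    obtain ⟨D, hD, h'⟩ := hy
    refine ⟨C + D, by positivity, fun A B hA hB => ?_⟩
    rw [map_mul, map_mul, Submonoid.coe_mul, Submonoid.coe_mul, op_mul_apply, op_mul_apply]
    refine (mul_hat_sub_le (piA_mem c hA x) (piA_mem c hB x) (piA_mem c hB y)
      (unitary_opnorm (piA c A x).2) (unitary_opnorm (piA c B y).2)).trans ?_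
    linarith [h A B hA hB, h' A B hA hB]

theorem piA_bet {U : Op G} (hU : IsAut U) (e : FreeGroup Bool →* G)
    (hc : U (dl (e (of false))) = dl (e (of false))) {A : unitary (Op G)} (hA : (A : Op G) ∈ VN G)
    (hA1 : (A : Op G) (dl 1) = U (dl (e (of true)))) (w : FreeGroup Bool) :
    (piA (e (of false)) A w : Op G) = bet U (e w) := by
  induction w using FreeGroup.induction_on with
  | C1 =>
    rw [map_one, map_one]
    exact VN_ext (one_mem _) (hU.bet_mem _) (by rw [hU.bet_hat, hU.fix]; rfl)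
  | of t =>
    cases t
    · rw [piA_false]
      exact VN_ext (lam_mem _) (hU.bet_mem _) (by rw [hU.bet_hat, hc, lam_dl, mul_one])
    · rw [piA_true]
      exact VN_ext hA (hU.bet_mem _) (by rw [hU.bet_hat, hA1])
  | inv_of t ih => rw [piA_inv, ih, map_inv, bet_inv]
  | mul x y hx hy => rw [map_mul, map_mul, Submonoid.coe_mul, hx, hy, hU.bet_mul]

theorem approx_range {H : Type} (e : H → G) (ξ : L2 G) (ε : ℝ) (hε : 0 < ε) :
    ∃ f : H →₀ ℂ, ‖cut (Set.range e) ξ - f.sum (fun w z => z • dl (e w))‖ < ε := by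
  let S : Submodule ℂ (L2 G) := (Submodule.span ℂ (Set.range fun w => dl (e w))).topologicalClosure
  have h : cut (Set.range e) ξ ∈ S := by
    refine span_cut (Set.range e) _ (cut_cut _ _) (fun η => η ∈ S)
      (Submodule.isClosed_topologicalClosure _) S.zero_mem (fun _ _ => S.add_mem) ?_
    rintro z _ ⟨w, rfl⟩
    exact S.smul_mem _ (Submodule.le_topologicalClosure _ (Submodule.subset_span ⟨w, rfl⟩))
  obtain ⟨v, hv, hd⟩ := Metric.mem_closure_iff.1 h ε hε
  obtain ⟨f, rfl⟩ := Finsupp.mem_span_range_iff_exists_finsupp.1 hv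
  exact ⟨f, by rwa [dist_eq_norm] at hd⟩

theorem baire_rep [Countable G] (e : FreeGroup Bool →* G) (he : Function.Injective e)
    (habs : ∀ (η : L2 G) (ε : ℝ), 0 < ε → ∃ W : Op G, IsAut W ∧
      W (dl (e (of false))) = dl (e (of false)) ∧
      ‖W (dl (e (of true))) - dl (e (of true))‖ ≤ ε ∧ ‖W η - cut (Set.range e) (W η)‖ ≤ ε) :
    VNIsomorphic (FreeGroup Bool) G := by
  classical
  set a := e (of true) with ha
  set c := e (of false) with hc
  let X0 : Set (L2 G) := {η | ∃ U : Op G, IsAut U ∧ U (dl c) = dl c ∧ U (dl a) = η}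
  have hX : ∀ ζ : closure X0, ∃ A : unitary (Op G), (A : Op G) ∈ VN G ∧ (A : Op G) (dl 1) = ζ := by
    intro ζ
    refine exists_unitary_of_closure (closure_mono ?_ ζ.2)
    rintro _ ⟨U, hU, -, rfl⟩
    exact ⟨bet U a, hU.bet_mem a, hU.bet_unitary a, hU.bet_hat a⟩
  choose A hA hA1 using hX
  let Φ : FreeGroup Bool → closure X0 → L2 G := fun w ζ => (piA c (A ζ) w : Op G) (dl 1)
  have hΦ : ∀ w, Continuous (Φ w) := by
    intro w
    obtain ⟨C, hC, h⟩ := piA_lip c w
    refine (LipschitzWith.of_dist_le_mul (K := ⟨C, hC⟩) fun ζ ζ' => ?_).continuous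
    have := h (A ζ) (A ζ') (hA ζ) (hA ζ')
    rw [hA1, hA1] at this
    rw [dist_eq_norm, Subtype.dist_eq, dist_eq_norm]
    exact this
  have hΦ0 : ∀ (U : Op G), IsAut U → U (dl c) = dl c → ∀ ζ : closure X0, U (dl a) = ζ →
      ∀ w, Φ w ζ = U (dl (e w)) := by
    intro U hU hUc ζ hζ w
    show (piA c (A ζ) w : Op G) (dl 1) = _
    rw [piA_bet hU e hUc (hA ζ) (by rw [hA1, hζ]), hU.bet_hat]
  have hdense : Dense {ζ : closure X0 | (ζ : L2 G) ∈ X0} := by
    rw [Subtype.dense_iff]
    refine closure_mono ?_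
    intro η hη
    exact ⟨⟨η, subset_closure hη⟩, hη, rfl⟩
  have horth : ∀ ζ, Orthonormal ℂ (fun w => Φ w ζ) := by
    intro ζ
    rw [orthonormal_iff_ite]
    intro v w
    refine closure_minimal (t := {ζ | ⟪Φ v ζ, Φ w ζ⟫_ℂ = if v = w then 1 else 0}) ?_
      (isClosed_eq ((hΦ v).inner (hΦ w)) continuous_const) (hdense ζ)
    rintro ζ ⟨U, hU, hUc, hζ⟩
    show ⟪Φ v ζ, Φ w ζ⟫_ℂ = _
    rw [hΦ0 U hU hUc ζ hζ, hΦ0 U hU hUc ζ hζ, unitary_inner hU.uni, inner_dl_left, dl_apply]
    simp only [he.eq_iff]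
  let O : G × ℕ → Set (closure X0) := fun p =>
    ⋃ f : FreeGroup Bool →₀ ℂ, {ζ | ‖dl p.1 - f.sum (fun w z => z • Φ w ζ)‖ < 1 / ((p.2 : ℝ) + 1)}
  have hO : ∀ p, IsOpen (O p) := by
    intro p
    refine isOpen_iUnion fun f => isOpen_lt ?_ continuous_const
    refine (continuous_const.sub ?_).norm
    exact continuous_finset_sum _ fun w _ => (hΦ w).const_smul (f w)
  have hD : ∀ p, Dense (O p) := by
    rintro ⟨g, n⟩
    rw [Metric.dense_iff]
    intro ζ ε hε
    obtain ⟨_, ⟨U, hU, hUc, rfl⟩, hd⟩ := Metric.mem_closure_iff.1 ζ.2 (ε / 2) (by positivity)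
    have hn : (0 : ℝ) < 1 / ((n : ℝ) + 1) / 2 := by positivity
    obtain ⟨W, hW, hWc, hWa, hWη⟩ := habs (star U (dl g)) (min (ε / 2) (1 / ((n : ℝ) + 1) / 2))
      (lt_min (by positivity) hn)
    have hU' : IsAut (U * star W) := hU.mul hW.adj
    have hc' : (U * star W) (dl c) = dl c := by
      have := star_apply_apply hW.uni (dl c)
      rw [hWc] at this
      rw [op_mul_apply, this, hUc]
    let ζ' : closure X0 := ⟨(U * star W) (dl a), subset_closure ⟨_, hU', hc', rfl⟩⟩
    obtain ⟨f, hf⟩ := approx_range e (W (star U (dl g))) _ hn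
    refine ⟨ζ', ?_, Set.mem_iUnion.2 ⟨f, ?_⟩⟩
    · rw [Metric.mem_ball, Subtype.dist_eq]
      have h1 : dist ((U * star W) (dl a)) (U (dl a)) ≤ ε / 2 := by
        rw [dist_eq_norm, op_mul_apply, ← map_sub, unitary_norm hU.uni, hW.near_star]
        exact hWa.trans (min_le_left _ _)
      have h2 := dist_triangle ((U * star W) (dl a)) (U (dl a)) ζ
      rw [dist_comm] at hd
      show dist ((U * star W) (dl a)) ζ < ε
      linarith
    · show ‖dl g - f.sum (fun w z => z • Φ w ζ')‖ < 1 / ((n : ℝ) + 1)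
      have e1 : dl g - f.sum (fun w z => z • Φ w ζ') = (U * star W)
          ((W (star U (dl g)) - cut (Set.range e) (W (star U (dl g))))
            + (cut (Set.range e) (W (star U (dl g))) - f.sum (fun w z => z • dl (e w)))) := by
        rw [sub_add_sub_cancel, map_sub, op_mul_apply, star_apply_apply hW.uni,
          apply_star_apply hU.uni]
        simp only [Finsupp.sum, map_sum, map_smul, hΦ0 _ hU' hc' ζ' rfl]
      rw [e1, unitary_norm hU'.uni]
      refine (norm_add_le _ _).trans_lt ?_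
      linarith [hWη.trans (min_le_right _ _)]
  have : CompleteSpace (closure X0) := isClosed_closure.completeSpace_coe
  have : Nonempty (closure X0) := ⟨⟨dl a, subset_closure ⟨1, IsAut.one, rfl, rfl⟩⟩⟩
  obtain ⟨ζ, hζ⟩ := (dense_iInter_of_isOpen hO hD).nonempty
  refine iso_of_rep (piA c (A ζ)) (piA_mem c (hA ζ)) (horth ζ) fun g ε hε => ?_
  obtain ⟨n, hn⟩ := exists_nat_one_div_lt hε
  obtain ⟨f, hf⟩ := Set.mem_iUnion.1 (Set.mem_iInter.1 hζ (g, n))
  exact ⟨f, lt_trans hf hn⟩

end General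

theorem free_iso {ι : Type} [Countable ι] {a c : ι} (hac : a ≠ c) :
    VNIsomorphic (FreeGroup Bool) (FreeGroup ι) := by
  have hinj : Function.Injective (fun t : Bool => cond t a c) := by
    intro s t h
    cases s <;> cases t
    · rfl
    · exact absurd h.symm hac
    · exact absurd h hac
    · rfl
  have hr : Set.range (FreeGroup.map (fun t : Bool => cond t a c)) = Gam a c := by
    rw [← MonoidHom.coe_range, FreeGroup.range_map, Gam]
    congr 2
    ext x
    simp [Set.mem_image, eq_comm, or_comm]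
  refine baire_rep (FreeGroup.map (fun t : Bool => cond t a c)) (FreeGroup.map_injective hinj) ?_
  intro η ε hε
  rw [hr]
  exact absorb_vector hac η ε hε

end Vale.Agent.P086
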