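import Vale.Agent.P086.Defs

/-!
Basic facts on `ℓ²(G)`, the regular representations and the commutant of the right regular
representation.
-/

set_option linter.unusedSectionVars false

namespace Vale.Agent.P086

open Finset Filter Topology
open scoped InnerProductSpace ComplexConjugate

variable {G : Type}

theorem op_mul_apply (x y : Op G) (ξ : L2 G) : (x * y) ξ = x (y ξ) := rfl

theorem l2_add_apply (ξ η : L2 G) (h : G) : (ξ + η) h = ξ h + η h := rfl

theorem l2_sub_apply (ξ η : L2 G) (h : G) : (ξ - η) h = ξ h - η h := rfl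

theorem l2_smul_apply (c : ℂ) (ξ : L2 G) (h : G) : (c • ξ) h = c * ξ h := rfl

theorem op_norm_star (x : Op G) : ‖star x‖ = ‖x‖ := norm_star x

open Classical in
/-- the basis vector at `g` -/
noncomputable def dl (g : G) : L2 G := lp.single 2 g (1 : ℂ)

open Classical in
theorem dl_apply (g h : G) : dl g h = if h = g then 1 else 0 := by
  unfold dl
  rw [lp.single_apply, Pi.single_apply]

theorem dl_apply_self (g : G) : dl g g = 1 := by simp [dl_apply]

theorem dl_apply_ne {g h : G} (hne : h ≠ g) : dl g h = 0 := by simp [dl_apply, hne]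

theorem inner_dl_left (g : G) (ξ : L2 G) : ⟪dl g, ξ⟫_ℂ = ξ g := by
  classical
  unfold dl
  rw [lp.inner_single_left]
  simp

theorem inner_dl_right (g : G) (ξ : L2 G) : ⟪ξ, dl g⟫_ℂ = conj (ξ g) := by
  rw [← inner_conj_symm, inner_dl_left]

theorem norm_dl (g : G) : ‖dl g‖ = 1 := by
  classical
  unfold dl
  rw [lp.norm_single (by norm_num)]
  simp

theorem orthonormal_dl : Orthonormal ℂ (dl : G → L2 G) := by
  classical
  rw [orthonormal_iff_ite]
  intro i j
  rw [inner_dl_left, dl_apply]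

theorem l2_hasSum (ξ : L2 G) : HasSum (fun h => ‖ξ h‖ ^ 2) (‖ξ‖ ^ 2) := by
  have h := lp.hasSum_norm (p := 2) (by norm_num) ξ
  simpa [Real.rpow_two] using h

theorem l2_sum_le (ξ : L2 G) (s : Finset G) : ∑ h ∈ s, ‖ξ h‖ ^ 2 ≤ ‖ξ‖ ^ 2 :=
  sum_le_hasSum s (fun _ _ => sq_nonneg _) (l2_hasSum ξ)

theorem norm_apply_le (ξ : L2 G) (h : G) : ‖ξ h‖ ≤ ‖ξ‖ :=
  lp.norm_apply_le_norm (by norm_num) ξ h

theorem l2_mem (f : G → ℂ) (C : ℝ) (h : ∀ s : Finset G, ∑ h ∈ s, ‖f h‖ ^ 2 ≤ C) : Memℓp f 2 := by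
  apply memℓp_gen' (C := C)
  intro s
  simpa [Real.rpow_two] using h s

theorem l2_norm_sq_le (ξ : L2 G) (C : ℝ) (h : ∀ s : Finset G, ∑ h ∈ s, ‖ξ h‖ ^ 2 ≤ C) :
    ‖ξ‖ ^ 2 ≤ C :=
  hasSum_le_of_sum_le (l2_hasSum ξ) h

theorem l2_hasSum_dl (ξ : L2 G) : HasSum (fun g => ξ g • dl g) ξ := by
  classical
  have h := lp.hasSum_single (p := 2) (by norm_num) ξ
  convert h using 2 with g
  unfold dl
  rw [← lp.single_smul]
  congr
  simp

theorem op_ext {E : Type} [NormedAddCommGroup E] [NormedSpace ℂ E] {x y : L2 G →L[ℂ] E}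
    (h : ∀ g, x (dl g) = y (dl g)) : x = y := by
  ext1 ξ
  have h1 := (l2_hasSum_dl ξ).mapL x
  have h2 := (l2_hasSum_dl ξ).mapL y
  simp only [map_smul, h] at h1 h2
  exact h1.unique h2

theorem l2_induction (P : L2 G → Prop) (hc : IsClosed {ξ | P ξ}) (h0 : P 0)
    (hadd : ∀ ξ η, P ξ → P η → P (ξ + η)) (hdl : ∀ (c : ℂ) g, P (c • dl g)) (ξ : L2 G) : P ξ := by
  classical
  refine hc.mem_of_tendsto (l2_hasSum_dl ξ) (Eventually.of_forall fun s => ?_)
  show P _
  induction s using Finset.induction_on with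
  | empty => simpa using h0
  | insert a s ha ih => rw [sum_insert ha]; exact hadd _ _ (hdl _ _) ih

/-- the isometry determined by an orthonormal family -/
noncomputable def isoOf {E : Type} [NormedAddCommGroup E] [InnerProductSpace ℂ E]
    [CompleteSpace E] {v : G → E} (hv : Orthonormal ℂ v) : L2 G →ₗᵢ[ℂ] E :=
  hv.orthogonalFamily.linearIsometry

theorem isoOf_dl {E : Type} [NormedAddCommGroup E] [InnerProductSpace ℂ E]
    [CompleteSpace E] {v : G → E} (hv : Orthonormal ℂ v) (g : G) : isoOf hv (dl g) = v g := by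
  unfold isoOf dl
  rw [OrthogonalFamily.linearIsometry_apply_single]
  simp

theorem star_mul_self_of_isometry (V : L2 G →ₗᵢ[ℂ] L2 G) :
    star V.toContinuousLinearMap * V.toContinuousLinearMap = 1 := by
  ext1 ξ
  apply ext_inner_left ℂ
  intro η
  rw [op_mul_apply, ContinuousLinearMap.star_eq_adjoint,
    ContinuousLinearMap.adjoint_inner_right]
  simp

/-- permutation operator -/
noncomputable def perm (σ : G ≃ G) : Op G :=
  (isoOf (orthonormal_dl.comp σ σ.injective)).toContinuousLinearMap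

theorem perm_dl (σ : G ≃ G) (g : G) : perm σ (dl g) = dl (σ g) :=
  isoOf_dl (orthonormal_dl.comp σ σ.injective) g

theorem norm_perm (σ : G ≃ G) (ξ : L2 G) : ‖perm σ ξ‖ = ‖ξ‖ :=
  (isoOf (orthonormal_dl.comp σ σ.injective)).norm_map ξ

theorem perm_apply (σ : G ≃ G) (ξ : L2 G) (h : G) : perm σ ξ h = ξ (σ.symm h) := by
  have : (innerSL ℂ (dl h)).comp (perm σ) = innerSL ℂ (dl (σ.symm h)) := by
    apply op_ext
    intro g
    simp only [ContinuousLinearMap.comp_apply, perm_dl, innerSL_apply_apply, inner_dl_left, dl_apply]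
    by_cases hh : h = σ g
    · simp [hh]
    · have : ¬ σ.symm h = g := fun e => hh (by rw [← e]; simp)
      simp [hh, this]
  have h2 := congrArg (fun T => T ξ) this
  simpa [inner_dl_left] using h2

theorem star_perm (σ : G ≃ G) : star (perm σ) = perm σ.symm := by
  apply op_ext
  intro g
  apply lp.ext
  funext h
  rw [← inner_dl_left, ContinuousLinearMap.star_eq_adjoint, ContinuousLinearMap.adjoint_inner_right,
    inner_dl_right, perm_apply, perm_dl, dl_apply, dl_apply]
  by_cases hh : h = σ.symm g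
  · simp [hh]
  · simp [hh, Ne.symm hh]

variable [Group G]

/-- left regular representation -/
noncomputable def lam (g : G) : Op G := perm (Equiv.mulLeft g)

/-- right regular representation -/
noncomputable def rho (g : G) : Op G := perm (Equiv.mulRight g⁻¹)

theorem lam_dl (g h : G) : lam g (dl h) = dl (g * h) := perm_dl _ _

theorem rho_dl (g h : G) : rho g (dl h) = dl (h * g⁻¹) := perm_dl _ _

theorem lam_apply (g : G) (ξ : L2 G) (h : G) : lam g ξ h = ξ (g⁻¹ * h) := by
  rw [lam, perm_apply]; simp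

theorem rho_apply (g : G) (ξ : L2 G) (h : G) : rho g ξ h = ξ (h * g) := by
  rw [rho, perm_apply]; simp

theorem norm_lam (g : G) (ξ : L2 G) : ‖lam g ξ‖ = ‖ξ‖ := norm_perm _ _

theorem norm_rho (g : G) (ξ : L2 G) : ‖rho g ξ‖ = ‖ξ‖ := norm_perm _ _

theorem lam_mul (g h : G) : lam (g * h) = lam g * lam h := by
  apply op_ext; intro k; simp [lam_dl, mul_assoc]

theorem lam_one : lam (1 : G) = 1 := by
  apply op_ext; intro k; simp [lam_dl]

theorem rho_mul (g h : G) : rho (g * h) = rho g * rho h := by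
  apply op_ext; intro k; simp [rho_dl, mul_assoc]

theorem rho_one : rho (1 : G) = 1 := by
  apply op_ext; intro k; simp [rho_dl]

theorem star_lam (g : G) : star (lam g) = lam g⁻¹ := by
  rw [lam, star_perm, lam]; simp

theorem star_rho (g : G) : star (rho g) = rho g⁻¹ := by
  rw [rho, star_perm, rho]; simp

theorem lam_unitary (g : G) : lam g ∈ unitary (Op G) := by
  rw [Unitary.mem_iff, star_lam, ← lam_mul, ← lam_mul]
  simp [lam_one]

theorem opnorm_lam_le (g : G) : ‖lam g‖ ≤ 1 :=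
  ContinuousLinearMap.opNorm_le_bound _ zero_le_one (fun ξ => by simp [norm_lam])

/-- the commutant of the right regular representation -/
noncomputable def VN (G : Type) [Group G] : StarSubalgebra ℂ (Op G) :=
  StarSubalgebra.centralizer ℂ (Set.range (rho : G → Op G))

theorem mem_VN {x : Op G} : x ∈ VN G ↔ ∀ g, rho g * x = x * rho g := by
  rw [VN, StarSubalgebra.mem_centralizer_iff]
  constructor
  · intro h g
    exact (h _ ⟨g, rfl⟩).1
  · rintro h _ ⟨g, rfl⟩
    exact ⟨h g, by rw [star_rho]; exact h _⟩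

theorem lam_mem (g : G) : lam g ∈ VN G := by
  rw [mem_VN]
  intro h
  apply op_ext; intro k; simp [lam_dl, rho_dl, mul_assoc]

theorem VN_rho {x : Op G} (hx : x ∈ VN G) (g : G) (ξ : L2 G) : x (rho g ξ) = rho g (x ξ) := by
  have := congrArg (fun T => T ξ) (mem_VN.1 hx g)
  simpa using this.symm

theorem VN_dl {x : Op G} (hx : x ∈ VN G) (g : G) : x (dl g) = rho g⁻¹ (x (dl 1)) := by
  rw [← VN_rho hx, rho_dl]; simp

theorem VN_dl_apply {x : Op G} (hx : x ∈ VN G) (g h : G) : x (dl g) h = x (dl 1) (h * g⁻¹) := by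
  rw [VN_dl hx, rho_apply]

theorem norm_VN_dl {x : Op G} (hx : x ∈ VN G) (g : G) : ‖x (dl g)‖ = ‖x (dl 1)‖ := by
  rw [VN_dl hx, norm_rho]

theorem VN_ext {x y : Op G} (hx : x ∈ VN G) (hy : y ∈ VN G) (h : x (dl 1) = y (dl 1)) : x = y := by
  apply op_ext
  intro g
  rw [VN_dl hx, VN_dl hy, h]

theorem inner_star_right (x : Op G) (ξ η : L2 G) : ⟪ξ, star x η⟫_ℂ = ⟪x ξ, η⟫_ℂ := by
  rw [ContinuousLinearMap.star_eq_adjoint, ContinuousLinearMap.adjoint_inner_right]

theorem inner_star_left (x : Op G) (ξ η : L2 G) : ⟪star x ξ, η⟫_ℂ = ⟪ξ, x η⟫_ℂ := by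
  rw [ContinuousLinearMap.star_eq_adjoint, ContinuousLinearMap.adjoint_inner_left]

theorem star_hat_apply {x : Op G} (hx : x ∈ VN G) (h : G) :
    star x (dl 1) h = conj (x (dl 1) h⁻¹) := by
  rw [← inner_dl_left, inner_star_right, inner_dl_right, VN_dl_apply hx]; simp

theorem norm_star_hat {x : Op G} (hx : x ∈ VN G) : ‖star x (dl 1)‖ = ‖x (dl 1)‖ := by
  have h1 := l2_hasSum (star x (dl 1))
  have h2 := (Equiv.inv G).hasSum_iff.2 (l2_hasSum (x (dl 1)))
  simp only [star_hat_apply hx, RCLike.norm_conj] at h1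
  have := h1.unique h2
  exact (pow_left_inj₀ (norm_nonneg _) (norm_nonneg _) two_ne_zero).1 this

theorem norm_mul_hat_le {x y : Op G} (hx : x ∈ VN G) (hy : y ∈ VN G) :
    ‖x (y (dl 1))‖ ≤ ‖y‖ * ‖x (dl 1)‖ := by
  have h1 := norm_star_hat (mul_mem hx hy)
  rw [star_mul] at h1
  have h2 : ‖x (y (dl 1))‖ = ‖star y (star x (dl 1))‖ := h1.symm
  rw [h2, ← norm_star_hat hx, ← norm_star y]
  exact (star y).le_opNorm _

theorem lam_comm_dl {y : Op G} (hy : ∀ g, lam g * y = y * lam g) (g h : G) :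
    y (dl g) h = y (dl 1) (g⁻¹ * h) := by
  have := congrArg (fun T => T (dl 1)) (hy g)
  simp only [op_mul_apply, lam_dl, mul_one] at this
  rw [← this, lam_apply]

theorem comm_of_VN {x y : Op G} (hx : x ∈ VN G) (hy : ∀ g, lam g * y = y * lam g) :
    x * y = y * x := by
  apply op_ext
  intro g
  apply lp.ext
  funext h
  have h1 := lp.hasSum_inner (𝕜 := ℂ) (star x (dl h)) (y (dl g))
  have h2 := lp.hasSum_inner (𝕜 := ℂ) (star y (dl h)) (x (dl g))
  rw [inner_star_left, inner_dl_left] at h1 h2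
  have e1 : ∀ k, ⟪star x (dl h) k, y (dl g) k⟫_ℂ = y (dl 1) (g⁻¹ * k) * x (dl 1) (h * k⁻¹) := by
    intro k
    rw [← inner_dl_left k (star x (dl h)), inner_star_right, inner_dl_right, VN_dl_apply hx,
      lam_comm_dl hy]
    simp
  have e2 : ∀ k, ⟪star y (dl h) k, x (dl g) k⟫_ℂ = x (dl 1) (k * g⁻¹) * y (dl 1) (k⁻¹ * h) := by
    intro k
    rw [← inner_dl_left k (star y (dl h)), inner_star_right, inner_dl_right, VN_dl_apply hx,
      lam_comm_dl hy]
    simp
  simp only [e1] at h1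
  simp only [e2] at h2
  let σ : G ≃ G := (Equiv.inv G).trans ((Equiv.mulLeft h).trans (Equiv.mulRight g))
  have h3 := σ.hasSum_iff.2 h2
  have e3 : ((fun k => x (dl 1) (k * g⁻¹) * y (dl 1) (k⁻¹ * h)) ∘ σ)
      = fun k => y (dl 1) (g⁻¹ * k) * x (dl 1) (h * k⁻¹) := by
    funext k
    simp only [σ, Function.comp, Equiv.trans_apply, Equiv.inv_apply, Equiv.coe_mulLeft,
      Equiv.coe_mulRight]
    rw [mul_comm]
    congr 2 <;> group
  rw [e3] at h3
  exact h1.unique h3

theorem mem_VN_iff_comm {x : Op G} :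
    x ∈ VN G ↔ ∀ y : Op G, (∀ g, lam g * y = y * lam g) → x * y = y * x := by
  constructor
  · intro hx y hy; exact comm_of_VN hx hy
  · intro h
    rw [mem_VN]
    intro g
    exact (h (rho g) (fun k => (mem_VN.1 (lam_mem k) g).symm)).symm

theorem leftTranslations_eq : leftTranslations G = Set.range lam := by
  ext T
  constructor
  · rintro ⟨g, hg⟩
    refine ⟨g, ?_⟩
    ext1 ξ
    apply lp.ext
    funext h
    rw [lam_apply, hg]
  · rintro ⟨g, rfl⟩
    exact ⟨g, lam_apply g⟩

theorem mem_bicommutant {x : Op G} : x ∈ bicommutant (leftTranslations G) ↔ x ∈ VN G := by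
  have key : ∀ y : Op G, y ∈ commutant (leftTranslations G) ↔ ∀ g, lam g * y = y * lam g := by
    intro y
    rw [commutant, StarSubalgebra.mem_centralizer_iff, leftTranslations_eq]
    constructor
    · intro h g
      exact (h _ ⟨g, rfl⟩).1
    · rintro h _ ⟨g, rfl⟩
      exact ⟨h g, by rw [star_lam]; exact h _⟩
  rw [bicommutant, commutant, StarSubalgebra.mem_centralizer_iff, mem_VN_iff_comm]
  constructor
  · intro h y hy
    exact ((h y ((key y).2 hy)).1).symm
  · intro h y hy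
    have hy' : y ∈ commutant (leftTranslations G) := hy
    exact ⟨(h y ((key y).1 hy')).symm, (h _ ((key _).1 (star_mem hy'))).symm⟩

theorem unitary_norm {U : Op G} (hU : U ∈ unitary (Op G)) (ξ : L2 G) : ‖U ξ‖ = ‖ξ‖ := by
  have h : ⟪U ξ, U ξ⟫_ℂ = ⟪ξ, ξ⟫_ℂ := by
    rw [← inner_star_right, ← op_mul_apply, (Unitary.mem_iff.1 hU).1]; rfl
  rw [inner_self_eq_norm_sq_to_K, inner_self_eq_norm_sq_to_K] at h
  have h' : ‖U ξ‖ ^ 2 = ‖ξ‖ ^ 2 := by exact_mod_cast h
  exact (pow_left_inj₀ (norm_nonneg _) (norm_nonneg _) two_ne_zero).1 h'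

theorem unitary_inner {U : Op G} (hU : U ∈ unitary (Op G)) (ξ η : L2 G) :
    ⟪U ξ, U η⟫_ℂ = ⟪ξ, η⟫_ℂ := by
  rw [← inner_star_right, ← op_mul_apply, (Unitary.mem_iff.1 hU).1]; rfl

theorem unitary_opnorm {U : Op G} (hU : U ∈ unitary (Op G)) : ‖U‖ ≤ 1 :=
  ContinuousLinearMap.opNorm_le_bound _ zero_le_one (fun ξ => by simp [unitary_norm hU])

theorem star_apply_apply {U : Op G} (hU : U ∈ unitary (Op G)) (ξ : L2 G) : star U (U ξ) = ξ := by
  rw [← op_mul_apply, (Unitary.mem_iff.1 hU).1]; rfl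

theorem apply_star_apply {U : Op G} (hU : U ∈ unitary (Op G)) (ξ : L2 G) : U (star U ξ) = ξ := by
  rw [← op_mul_apply, (Unitary.mem_iff.1 hU).2]; rfl

theorem norm_apply_le_of_le_one {x : Op G} (hx : ‖x‖ ≤ 1) (ξ : L2 G) : ‖x ξ‖ ≤ ‖ξ‖ := by
  have := x.le_opNorm ξ
  nlinarith [norm_nonneg ξ]

theorem mul_hat_sub_le {x y x' y' : Op G} (hx : x ∈ VN G) (hx' : x' ∈ VN G)
    (hy' : y' ∈ VN G) (nx : ‖x‖ ≤ 1) (ny' : ‖y'‖ ≤ 1) :
    ‖x (y (dl 1)) - x' (y' (dl 1))‖ ≤ ‖x (dl 1) - x' (dl 1)‖ + ‖y (dl 1) - y' (dl 1)‖ := by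
  have e : x (y (dl 1)) - x' (y' (dl 1)) = (x - x') (y' (dl 1)) + x (y (dl 1) - y' (dl 1)) := by
    simp
  rw [e]
  refine (norm_add_le _ _).trans (add_le_add ?_ (norm_apply_le_of_le_one nx _))
  have := norm_mul_hat_le (sub_mem hx hx') hy'
  have h2 : (x - x') (dl 1) = x (dl 1) - x' (dl 1) := rfl
  rw [h2] at this
  nlinarith [norm_nonneg (x (dl 1) - x' (dl 1))]

theorem star_hat_sub {x x' : Op G} (hx : x ∈ VN G) (hx' : x' ∈ VN G) :
    ‖star x (dl 1) - star x' (dl 1)‖ = ‖x (dl 1) - x' (dl 1)‖ := by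
  have := norm_star_hat (sub_mem hx hx')
  rw [star_sub] at this
  exact this

/-- unitaries implementing trace preserving automorphisms -/
structure IsAut (U : Op G) : Prop where
  uni : U ∈ unitary (Op G)
  fix : U (dl 1) = dl 1
  fwd : ∀ g, U * lam g * star U ∈ VN G
  bwd : ∀ g, star U * lam g * U ∈ VN G

theorem conj_mem_aux {U x : Op G} (hU : U ∈ unitary (Op G))
    (hf : ∀ g, U * lam g * star U ∈ VN G)
    (hx : x ∈ VN G) : U * x * star U ∈ VN G := by
  rw [mem_VN]
  intro g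
  have h1 := (Unitary.mem_iff.1 hU).1
  have h2 := (Unitary.mem_iff.1 hU).2
  have key : ∀ k, lam k * (star U * rho g * U) = (star U * rho g * U) * lam k := by
    intro k
    have := mem_VN.1 (hf k) g
    calc lam k * (star U * rho g * U) = (star U * U) * lam k * (star U * rho g * U) := by
          rw [h1, one_mul]
      _ = star U * (U * lam k * star U * rho g) * U := by simp only [mul_assoc]
      _ = star U * (rho g * (U * lam k * star U)) * U := by rw [this]
      _ = star U * rho g * U * lam k * (star U * U) := by simp only [mul_assoc]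
      _ = _ := by rw [h1, mul_one]
  have := comm_of_VN hx key
  calc rho g * (U * x * star U) = (U * star U) * rho g * (U * x * star U) := by rw [h2, one_mul]
    _ = U * (star U * rho g * U * x) * star U := by simp only [mul_assoc]
    _ = U * (x * (star U * rho g * U)) * star U := by rw [this]
    _ = U * x * star U * rho g * (U * star U) := by simp only [mul_assoc]
    _ = _ := by rw [h2, mul_one]

theorem IsAut.conj_mem {U x : Op G} (hU : IsAut U) (hx : x ∈ VN G) : U * x * star U ∈ VN G :=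
  conj_mem_aux hU.uni hU.fwd hx

theorem IsAut.star_fix {U : Op G} (hU : IsAut U) : star U (dl 1) = dl 1 := by
  have := star_apply_apply hU.uni (dl 1)
  rwa [hU.fix] at this

theorem IsAut.adj {U : Op G} (hU : IsAut U) : IsAut (star U) :=
  ⟨Unitary.star_mem hU.uni, hU.star_fix, fun g => by rw [star_star]; exact hU.bwd g,
    fun g => by rw [star_star]; exact hU.fwd g⟩

theorem IsAut.one : IsAut (1 : Op G) :=
  ⟨one_mem _, rfl, fun g => by simpa using lam_mem g, fun g => by simpa using lam_mem g⟩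

theorem IsAut.mul {U V : Op G} (hU : IsAut U) (hV : IsAut V) : IsAut (U * V) := by
  refine ⟨mul_mem hU.uni hV.uni, by simp [hU.fix, hV.fix], fun g => ?_, fun g => ?_⟩
  · have := hU.conj_mem (hV.fwd g)
    rw [star_mul]
    simpa only [mul_assoc] using this
  · have := hV.adj.conj_mem (hU.bwd g)
    rw [star_mul]
    simpa only [mul_assoc, star_star] using this

theorem IsAut.pow {U : Op G} (hU : IsAut U) (n : ℕ) : IsAut (U ^ n) := by
  induction n with
  | zero => simpa using IsAut.one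
  | succ n ih => rw [pow_succ]; exact ih.mul hU

/-- image of a group element under the automorphism implemented by `U` -/
noncomputable def bet (U : Op G) (g : G) : Op G := U * lam g * star U

theorem IsAut.bet_mem {U : Op G} (hU : IsAut U) (g : G) : bet U g ∈ VN G := hU.fwd g

theorem IsAut.bet_hat {U : Op G} (hU : IsAut U) (g : G) : bet U g (dl 1) = U (dl g) := by
  simp [bet, hU.star_fix, lam_dl]

theorem IsAut.bet_unitary {U : Op G} (hU : IsAut U) (g : G) : bet U g ∈ unitary (Op G) :=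
  mul_mem (mul_mem hU.uni (lam_unitary g)) (Unitary.star_mem hU.uni)

theorem IsAut.bet_mul {U : Op G} (hU : IsAut U) (g h : G) : bet U (g * h) = bet U g * bet U h := by
  have h1 := (Unitary.mem_iff.1 hU.uni).1
  unfold bet
  rw [lam_mul]
  calc U * (lam g * lam h) * star U = U * (lam g * (star U * U) * lam h) * star U := by
        rw [h1, mul_one]
    _ = _ := by simp only [mul_assoc]

theorem bet_inv (U : Op G) (g : G) : bet U g⁻¹ = star (bet U g) := by
  simp [bet, star_mul, star_lam, mul_assoc]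

theorem IsAut.dl_mul {U : Op G} (hU : IsAut U) (g h : G) : U (dl (g * h)) = bet U g (U (dl h)) := by
  rw [← hU.bet_hat, hU.bet_mul, op_mul_apply, hU.bet_hat]

theorem IsAut.near_mul {U : Op G} (hU : IsAut U) (g h : G) :
    ‖U (dl (g * h)) - dl (g * h)‖ ≤ ‖U (dl g) - dl g‖ + ‖U (dl h) - dl h‖ := by
  have := mul_hat_sub_le (y := bet U h) (hU.bet_mem g) (lam_mem g) (lam_mem h)
    (unitary_opnorm (hU.bet_unitary g)) (opnorm_lam_le h)
  simp only [hU.bet_hat, lam_dl, mul_one] at this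
  rwa [hU.dl_mul]

theorem IsAut.near_inv {U : Op G} (hU : IsAut U) (g : G) :
    ‖U (dl g⁻¹) - dl g⁻¹‖ = ‖U (dl g) - dl g‖ := by
  have := star_hat_sub (hU.bet_mem g) (lam_mem g)
  rw [← bet_inv, star_lam] at this
  simpa only [hU.bet_hat, lam_dl, mul_one] using this

theorem IsAut.near_star {U : Op G} (hU : IsAut U) (ξ : L2 G) : ‖star U ξ - ξ‖ = ‖U ξ - ξ‖ := by
  rw [← unitary_norm hU.uni, map_sub, apply_star_apply hU.uni, norm_sub_rev]

end Vale.Agent.P086
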