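import Vale.Agent.P086.Taylor

/-!
Derivations of the group algebra of a free group given by cocycles, and growth bounds.
-/

set_option linter.unusedSectionVars false
set_option linter.deprecated false

namespace Vale.Agent.P086

open Finset Filter Topology
open scoped InnerProductSpace ComplexConjugate Nat

section General

variable {G : Type} [Group G]

theorem sgl_mul (g h : G) : sgl g * sgl h = sgl (g * h) := by
  rw [MonoidAlgebra.single_mul_single, mul_one]

theorem sgl_one : sgl (1 : G) = 1 := rfl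

theorem single_eq_smul (g : G) (r : ℝ) : MonoidAlgebra.single g r = r • sgl g := by simp

/-- conjugation in the group algebra -/
noncomputable def Ad (g : G) (f : GA G) : GA G := sgl g * f * sgl g⁻¹

theorem Ad_coeff (g : G) (f : GA G) (x : G) : (Ad g f).coeff x = f.coeff (g⁻¹ * x * g) := by
  simp [Ad, mul_assoc]

theorem Ad_mul (g h : G) (f : GA G) : Ad (g * h) f = Ad g (Ad h f) := by
  ext x; simp [Ad_coeff, mul_assoc]

theorem Ad_one (f : GA G) : Ad 1 f = f := by ext x; simp [Ad_coeff]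

theorem Ad_add (g : G) (f f' : GA G) : Ad g (f + f') = Ad g f + Ad g f' := by
  ext x; simp [Ad_coeff]

theorem Ad_neg (g : G) (f : GA G) : Ad g (-f) = -Ad g f := by
  ext x; simp [Ad_coeff]

theorem Ad_zero (g : G) : Ad g 0 = 0 := by simp [Ad]

theorem Ad_smul (g : G) (r : ℝ) (f : GA G) : Ad g (r • f) = r • Ad g f := by
  ext x; simp [Ad_coeff]

theorem Ad_sum {I : Type} (g : G) (S : Finset I) (f : I → GA G) :
    Ad g (∑ i ∈ S, f i) = ∑ i ∈ S, Ad g (f i) := by
  simp [Ad, mul_sum, sum_mul]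

theorem Ad_sgl_sub (g x y : G) : Ad g (sgl x - sgl y) = sgl (g * x * g⁻¹) - sgl (g * y * g⁻¹) := by
  simp only [Ad, mul_sub, sub_mul, sgl_mul]

theorem sg_Ad (g : G) (f : GA G) : sg (Ad g f) = Ad g (sg f) := by
  simp only [Ad, sg_mul, sg_single, inv_inv, mul_assoc]

/-- pairs carrying the cocycle identity -/
@[ext] structure SD (G : Type) [Group G] where
  c : GA G
  g : G

noncomputable instance : Mul (SD G) := ⟨fun x y => ⟨x.c + Ad x.g y.c, x.g * y.g⟩⟩
noncomputable instance : One (SD G) := ⟨⟨0, 1⟩⟩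
noncomputable instance : Inv (SD G) := ⟨fun x => ⟨-Ad x.g⁻¹ x.c, x.g⁻¹⟩⟩

noncomputable instance : Group (SD G) :=
  Group.ofLeftAxioms
    (fun x y z => SD.ext
      (show x.c + Ad x.g y.c + Ad (x.g * y.g) z.c = x.c + Ad x.g (y.c + Ad y.g z.c) by
        rw [Ad_add, Ad_mul, add_assoc])
      (mul_assoc x.g y.g z.g))
    (fun x => SD.ext (show 0 + Ad 1 x.c = x.c by rw [Ad_one, zero_add]) (one_mul x.g))
    (fun x => SD.ext (show -Ad x.g⁻¹ x.c + Ad x.g⁻¹ x.c = 0 by rw [neg_add_cancel])
      (inv_mul_cancel x.g))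

/-- projection to the group -/
noncomputable def SD.proj : SD G →* G where
  toFun := SD.g
  map_one' := rfl
  map_mul' := fun _ _ => rfl

/-- finite sums with bounded length of the support and bounded total mass -/
inductive Bd (l : G → ℕ) (n : ℕ) : ℝ → GA G → Prop
  | zero {C : ℝ} : 0 ≤ C → Bd l n C 0
  | cons {C : ℝ} {f : GA G} (x : G) (r : ℝ) :
      l x ≤ n → Bd l n C f → Bd l n (C + |r|) (f + MonoidAlgebra.single x r)

variable {l : G → ℕ}

theorem Bd.nonneg {n : ℕ} {C : ℝ} {f : GA G} (h : Bd l n C f) : 0 ≤ C := by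
  induction h with
  | zero h => exact h
  | cons x r _ _ ih => positivity

theorem Bd.mono {n n' : ℕ} {C C' : ℝ} {f : GA G} (h : Bd l n C f) (hn : n ≤ n') (hC : C ≤ C') :
    Bd l n' C' f := by
  induction h generalizing C' with
  | zero h => exact Bd.zero (h.trans hC)
  | @cons C f x r hx _ ih =>
    have := Bd.cons x r (hx.trans hn) (ih (C' := C' - |r|) (by linarith))
    rwa [sub_add_cancel] at this

theorem Bd.add {n : ℕ} {C C' : ℝ} {f g : GA G} (h : Bd l n C f) (h' : Bd l n C' g) :
    Bd l n (C + C') (f + g) := by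
  induction h' with
  | zero h0 => rw [add_zero]; exact h.mono le_rfl (by linarith)
  | cons x r hx _ ih =>
    rw [← add_assoc, ← add_assoc]
    exact Bd.cons x r hx ih

theorem Bd.single {n : ℕ} (x : G) (r : ℝ) (hx : l x ≤ n) :
    Bd l n |r| (MonoidAlgebra.single x r) := by
  have := Bd.cons x r hx (Bd.zero le_rfl)
  rwa [zero_add, zero_add] at this

theorem Bd.smul {n : ℕ} {C : ℝ} {f : GA G} (h : Bd l n C f) (r : ℝ) :
    Bd l n (|r| * C) (r • f) := by
  induction h with
  | zero h0 => rw [smul_zero]; exact Bd.zero (by positivity)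
  | cons x s hx _ ih =>
    rw [smul_add, mul_add, MonoidAlgebra.smul_single, ← abs_mul]
    exact Bd.cons x _ hx ih

theorem Bd.neg {n : ℕ} {C : ℝ} {f : GA G} (h : Bd l n C f) : Bd l n C (-f) := by
  simpa using h.smul (-1)

theorem Bd.mul_sgl (hl : ∀ x y, l (x * y) ≤ l x + l y) {n : ℕ} {C : ℝ} {f : GA G}
    (h : Bd l n C f) (y : G) : Bd l (n + l y) C (f * sgl y) := by
  induction h with
  | zero h0 => rw [zero_mul]; exact Bd.zero h0
  | cons x s hx _ ih =>
    rw [add_mul, MonoidAlgebra.single_mul_single, mul_one]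
    exact Bd.cons _ _ ((hl x y).trans (by omega)) ih

theorem Bd.sgl_mul (hl : ∀ x y, l (x * y) ≤ l x + l y) {n : ℕ} {C : ℝ} {f : GA G}
    (h : Bd l n C f) (y : G) : Bd l (n + l y) C (sgl y * f) := by
  induction h with
  | zero h0 => rw [mul_zero]; exact Bd.zero h0
  | cons x s hx _ ih =>
    rw [mul_add, MonoidAlgebra.single_mul_single, one_mul]
    exact Bd.cons _ _ ((hl y x).trans (by omega)) ih

theorem exists_Bd (f : GA G) : ∃ n C, Bd l n C f := by
  induction f using MonoidAlgebra.induction_linear with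
  | zero => exact ⟨0, 0, Bd.zero le_rfl⟩
  | add f g hf hg =>
    obtain ⟨n, C, h⟩ := hf
    obtain ⟨n', C', h'⟩ := hg
    exact ⟨max n n', C + C', (h.mono (le_max_left _ _) le_rfl).add
      (h'.mono (le_max_right _ _) le_rfl)⟩
  | single x r => exact ⟨l x, |r|, Bd.single x r le_rfl⟩

theorem Bd.norm_le {E : Type} [NormedAddCommGroup E] {n : ℕ} {C B : ℝ} {f : GA G}
    (h : Bd l n C f) (T : GA G → E) (hB : 0 ≤ B) (h0 : T 0 = 0)
    (hadd : ∀ f g, T (f + g) = T f + T g)
    (hT : ∀ x r, l x ≤ n → ‖T (MonoidAlgebra.single x r)‖ ≤ |r| * B) : ‖T f‖ ≤ C * B := by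
  induction h with
  | zero hC => rw [h0, norm_zero]; positivity
  | cons x r hx _ ih =>
    rw [hadd, add_mul]
    exact (norm_add_le _ _).trans (add_le_add ih (hT x r hx))

theorem Bd.norm_Lam_le {n : ℕ} {C : ℝ} {f : GA G} (h : Bd l n C f) : ‖Lam f‖ ≤ C := by
  have := h.norm_le (B := 1) Lam zero_le_one (map_zero _) (map_add _) (fun x r _ => by
    rw [Lam_single, norm_smul, Complex.norm_real, Real.norm_eq_abs]
    exact mul_le_mul_of_nonneg_left (opnorm_lam_le x) (abs_nonneg _))
  rwa [mul_one] at this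

theorem Bd.norm_io_sq_le {n : ℕ} {C B : ℝ} {f : GA G} (h : Bd l n C f)
    (hB : ∀ x, |f.coeff x| ≤ B) : ‖io f‖ ^ 2 ≤ C * B := by
  have hB0 : 0 ≤ B := (abs_nonneg _).trans (hB 1)
  have := h.norm_le (B := B) (fun g => ⟪io f, io g⟫_ℂ) hB0 (by simp [io_zero])
    (fun g g' => by rw [io_add, inner_add_right]) (fun x r _ => by
      rw [io_single, inner_smul_right, norm_mul, Complex.norm_real, Real.norm_eq_abs,
        inner_dl_right, RCLike.norm_conj, io_apply, Complex.norm_real, Real.norm_eq_abs]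
      exact mul_le_mul_of_nonneg_left (hB x) (abs_nonneg _))
  rwa [inner_self_eq_norm_sq_to_K, norm_pow, RCLike.norm_ofReal, abs_norm] at this

theorem norm_io_mul_sgl (f : GA G) (y : G) : ‖io (f * sgl y)‖ = ‖io f‖ := by
  rw [io, map_mul, op_mul_apply, Lam_sgl, lam_dl, norm_VN_dl (Lam_mem f), io]

theorem norm_io_sgl_mul (f : GA G) (y : G) : ‖io (sgl y * f)‖ = ‖io f‖ := by
  rw [io, map_mul, op_mul_apply, Lam_sgl, norm_lam, io]

theorem growth_of_Bd {D : GA G →ₗ[ℝ] GA G} {R : ℕ} {C0 : ℝ} (hR : 1 ≤ R) (hC0 : 0 < C0)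
    (hD : ∀ g, Bd l (l g + R) (C0 * l g) (D (sgl g))) (f : GA G) :
    ∃ C : ℝ, ∀ m, ‖Lam ((D ^ m) f)‖ ≤ C * m ! * (2 * C0 * R) ^ m := by
  have key : ∀ (m : ℕ) (n : ℕ) (C : ℝ) (f : GA G), Bd l n C f →
      ‖Lam ((D ^ m) f)‖ ≤ C * (C0 ^ m * ∏ j ∈ range m, ((n : ℝ) + j * R)) := by
    intro m
    induction m with
    | zero => intro n C f h; simpa using h.norm_Lam_le
    | succ m ih =>
      intro n C f h
      refine h.norm_le (fun g => Lam ((D ^ (m + 1)) g)) (by positivity) (by simp)
        (fun g g' => by rw [map_add, map_add]) (fun x r hx => ?_)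
      rw [single_eq_smul, map_smul, Lam_smul, norm_smul, Complex.norm_real, Real.norm_eq_abs]
      refine mul_le_mul_of_nonneg_left ?_ (abs_nonneg _)
      rw [der_pow_succ']
      have hx' : (l x : ℝ) ≤ n := by exact_mod_cast hx
      have h1 := ih (n + R) (C0 * n) _ ((hD x).mono (by omega)
        (mul_le_mul_of_nonneg_left hx' hC0.le))
      refine h1.trans (le_of_eq ?_)
      rw [prod_range_succ', pow_succ]
      have : ∀ j : ℕ, (((n + R : ℕ) : ℝ) + j * R) = (n : ℝ) + ((j + 1 : ℕ) : ℝ) * R := by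
        intro j; push_cast; ring
      simp only [this]
      push_cast
      ring
  obtain ⟨n, C, h⟩ := exists_Bd (l := l) f
  refine ⟨C * 2 ^ n, fun m => (key m n C f h).trans ?_⟩
  have hR' : (1 : ℝ) ≤ R := by exact_mod_cast hR
  have h1 : ∏ j ∈ range m, ((n : ℝ) + j * R) ≤ ∏ j ∈ range m, (R * ((n : ℝ) + j)) := by
    refine prod_le_prod (fun j _ => by positivity) (fun j _ => ?_)
    have : (0 : ℝ) ≤ n := Nat.cast_nonneg n
    nlinarith
  have h2 : ∏ j ∈ range m, ((n : ℝ) + j) ≤ m ! * 2 ^ (n + m) := by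
    have h3 : ∏ j ∈ range m, (n + j) ≤ m ! * 2 ^ (n + m) := by
      rw [← Nat.ascFactorial_eq_prod_range, Nat.ascFactorial_eq_factorial_mul_choose']
      refine Nat.mul_le_mul_left _ ((Nat.choose_le_two_pow _ _).trans ?_)
      exact Nat.pow_le_pow_right (by norm_num) (by omega)
    exact_mod_cast h3
  rw [prod_mul_distrib, prod_const, card_range] at h1
  have h4 : ∏ j ∈ range m, ((n : ℝ) + j * R) ≤ R ^ m * (m ! * 2 ^ (n + m)) :=
    h1.trans (mul_le_mul_of_nonneg_left h2 (by positivity))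
  have hC := h.nonneg
  calc C * (C0 ^ m * ∏ j ∈ range m, ((n : ℝ) + j * R))
      ≤ C * (C0 ^ m * (R ^ m * (m ! * 2 ^ (n + m)))) := by gcongr
    _ = _ := by rw [pow_add, mul_pow, mul_pow]; ring

/-- the derivation attached to a cocycle -/
noncomputable def derOf (c : G → GA G) : GA G →ₗ[ℝ] GA G :=
  (MonoidAlgebra.basis G ℝ).constr ℝ (fun g => c g * sgl g)

theorem derOf_sgl (c : G → GA G) (g : G) : derOf c (sgl g) = c g * sgl g :=
  (MonoidAlgebra.basis G ℝ).constr_basis ℝ _ g

variable {c : G → GA G}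

theorem coc_one (hc : ∀ g h, c (g * h) = c g + Ad g (c h)) : c 1 = 0 := by
  have := hc 1 1
  rw [mul_one, Ad_one] at this
  simpa using this

theorem coc_inv (hc : ∀ g h, c (g * h) = c g + Ad g (c h)) (g : G) : c g⁻¹ = -Ad g⁻¹ (c g) := by
  have := hc g⁻¹ g
  rw [inv_mul_cancel, coc_one hc] at this
  exact eq_neg_of_add_eq_zero_left this.symm

theorem derOf_leib (hc : ∀ g h, c (g * h) = c g + Ad g (c h)) (f g : GA G) :
    derOf c (f * g) = derOf c f * g + f * derOf c g := by
  induction f using MonoidAlgebra.induction_linear with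
  | zero => simp
  | add f f' hf hf' => rw [add_mul, map_add, map_add, hf, hf', add_mul, add_mul]; abel
  | single a r =>
    induction g using MonoidAlgebra.induction_linear with
    | zero => simp
    | add g g' hg hg' => rw [mul_add, map_add, map_add, hg, hg', mul_add, mul_add]; abel
    | single b s =>
      rw [single_eq_smul a r, single_eq_smul b s, smul_mul_smul_comm, map_smul, map_smul, map_smul,
        smul_mul_smul_comm, smul_mul_smul_comm, ← smul_add, sgl_mul, derOf_sgl, derOf_sgl,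
        derOf_sgl, hc, add_mul, Ad]
      simp only [mul_assoc, sgl_mul, inv_mul_cancel_left]

theorem derOf_star (hc : ∀ g h, c (g * h) = c g + Ad g (c h)) (hs : ∀ g, sg (c g) = -c g)
    (f : GA G) : derOf c (sg f) = sg (derOf c f) := by
  induction f using MonoidAlgebra.induction_linear with
  | zero => simp
  | add f f' hf hf' => rw [map_add, map_add, map_add, map_add, hf, hf']
  | single a r =>
    rw [single_eq_smul a r, map_smul, map_smul, map_smul, map_smul, sg_single, derOf_sgl,
      derOf_sgl, sg_mul, sg_single, hs, coc_inv hc, Ad]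
    simp only [neg_mul, mul_neg, mul_assoc, sgl_mul, inv_inv, mul_inv_cancel, sgl_one, mul_one]

theorem derOf_trace (ht : ∀ g, (c g).coeff g⁻¹ = 0) (f : GA G) : (derOf c f).coeff 1 = 0 := by
  induction f using MonoidAlgebra.induction_linear with
  | zero => simp
  | add f f' hf hf' => rw [map_add]; simp [hf, hf']
  | single a r => rw [single_eq_smul a r, map_smul, derOf_sgl]; simp [ht]

theorem coc_conj_coeff (hc : ∀ g h, c (g * h) = c g + Ad g (c h)) (h y z : G)
    (hyz : y * z = z * y) : (c (h * y * h⁻¹)).coeff (h * z * h⁻¹) = (c y).coeff z := by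
  rw [hc, hc, coc_inv hc, Ad_neg, ← Ad_mul]
  have e1 : h⁻¹ * (h * z * h⁻¹) * h = z := by group
  have e2 : (h * y * h⁻¹)⁻¹ * (h * z * h⁻¹) * (h * y * h⁻¹) = h * z * h⁻¹ := by
    calc (h * y * h⁻¹)⁻¹ * (h * z * h⁻¹) * (h * y * h⁻¹) = h * (y⁻¹ * (z * y)) * h⁻¹ := by group
      _ = h * z * h⁻¹ := by rw [← hyz]; group
  simp only [MonoidAlgebra.coeff_add, MonoidAlgebra.coeff_neg, Finsupp.add_apply,
    Finsupp.neg_apply, Ad_coeff, e1, e2]
  ring

end General

section Free

variable {ι : Type}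

theorem exists_cocycle (c0 : ι → GA (FreeGroup ι)) :
    ∃ c : FreeGroup ι → GA (FreeGroup ι), (∀ j, c (FreeGroup.of j) = c0 j) ∧
      ∀ g h, c (g * h) = c g + Ad g (c h) := by
  let ps : FreeGroup ι →* SD (FreeGroup ι) := FreeGroup.lift (fun j => ⟨c0 j, FreeGroup.of j⟩)
  have hps : SD.proj.comp ps = MonoidHom.id _ := by
    ext j
    simp [ps, SD.proj]
  have hg : ∀ g, (ps g).g = g := fun g => DFunLike.congr_fun hps g
  refine ⟨fun g => (ps g).c, fun j => by simp [ps], fun g h => ?_⟩
  show (ps (g * h)).c = _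
  rw [map_mul]
  show (ps g).c + Ad (ps g).g (ps h).c = _
  rw [hg]

open Classical in
/-- word length -/
noncomputable def len (g : FreeGroup ι) : ℕ := FreeGroup.norm g

theorem len_mul (x y : FreeGroup ι) : len (x * y) ≤ len x + len y := by
  classical
  exact FreeGroup.norm_mul_le x y

theorem len_mk (L : List (ι × Bool)) : len (FreeGroup.mk L) ≤ L.length := by
  classical
  exact FreeGroup.norm_mk_le

theorem len_inv (x : FreeGroup ι) : len x⁻¹ = len x := by
  classical
  exact FreeGroup.norm_inv_eq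

theorem len_of (j : ι) : len (FreeGroup.of j) = 1 := by
  classical
  exact FreeGroup.norm_of j

theorem Bd_derOf {c : FreeGroup ι → GA (FreeGroup ι)} (hc : ∀ g h, c (g * h) = c g + Ad g (c h))
    {R : ℕ} {C0 : ℝ} (h0 : ∀ j, Bd len R C0 (c (FreeGroup.of j))) (g : FreeGroup ι) :
    Bd len (len g + (R + 2)) (C0 * len g) (derOf c (sgl g)) := by
  classical
  have hl : ∀ x : ι × Bool, Bd len (R + 2) C0 (c (FreeGroup.mk [x])) := by
    rintro ⟨j, _ | _⟩
    · have e : FreeGroup.mk [(j, false)] = (FreeGroup.of j)⁻¹ := rfl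
      rw [e, coc_inv hc, Ad]
      have := (((h0 j).sgl_mul len_mul (FreeGroup.of j)⁻¹).mul_sgl len_mul (FreeGroup.of j)⁻¹⁻¹).neg
      simpa only [len_inv, len_of] using this
    · exact (h0 j).mono (by omega) le_rfl
  have key : ∀ L : List (ι × Bool),
      Bd len (L.length + (R + 2)) (C0 * L.length) (derOf c (sgl (FreeGroup.mk L))) := by
    intro L
    induction L with
    | nil =>
      rw [derOf_sgl, ← FreeGroup.one_eq_mk, coc_one hc, zero_mul]
      exact Bd.zero (by simp)
    | cons x L ih =>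
      have e : FreeGroup.mk (x :: L) = FreeGroup.mk [x] * FreeGroup.mk L := rfl
      rw [e, ← sgl_mul, derOf_leib hc, derOf_sgl, mul_assoc, sgl_mul, ← e]
      have a1 := ((hl x).mul_sgl len_mul (FreeGroup.mk (x :: L))).mono
        (n' := (x :: L).length + (R + 2)) (by have := len_mk (x :: L); omega) le_rfl
      have a2 := (ih.sgl_mul len_mul (FreeGroup.mk [x])).mono
        (n' := (x :: L).length + (R + 2))
        (by have := len_mk [x]; simp only [List.length_cons, List.length_nil] at *; omega) le_rfl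
      refine (a1.add a2).mono le_rfl (le_of_eq ?_)
      simp only [List.length_cons]
      push_cast
      ring
  have := key g.toWord
  rw [FreeGroup.mk_toWord] at this
  convert this using 2 <;> simp [len, FreeGroup.norm]

end Free

end Vale.Agent.P086
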