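import Vale.Agent.P086.Basic

/-!
Coordinate projections, the conditional expectation onto a subgroup, and a spectral gap estimate.
-/

set_option linter.unusedSectionVars false
set_option linter.deprecated false

namespace Vale.Agent.P086

open Finset Filter Topology
open scoped InnerProductSpace ComplexConjugate

variable {G : Type}

theorem cut_sum_le (s : Set G) (ξ : L2 G) (t : Finset G) :
    ∑ h ∈ t, ‖s.indicator (ξ : G → ℂ) h‖ ^ 2 ≤ ‖ξ‖ ^ 2 := by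
  refine le_trans (sum_le_sum fun h _ => ?_) (l2_sum_le ξ t)
  exact pow_le_pow_left₀ (norm_nonneg _) (norm_indicator_le_norm_self _ _) 2

/-- the projection onto the coordinates in `s` -/
noncomputable def cut (s : Set G) : Op G :=
  LinearMap.mkContinuous
    { toFun := fun ξ => ⟨s.indicator (ξ : G → ℂ), l2_mem _ _ (cut_sum_le s ξ)⟩
      map_add' := fun ξ η => by
        apply lp.ext
        funext h
        simp only [lp.coeFn_add, Pi.add_apply]
        by_cases hh : h ∈ s <;> simp [hh]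
      map_smul' := fun c ξ => by
        apply lp.ext
        funext h
        simp only [lp.coeFn_smul, Pi.smul_apply, RingHom.id_apply]
        by_cases hh : h ∈ s <;> simp [hh] } 1
    (fun ξ => by
      rw [one_mul]
      exact (pow_le_pow_iff_left₀ (norm_nonneg _) (norm_nonneg _) two_ne_zero).1
        (l2_norm_sq_le _ _ (cut_sum_le s ξ)))

theorem cut_apply (s : Set G) (ξ : L2 G) (h : G) : cut s ξ h = s.indicator (ξ : G → ℂ) h := rfl

theorem cut_apply_mem {s : Set G} (ξ : L2 G) {h : G} (hh : h ∈ s) : cut s ξ h = ξ h := by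
  simp [cut_apply, hh]

theorem cut_apply_not {s : Set G} (ξ : L2 G) {h : G} (hh : h ∉ s) : cut s ξ h = 0 := by
  simp [cut_apply, hh]

theorem norm_cut_le (s : Set G) (ξ : L2 G) : ‖cut s ξ‖ ≤ ‖ξ‖ :=
  (pow_le_pow_iff_left₀ (norm_nonneg _) (norm_nonneg _) two_ne_zero).1
    (l2_norm_sq_le _ _ (cut_sum_le s ξ))

theorem cut_eq_self {s : Set G} {ξ : L2 G} (h : ∀ k, k ∉ s → ξ k = 0) : cut s ξ = ξ := by
  apply lp.ext
  funext k
  by_cases hk : k ∈ s
  · exact cut_apply_mem ξ hk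
  · rw [cut_apply_not ξ hk, h k hk]

theorem cut_cut (s : Set G) (ξ : L2 G) : cut s (cut s ξ) = cut s ξ :=
  cut_eq_self (fun _ hk => cut_apply_not ξ hk)

theorem cut_dl_mem {s : Set G} {g : G} (hg : g ∈ s) : cut s (dl g) = dl g :=
  cut_eq_self (fun _ hk => dl_apply_ne (fun e => hk (e ▸ hg)))

theorem cut_dl_not {s : Set G} {g : G} (hg : g ∉ s) : cut s (dl g) = 0 := by
  apply lp.ext
  funext k
  by_cases hk : k ∈ s
  · rw [cut_apply_mem _ hk, dl_apply_ne (fun e : k = g => hg (e ▸ hk))]; rfl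
  · rw [cut_apply_not _ hk]; rfl

theorem inner_cut (s : Set G) (ξ η : L2 G) : ⟪cut s ξ, η⟫_ℂ = ⟪ξ, cut s η⟫_ℂ := by
  rw [lp.inner_eq_tsum, lp.inner_eq_tsum]
  congr 1
  funext k
  by_cases hk : k ∈ s
  · rw [cut_apply_mem _ hk, cut_apply_mem _ hk]
  · rw [cut_apply_not _ hk, cut_apply_not _ hk]; simp

theorem inner_cut_self (s : Set G) (ξ : L2 G) : ⟪ξ, cut s ξ⟫_ℂ = ((‖cut s ξ‖ ^ 2 : ℝ) : ℂ) := by
  rw [← cut_cut, ← inner_cut, inner_self_eq_norm_sq_to_K, cut_cut]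
  simp

theorem cut_pythagoras (s : Set G) (ξ : L2 G) :
    ‖ξ - cut s ξ‖ ^ 2 = ‖ξ‖ ^ 2 - ‖cut s ξ‖ ^ 2 := by
  rw [@norm_sub_sq ℂ, inner_cut_self]
  simp only [RCLike.re_to_complex, Complex.ofReal_re]
  ring

theorem norm_sub_cut_le (s : Set G) (ξ : L2 G) : ‖ξ - cut s ξ‖ ≤ ‖ξ‖ := by
  apply (pow_le_pow_iff_left₀ (norm_nonneg _) (norm_nonneg _) two_ne_zero).1
  rw [cut_pythagoras]
  nlinarith [sq_nonneg ‖cut s ξ‖]

theorem norm_sub_cut_le_dist (s : Set G) (ξ η : L2 G) (hη : cut s η = η) :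
    ‖ξ - cut s ξ‖ ≤ ‖ξ - η‖ := by
  have := norm_sub_cut_le s (ξ - η)
  rwa [map_sub, hη, sub_sub_sub_cancel_right] at this

theorem sum_cut_le {I : Type} (S : Finset I) (A : I → Set G)
    (hA : ∀ i ∈ S, ∀ j ∈ S, ∀ k, k ∈ A i → k ∈ A j → i = j) (η : L2 G) :
    ∑ i ∈ S, ‖cut (A i) η‖ ^ 2 ≤ ‖η‖ ^ 2 := by
  classical
  have h1 := hasSum_sum (s := S) (fun i _ => l2_hasSum (cut (A i) η))
  refine hasSum_le (fun k => ?_) h1 (l2_hasSum η)
  by_cases hk : ∃ i ∈ S, k ∈ A i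
  · obtain ⟨i, hi, hki⟩ := hk
    rw [sum_eq_single_of_mem i hi]
    · rw [cut_apply_mem _ hki]
    · intro j hj hne
      rw [cut_apply_not _ (fun h => hne (hA j hj i hi k h hki))]; simp
  · rw [sum_eq_zero]
    · positivity
    · intro i hi
      rw [cut_apply_not _ (fun h => hk ⟨i, hi, h⟩)]; simp

theorem sum_norm_cut_le {I : Type} (S : Finset I) (A : I → Set G)
    (hA : ∀ i ∈ S, ∀ j ∈ S, ∀ k, k ∈ A i → k ∈ A j → i = j) (η : L2 G) :
    ∑ i ∈ S, ‖cut (A i) η‖ ≤ √(S.card) * ‖η‖ := by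
  have h1 := sq_sum_le_card_mul_sum_sq (s := S) (f := fun i => ‖cut (A i) η‖)
  have h2 := sum_cut_le S A hA η
  apply (pow_le_pow_iff_left₀ (sum_nonneg fun _ _ => norm_nonneg _) (by positivity)
    two_ne_zero).1
  rw [mul_pow, Real.sq_sqrt (by positivity)]
  exact h1.trans (mul_le_mul_of_nonneg_left h2 (by positivity))

theorem span_cut (s : Set G) (ξ : L2 G) (hξ : cut s ξ = ξ) (P : L2 G → Prop)
    (hc : IsClosed {η | P η}) (h0 : P 0) (hadd : ∀ ξ η, P ξ → P η → P (ξ + η))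
    (hdl : ∀ (c : ℂ) g, g ∈ s → P (c • dl g)) : P ξ := by
  rw [← hξ]
  refine l2_induction (fun η => P (cut s η)) (hc.preimage (cut s).continuous) (by simpa using h0)
    (fun a b ha hb => by rw [map_add]; exact hadd _ _ ha hb) (fun c g => ?_) ξ
  by_cases hg : g ∈ s
  · rw [map_smul, cut_dl_mem hg]; exact hdl c g hg
  · rw [map_smul, cut_dl_not hg, smul_zero]; exact h0

variable [Group G]

theorem condExp_bound (Γ : Subgroup G) (x : Op G) (η : L2 G) (t : Finset G) :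
    ∑ h ∈ t, ‖x (cut {k | QuotientGroup.rightRel Γ h k} η) h‖ ^ 2 ≤ (‖x‖ * ‖η‖) ^ 2 := by
  classical
  let q : G → Quotient (QuotientGroup.rightRel Γ) := Quotient.mk _
  let A : Quotient (QuotientGroup.rightRel Γ) → Set G := fun σ => {k | σ = q k}
  have e : ∀ h, {k | QuotientGroup.rightRel Γ h k} = A (q h) := by
    intro h
    ext k
    simp only [A, q, Set.mem_setOf_eq, Quotient.eq]
  simp only [e]
  rw [← sum_fiberwise_of_maps_to (t := t.image q) (g := q) (fun h hh => mem_image_of_mem q hh)]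
  have h1 : ∀ σ ∈ t.image q, ∑ h ∈ t with q h = σ, ‖x (cut (A (q h)) η) h‖ ^ 2
      ≤ ‖x‖ ^ 2 * ‖cut (A σ) η‖ ^ 2 := by
    intro σ _
    rw [sum_congr rfl (g := fun h => ‖x (cut (A σ) η) h‖ ^ 2)
      (fun h hh => by rw [(mem_filter.1 hh).2])]
    refine (l2_sum_le _ _).trans ?_
    rw [← mul_pow]
    exact pow_le_pow_left₀ (norm_nonneg _) (x.le_opNorm _) 2
  refine (sum_le_sum h1).trans ?_
  rw [← mul_sum, mul_pow]
  refine mul_le_mul_of_nonneg_left (sum_cut_le _ A ?_ η) (by positivity)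
  intro i _ j _ k hi hj
  exact hi.trans hj.symm

theorem exists_condExp (Γ : Subgroup G) {x : Op G} (hx : x ∈ VN G) :
    ∃ z ∈ VN G, ‖z‖ ≤ ‖x‖ ∧ z (dl 1) = cut Γ (x (dl 1)) := by
  let z0 : L2 G →ₗ[ℂ] L2 G :=
    { toFun := fun η => ⟨fun h => x (cut {k | QuotientGroup.rightRel Γ h k} η) h,
        l2_mem _ _ (condExp_bound Γ x η)⟩
      map_add' := fun ξ η => by
        apply lp.ext
        funext h
        simp only [map_add, lp.coeFn_add, Pi.add_apply]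
      map_smul' := fun c ξ => by
        apply lp.ext
        funext h
        simp only [map_smul, lp.coeFn_smul, Pi.smul_apply, RingHom.id_apply] }
  have hb : ∀ η, ‖z0 η‖ ≤ ‖x‖ * ‖η‖ := fun η =>
    (pow_le_pow_iff_left₀ (norm_nonneg _) (by positivity) two_ne_zero).1
      (l2_norm_sq_le _ _ (condExp_bound Γ x η))
  let z : Op G := z0.mkContinuous ‖x‖ hb
  have hz : ∀ g h, z (dl g) h = cut Γ (x (dl 1)) (h * g⁻¹) := by
    intro g h
    show x (cut {k | QuotientGroup.rightRel Γ h k} (dl g)) h = _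
    by_cases hg : h * g⁻¹ ∈ Γ
    · rw [cut_dl_mem, VN_dl_apply hx, cut_apply_mem _ hg]
      show QuotientGroup.rightRel Γ h g
      rw [QuotientGroup.rightRel_apply]
      simpa using Γ.inv_mem hg
    · rw [cut_dl_not, map_zero, cut_apply_not _ hg]
      · rfl
      · intro h1
        have h2 : QuotientGroup.rightRel Γ h g := h1
        rw [QuotientGroup.rightRel_apply] at h2
        exact hg (by simpa using Γ.inv_mem h2)
  refine ⟨z, ?_, LinearMap.mkContinuous_norm_le _ (norm_nonneg _) _, ?_⟩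
  · rw [mem_VN]
    intro k
    apply op_ext
    intro g
    apply lp.ext
    funext h
    rw [op_mul_apply, op_mul_apply, rho_apply, rho_dl, hz, hz]
    group
  · apply lp.ext
    funext h
    rw [hz]; simp

theorem VN_maps_cut (Γ : Subgroup G) {z : Op G} (hz : z ∈ VN G)
    (h1 : cut Γ (z (dl 1)) = z (dl 1)) {ξ : L2 G} (hξ : cut Γ ξ = ξ) : cut Γ (z ξ) = z ξ := by
  refine span_cut Γ ξ hξ (fun η => cut Γ (z η) = z η) ?_ (by simp) ?_ ?_
  · exact isClosed_eq ((cut _).continuous.comp z.continuous) z.continuous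
  · intro a b ha hb
    rw [map_add, map_add, ha, hb]
  · intro c g hg
    rw [map_smul, map_smul]
    congr 1
    apply cut_eq_self
    intro k hk
    rw [VN_dl_apply hz, ← h1, cut_apply_not]
    intro h2
    exact hk (by simpa using Γ.mul_mem h2 hg)

theorem lam_maps_cut (Γ : Subgroup G) {g : G} (hg : g ∈ Γ) {ξ : L2 G} (hξ : cut Γ ξ = ξ) :
    cut Γ (lam g ξ) = lam g ξ :=
  VN_maps_cut Γ (lam_mem g) (by rw [lam_dl, mul_one, cut_dl_mem hg]) hξ

/-- conjugation representation -/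
noncomputable def adj (g : G) : Op G := lam g * rho g

theorem adj_apply (g : G) (ξ : L2 G) (h : G) : adj g ξ h = ξ (g⁻¹ * h * g) := by
  rw [adj, op_mul_apply, lam_apply, rho_apply]

theorem norm_adj (g : G) (ξ : L2 G) : ‖adj g ξ‖ = ‖ξ‖ := by
  rw [adj, op_mul_apply, norm_lam, norm_rho]

theorem adj_dl_one (g : G) : adj g (dl 1) = dl 1 := by
  rw [adj, op_mul_apply, rho_dl, lam_dl]; simp

theorem adj_mul_apply (g h : G) (ξ : L2 G) : adj (g * h) ξ = adj g (adj h ξ) := by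
  apply lp.ext
  funext k
  simp only [adj_apply]
  group

theorem pingpong {I : Type} (S : Finset I) (g : I → G) (A B : I → Set G)
    (hA : ∀ i ∈ S, ∀ j ∈ S, ∀ k, k ∈ A i → k ∈ A j → i = j)
    (hB : ∀ i ∈ S, ∀ j ∈ S, ∀ k, k ∈ B i → k ∈ B j → i = j)
    (hp : ∀ i ∈ S, ∀ w, w ≠ 1 → w ∉ B i → g i * w * (g i)⁻¹ ∈ A i)
    (ξ : L2 G) (h1 : ξ 1 = 0) : ‖∑ i ∈ S, adj (g i) ξ‖ ≤ 2 * √(S.card) * ‖ξ‖ := by
  have dec : ∀ i ∈ S, adj (g i) ξ = cut (A i) (adj (g i) ξ) +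
      (adj (g i) (cut (B i) ξ) - cut (A i) (adj (g i) (cut (B i) ξ))) := by
    intro i hi
    apply lp.ext
    funext h
    simp only [lp.coeFn_add, lp.coeFn_sub, Pi.add_apply, Pi.sub_apply]
    by_cases hh : h ∈ A i
    · rw [cut_apply_mem _ hh, cut_apply_mem _ hh]; simp
    · rw [cut_apply_not _ hh, cut_apply_not _ hh, adj_apply, adj_apply]
      by_cases hb : (g i)⁻¹ * h * g i ∈ B i
      · rw [cut_apply_mem _ hb]; simp
      · rw [cut_apply_not _ hb]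
        by_cases hw : (g i)⁻¹ * h * g i = 1
        · rw [hw, h1]; simp
        · exact absurd (by simpa [mul_assoc] using hp i hi _ hw hb) hh
  rw [sum_congr rfl dec, sum_add_distrib]
  have b2 : ‖∑ i ∈ S, (adj (g i) (cut (B i) ξ) - cut (A i) (adj (g i) (cut (B i) ξ)))‖
      ≤ √(S.card) * ‖ξ‖ := by
    refine (norm_sum_le _ _).trans (le_trans (sum_le_sum fun i _ => ?_) (sum_norm_cut_le S B hB ξ))
    exact (norm_sub_cut_le _ _).trans (norm_adj _ _).le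
  have b1 : ‖∑ i ∈ S, cut (A i) (adj (g i) ξ)‖ ≤ √(S.card) * ‖ξ‖ := by
    set v := ∑ i ∈ S, cut (A i) (adj (g i) ξ) with hv
    have e : ‖v‖ ^ 2 ≤ (√(S.card) * ‖v‖) * ‖ξ‖ := by
      have e1 : ((‖v‖ ^ 2 : ℝ) : ℂ) = ∑ i ∈ S, ⟪cut (A i) v, adj (g i) ξ⟫_ℂ := by
        have : ((‖v‖ ^ 2 : ℝ) : ℂ) = ⟪v, v⟫_ℂ := by
          rw [inner_self_eq_norm_sq_to_K]; simp
        rw [this]
        conv_lhs => rw [hv, inner_sum, ← hv]
        exact sum_congr rfl fun i _ => (inner_cut _ _ _).symm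
      have e2 : ‖v‖ ^ 2 = ‖∑ i ∈ S, ⟪cut (A i) v, adj (g i) ξ⟫_ℂ‖ := by
        rw [← e1, Complex.norm_real, Real.norm_of_nonneg (sq_nonneg _)]
      rw [e2]
      refine (norm_sum_le _ _).trans ?_
      refine (sum_le_sum (g := fun i => ‖cut (A i) v‖ * ‖ξ‖) fun i _ => ?_).trans ?_
      · exact (norm_inner_le_norm _ _).trans (by rw [norm_adj])
      · rw [← sum_mul]
        exact mul_le_mul_of_nonneg_right (sum_norm_cut_le S A hA v) (norm_nonneg _)
    rcases (norm_nonneg v).eq_or_lt with h0 | h0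
    · rw [← h0]; positivity
    · nlinarith
  refine (norm_add_le _ _).trans ?_
  linarith

theorem conj_hat {X : Op G} (hX : X ∈ VN G) (u : G) :
    lam u (X (lam u⁻¹ (dl 1))) = adj u (X (dl 1)) := by
  rw [lam_dl, mul_one, VN_dl hX, inv_inv]; rfl

theorem avg_conj_le {I : Type} (S : Finset I) (u : I → G) (κ : ℝ) (hκ : 0 ≤ κ)
    (hgap : ∀ ξ : L2 G, ξ 1 = 0 → ‖∑ i ∈ S, adj (u i) ξ‖ ≤ κ * ‖ξ‖)
    {X y : Op G} (hX : X ∈ VN G) (hy : y ∈ VN G) (nX : ‖X‖ ≤ 1) (ny : ‖y‖ ≤ 1)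
    (v : L2 G) (nv : ‖v‖ ≤ 1) :
    ‖∑ i ∈ S, ⟪v, lam (u i) (X (lam (u i)⁻¹ (y (dl 1))))⟫_ℂ
      - (S.card : ℂ) * (X (dl 1) 1) * ⟪v, y (dl 1)⟫_ℂ‖ ≤ κ := by
  set τ : ℂ := X (dl 1) 1 with hτ
  let Y : Op G := ∑ i ∈ S, (lam (u i) * X * lam (u i)⁻¹ - τ • 1)
  have hY : Y ∈ VN G := sum_mem fun i _ =>
    sub_mem (mul_mem (mul_mem (lam_mem _) hX) (lam_mem _)) (SMulMemClass.smul_mem _ (one_mem _))
  have e0 : X (dl 1) - τ • dl 1 = X (dl 1) - cut {1} (X (dl 1)) := by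
    congr 1
    apply lp.ext
    funext h
    by_cases hh : h = 1
    · subst hh
      rw [cut_apply_mem _ (Set.mem_singleton _)]
      simp [dl_apply, hτ]
    · rw [cut_apply_not _ (by simpa using hh)]
      simp [dl_apply, hh]
  have e1 : Y (dl 1) = ∑ i ∈ S, adj (u i) (X (dl 1) - τ • dl 1) := by
    simp only [Y, ContinuousLinearMap.sum_apply, ContinuousLinearMap.sub_apply, op_mul_apply,
      conj_hat hX, map_sub, map_smul, adj_dl_one, ContinuousLinearMap.smul_apply,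
      ContinuousLinearMap.one_apply]
  have n1 : ‖Y (dl 1)‖ ≤ κ := by
    rw [e1]
    refine (hgap _ (by rw [l2_sub_apply, l2_smul_apply, dl_apply_self, mul_one, sub_self])).trans ?_
    have : ‖X (dl 1) - τ • dl 1‖ ≤ 1 := by
      rw [e0]
      exact (norm_sub_cut_le _ _).trans ((norm_apply_le_of_le_one nX _).trans (norm_dl _).le)
    nlinarith
  have e2 : ∑ i ∈ S, ⟪v, lam (u i) (X (lam (u i)⁻¹ (y (dl 1))))⟫_ℂ
      - (S.card : ℂ) * τ * ⟪v, y (dl 1)⟫_ℂ = ⟪v, Y (y (dl 1))⟫_ℂ := by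
    simp only [Y, ContinuousLinearMap.sum_apply, ContinuousLinearMap.sub_apply, op_mul_apply,
      ContinuousLinearMap.smul_apply, ContinuousLinearMap.one_apply, inner_sum, inner_sub_right,
      inner_smul_right]
    rw [sum_sub_distrib, sum_const, nsmul_eq_mul]
    ring
  rw [e2]
  refine (norm_inner_le_norm _ _).trans ?_
  have n2 := norm_mul_hat_le hY hy
  have n3 : ‖Y (y (dl 1))‖ ≤ κ := by nlinarith [norm_nonneg (Y (dl 1)), norm_nonneg y]
  nlinarith [norm_nonneg v, norm_nonneg (Y (y (dl 1)))]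

theorem re_inner_le_cut (s : Set G) (p y : L2 G) (hy : cut s y = y) :
    2 * (⟪y, p⟫_ℂ).re - ‖y‖ ^ 2 ≤ ‖cut s p‖ ^ 2 := by
  have h := @norm_sub_sq ℂ _ _ _ _ y (cut s p)
  rw [← inner_cut, hy] at h
  simp only [RCLike.re_to_complex] at h
  nlinarith [sq_nonneg ‖y - cut s p‖]

theorem gap_estimate (Γ : Subgroup G) {I : Type} (S : Finset I) (u : I → G)
    (hu : ∀ i ∈ S, u i ∈ Γ) (κ : ℝ) (hκ : 0 ≤ κ)
    (hgap : ∀ ξ : L2 G, ξ 1 = 0 → ‖∑ i ∈ S, adj (u i) ξ‖ ≤ κ * ‖ξ‖)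
    {x : Op G} (hx : x ∈ VN G) (nx : ‖x‖ ≤ 1) :
    (S.card : ℝ) * (‖cut Γ (x (dl 1))‖ ^ 2) ^ 2 - 3 * κ
      ≤ ∑ i ∈ S, ‖cut Γ (x (lam (u i)⁻¹ (x (dl 1))))‖ ^ 2 := by
  obtain ⟨z, hz, nz, hz1⟩ := exists_condExp Γ hx
  have nz1 : ‖z‖ ≤ 1 := nz.trans nx
  set ζ := cut Γ (x (dl 1)) with hζ
  set ρ : ℝ := ‖ζ‖ ^ 2 with hρ
  have hζc : cut Γ ζ = ζ := cut_cut _ _
  have nζ : ‖ζ‖ ≤ 1 :=
    (norm_cut_le _ _).trans ((norm_apply_le_of_le_one nx _).trans (norm_dl _).le)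
  have i1 : ⟪ζ, x (dl 1)⟫_ℂ = (ρ : ℂ) := by
    rw [hζ, inner_cut, inner_cut_self]
  have i2 : ⟪ζ, ζ⟫_ℂ = (ρ : ℂ) := by
    rw [inner_self_eq_norm_sq_to_K, hρ]; simp
  have nstar : ‖star z‖ ≤ 1 := by rw [op_norm_star]; exact nz1
  have a1 := avg_conj_le S u κ hκ hgap (X := star z * x) (mul_mem (star_mem hz) hx) hx
    ((norm_mul_le _ _).trans (mul_le_one₀ nstar (norm_nonneg _) nx)) nx ζ nζ
  have a2 := avg_conj_le S u κ hκ hgap (X := star z * z) (mul_mem (star_mem hz) hz) hz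
    ((norm_mul_le _ _).trans (mul_le_one₀ nstar (norm_nonneg _) nz1)) nz1 ζ nζ
  have t1 : (star z * x) (dl 1) 1 = (ρ : ℂ) := by
    rw [← inner_dl_left, op_mul_apply, inner_star_right, hz1, i1]
  have t2 : (star z * z) (dl 1) 1 = (ρ : ℂ) := by
    rw [← inner_dl_left, op_mul_apply, inner_star_right, hz1, i2]
  rw [t1, i1] at a1
  rw [t2, hz1, i2] at a2
  have f1 : ∀ i, ⟪ζ, lam (u i) ((star z * x) (lam (u i)⁻¹ (x (dl 1))))⟫_ℂ
      = ⟪z (lam (u i)⁻¹ ζ), x (lam (u i)⁻¹ (x (dl 1)))⟫_ℂ := by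
    intro i
    rw [← inner_star_left, star_lam, op_mul_apply, inner_star_right]
  have f2 : ∀ i, ⟪ζ, lam (u i) ((star z * z) (lam (u i)⁻¹ ζ))⟫_ℂ
      = ((‖z (lam (u i)⁻¹ ζ)‖ ^ 2 : ℝ) : ℂ) := by
    intro i
    rw [← inner_star_left, star_lam, op_mul_apply, inner_star_right, inner_self_eq_norm_sq_to_K]
    simp
  simp only [f1] at a1
  simp only [f2] at a2
  have b1 := (abs_le.1 ((Complex.abs_re_le_norm _).trans a1)).1
  have b2 := (abs_le.1 ((Complex.abs_re_le_norm _).trans a2)).2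
  simp only [Complex.sub_re, Complex.re_sum, Complex.mul_re, Complex.natCast_re, Complex.ofReal_re,
    Complex.natCast_im, Complex.ofReal_im, mul_zero, sub_zero, zero_mul, Complex.mul_im,
    add_zero] at b1 b2
  have c : ∀ i ∈ S, 2 * (⟪z (lam (u i)⁻¹ ζ), x (lam (u i)⁻¹ (x (dl 1)))⟫_ℂ).re
      - ‖z (lam (u i)⁻¹ ζ)‖ ^ 2 ≤ ‖cut Γ (x (lam (u i)⁻¹ (x (dl 1))))‖ ^ 2 := by
    intro i hi
    apply re_inner_le_cut
    exact VN_maps_cut Γ hz (by rw [hz1, hζc]) (lam_maps_cut Γ (Γ.inv_mem (hu i hi)) hζc)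
  have d := sum_le_sum c
  rw [sum_sub_distrib, ← mul_sum] at d
  nlinarith

end Vale.Agent.P086
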