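import Mathlib

/-!
The group von Neumann algebra of a discrete group.
-/

namespace Vale.Agent.P086

/-- The complex Hilbert space `ℓ²(G)`. -/
abbrev L2 (G : Type) : Type := lp (fun _ : G => ℂ) 2

/-- The C*-algebra of bounded operators on `ℓ²(G)`. -/
abbrev Op (G : Type) : Type := L2 G →L[ℂ] L2 G

/-- The set `λ(G)` of left translation operators, `(λ(g) ξ)(h) = ξ(g⁻¹ h)`. -/
def leftTranslations (G : Type) [Group G] : Set (Op G) :=
  {T | ∃ g : G, ∀ (ξ : L2 G) (h : G), T ξ h = ξ (g⁻¹ * h)}

/-- The commutant of a set `s`: all elements commuting with `s` and with the adjoints of `s`. -/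
noncomputable def commutant {A : Type} [CStarAlgebra A] (s : Set A) : StarSubalgebra ℂ A :=
  StarSubalgebra.centralizer ℂ s

/-- The bicommutant `s''` of a set `s`. -/
noncomputable def bicommutant {A : Type} [CStarAlgebra A] (s : Set A) : StarSubalgebra ℂ A :=
  commutant (commutant s : Set A)

/-- The underlying type of a star subalgebra. -/
abbrev Carrier {A : Type} [CStarAlgebra A] (S : StarSubalgebra ℂ A) : Type := S

/-- Two star subalgebras are isomorphic as complex star algebras. -/
def StarIsomorphic {A B : Type} [CStarAlgebra A] [CStarAlgebra B]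
    (S : StarSubalgebra ℂ A) (T : StarSubalgebra ℂ B) : Prop :=
  Nonempty (Carrier S ≃⋆ₐ[ℂ] Carrier T)

/-- The group von Neumann algebras `L(G) = λ(G)''` and `L(H) = λ(H)''` are star-isomorphic. -/
def VNIsomorphic (G H : Type) [Group G] [Group H] : Prop :=
  StarIsomorphic (bicommutant (leftTranslations G)) (bicommutant (leftTranslations H))

/-- The free group of rank `n`, where `n` is a natural number or infinity (countably infinitely
many generators). -/
abbrev FreeGroupOfRank (n : ℕ∞) : Type := FreeGroup {i : ℕ // (i : ℕ∞) < n}

end Vale.Agent.P086
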