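import Vale.Agent.P086.Absorb

/-!
Every vector can be moved approximately into the subspace of two generators.
-/

set_option linter.unusedSectionVars false
set_option linter.deprecated false

namespace Vale.Agent.P086

open Finset Filter Topology
open FreeGroup (of)
open scoped InnerProductSpace ComplexConjugate

section General

variable {G : Type}

theorem tendsto_closed {α : Type} {l : Filter α} (T : α → Op G)
    (hT : ∀ n ξ, ‖T n ξ‖ ≤ 2 * ‖ξ‖) :
    IsClosed {ξ : L2 G | Tendsto (fun n => ‖T n ξ‖) l (𝓝 0)} := by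
  refine isClosed_of_closure_subset fun ξ hξ => ?_
  show Tendsto (fun n => ‖T n ξ‖) l (𝓝 0)
  rw [Metric.tendsto_nhds]
  intro ε hε
  obtain ⟨η, hη, hd⟩ := Metric.mem_closure_iff.1 hξ (ε / 4) (by positivity)
  have h1 : Tendsto (fun n => ‖T n η‖) l (𝓝 0) := hη
  filter_upwards [h1.eventually (ge_mem_nhds (show 0 < ε / 4 by positivity))] with n hn
  rw [Real.dist_eq, sub_zero, abs_of_nonneg (norm_nonneg _)]
  have e : T n ξ = T n (ξ - η) + T n η := by simp
  rw [dist_eq_norm] at hd
  have := hT n (ξ - η)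
  rw [e]
  linarith [norm_add_le (T n (ξ - η)) (T n η)]

theorem tendsto_span {α : Type} {l : Filter α} (T : α → Op G)
    (hT : ∀ n ξ, ‖T n ξ‖ ≤ 2 * ‖ξ‖) (s : Set G)
    (h : ∀ g ∈ s, Tendsto (fun n => ‖T n (dl g)‖) l (𝓝 0)) (ξ : L2 G) (hξ : cut s ξ = ξ) :
    Tendsto (fun n => ‖T n ξ‖) l (𝓝 0) := by
  refine span_cut s ξ hξ (fun ξ => Tendsto (fun n => ‖T n ξ‖) l (𝓝 0)) (tendsto_closed T hT)
    (by simpa using tendsto_const_nhds) (fun x y hx hy => ?_) (fun c g hg => ?_)
  · refine squeeze_zero (fun _ => norm_nonneg _) (fun n => ?_) (by simpa using hx.add hy)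
    rw [map_add]; exact norm_add_le _ _
  · have := (h g hg).const_mul ‖c‖
    simpa [norm_smul] using this

variable [Group G]

theorem tendsto_fix {α : Type} {l : Filter α} {U : α → Op G} (hU : ∀ n, IsAut (U n)) (s : Set G)
    (h : ∀ g ∈ s, Tendsto (fun n => ‖U n (dl g) - dl g‖) l (𝓝 0)) (ξ : L2 G) :
    Tendsto (fun n => ‖U n (cut s ξ) - cut s ξ‖) l (𝓝 0) := by
  have e : ∀ n η, (U n - 1) η = U n η - η := fun n η => by
    rw [ContinuousLinearMap.sub_apply, ContinuousLinearMap.one_apply]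
  have := tendsto_span (l := l) (fun n => U n - 1) (fun n η => ?_) s
    (fun g hg => by simpa only [e] using h g hg) _ (cut_cut s ξ)
  · simpa only [e] using this
  · rw [e]
    refine (norm_sub_le (U n η) η).trans ?_
    rw [unitary_norm (hU n).uni]; linarith

theorem tendsto_out {α : Type} {l : Filter α} {U : α → Op G} (hU : ∀ n, IsAut (U n)) (s : Set G)
    (h : ∀ g, Tendsto (fun n => ‖U n (dl g) - cut s (U n (dl g))‖) l (𝓝 0)) (ξ : L2 G) :
    Tendsto (fun n => ‖U n ξ - cut s (U n ξ)‖) l (𝓝 0) := by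
  have e : ∀ n η, (U n - cut s * U n) η = U n η - cut s (U n η) := fun n η => by
    rw [ContinuousLinearMap.sub_apply, op_mul_apply]
  have := tendsto_span (l := l) (fun n => U n - cut s * U n) (fun n η => ?_) Set.univ
    (fun g _ => by simpa only [e] using h g) ξ (cut_eq_self (by simp))
  · simpa only [e] using this
  · rw [e]
    refine (norm_sub_cut_le _ _).trans ?_
    rw [unitary_norm (hU n).uni]; linarith [norm_nonneg η]

theorem IsAut.out_mul {U : Op G} (hU : IsAut U) (Γ : Subgroup G) (g h : G) :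
    ‖U (dl (g * h)) - cut Γ (U (dl (g * h)))‖
      ≤ ‖U (dl g) - cut Γ (U (dl g))‖ + ‖U (dl h) - cut Γ (U (dl h))‖ := by
  obtain ⟨z, hz, nz, hz1⟩ := exists_condExp Γ (hU.bet_mem g)
  obtain ⟨y, hy, ny, hy1⟩ := exists_condExp Γ (hU.bet_mem h)
  have h1 := mul_hat_sub_le (y := bet U h) (hU.bet_mem g) hz hy
    (unitary_opnorm (hU.bet_unitary g)) (ny.trans (unitary_opnorm (hU.bet_unitary h)))
  have h2 : cut Γ (z (y (dl 1))) = z (y (dl 1)) :=
    VN_maps_cut Γ hz (by rw [hz1, cut_cut]) (by rw [hy1, cut_cut])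
  refine (norm_sub_cut_le_dist _ _ _ h2).trans ?_
  rw [hz1, hU.bet_hat, hU.bet_hat, ← hU.dl_mul] at h1
  rw [hy1, hU.bet_hat] at h1 ⊢
  exact h1

theorem IsAut.out_inv {U : Op G} (hU : IsAut U) (Γ : Subgroup G) (g : G) :
    ‖U (dl g⁻¹) - cut Γ (U (dl g⁻¹))‖ ≤ ‖U (dl g) - cut Γ (U (dl g))‖ := by
  obtain ⟨z, hz, -, hz1⟩ := exists_condExp Γ (hU.bet_mem g)
  have h1 := star_hat_sub (hU.bet_mem g) hz
  have h2 : cut Γ (star z (dl 1)) = star z (dl 1) := by
    apply cut_eq_self
    intro k hk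
    rw [star_hat_apply hz, hz1, cut_apply_not _ (fun h => hk (by simpa using Γ.inv_mem h))]
    simp
  refine (norm_sub_cut_le_dist _ _ _ h2).trans ?_
  rw [← bet_inv, hz1, hU.bet_hat, hU.bet_hat] at h1
  exact h1.le

end General

variable {ι : Type}

theorem absorb_finite {a c : ι} (hac : a ≠ c) (J : Finset ι) (ha : a ∉ J) (hc : c ∉ J) (ε : ℝ)
    (hε : 0 < ε) :
    ∃ W : Op (FreeGroup ι), IsAut W ∧ (∀ j, j ≠ a → j ∉ J → W (dl (of j)) = dl (of j)) ∧
      ‖W (dl (of a)) - dl (of a)‖ ≤ ε ∧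
      ∀ j ∈ J, ‖W (dl (of j)) - cut (Gam a c) (W (dl (of j)))‖ ≤ ε := by
  classical
  induction J using Finset.induction_on generalizing ε with
  | empty => exact ⟨1, IsAut.one, fun _ _ _ => rfl, by simpa using hε.le, by simp⟩
  | insert b J hb ih =>
    have hab : a ≠ b := fun e => ha (by simp [e])
    have hcb : c ≠ b := fun e => hc (by simp [e])
    obtain ⟨W, hW, hWfix, hWa, hWJ⟩ := ih (fun h => ha (by simp [h])) (fun h => hc (by simp [h]))
      (ε / 2) (by positivity)
    have hseq := fun n : ℕ => absorb_one hac hab hcb (1 / ((n : ℝ) + 1)) (by positivity)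
    choose U hU hUfix hUa hUb using hseq
    have hone : Tendsto (fun n : ℕ => 1 / ((n : ℝ) + 1)) atTop (𝓝 0) :=
      tendsto_one_div_add_atTop_nhds_zero_nat
    have hta : Tendsto (fun n => ‖U n (dl (of a)) - dl (of a)‖) atTop (𝓝 0) :=
      squeeze_zero (fun _ => norm_nonneg _) hUa hone
    have hnear : ∀ g ∈ Gam a c, Tendsto (fun n => ‖U n (dl g) - dl g‖) atTop (𝓝 0) := by
      intro g hg
      refine near_tendsto hU ?_ hg
      rintro x (rfl | rfl)
      · exact hta
      · simp [hUfix _ c hac.symm hcb]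
    have hvec := tendsto_fix hU (Gam a c) hnear
    have e1 : ∀ᶠ n in atTop, ∀ j ∈ J,
        ‖U n (cut (Gam a c) (W (dl (of j)))) - cut (Gam a c) (W (dl (of j)))‖ ≤ ε / 2 :=
      (eventually_all_finset J).2 fun j _ => (hvec _).eventually (ge_mem_nhds (by positivity))
    obtain ⟨n, n1, n2⟩ :=
      (e1.and (hone.eventually (ge_mem_nhds (show 0 < ε / 2 by positivity)))).exists
    refine ⟨U n * W, (hU n).mul hW, fun j j1 j2 => ?_, ?_, fun j hj => ?_⟩
    · rw [op_mul_apply, hWfix j j1 (fun h => j2 (by simp [h])),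
        hUfix n j j1 (fun h => j2 (by simp [h]))]
    · have e : (U n * W) (dl (of a)) - dl (of a)
          = U n (W (dl (of a)) - dl (of a)) + (U n (dl (of a)) - dl (of a)) := by simp
      rw [e]
      refine (norm_add_le _ _).trans ?_
      rw [unitary_norm (hU n).uni]
      linarith [hUa n]
    · rcases mem_insert.1 hj with rfl | hj
      · rw [op_mul_apply, hWfix j hab.symm hb]
        linarith [hUb n]
      · refine (norm_sub_cut_le_dist _ _ _ (cut_cut _ (W (dl (of j))))).trans ?_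
        have e : (U n * W) (dl (of j)) - cut (Gam a c) (W (dl (of j)))
            = U n (W (dl (of j)) - cut (Gam a c) (W (dl (of j))))
              + (U n (cut (Gam a c) (W (dl (of j)))) - cut (Gam a c) (W (dl (of j)))) := by simp
        rw [e]
        refine (norm_add_le _ _).trans ?_
        rw [unitary_norm (hU n).uni]
        linarith [hWJ j hj, n1 j hj]

theorem absorb_vector {a c : ι} (hac : a ≠ c) (η : L2 (FreeGroup ι)) (ε : ℝ) (hε : 0 < ε) :
    ∃ W : Op (FreeGroup ι), IsAut W ∧ W (dl (of c)) = dl (of c) ∧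
      ‖W (dl (of a)) - dl (of a)‖ ≤ ε ∧ ‖W η - cut (Gam a c) (W η)‖ ≤ ε := by
  classical
  have hseq := fun p : Finset ι × ℕ => absorb_finite hac ((p.1.erase a).erase c) (by simp) (by simp)
    (1 / ((p.2 : ℝ) + 1)) (by positivity)
  choose W hW hWfix hWa hWJ using hseq
  let l : Filter (Finset ι × ℕ) := atTop ×ˢ atTop
  have hone : Tendsto (fun p : Finset ι × ℕ => 1 / ((p.2 : ℝ) + 1)) l (𝓝 0) :=
    tendsto_one_div_add_atTop_nhds_zero_nat.comp tendsto_snd
  have hc : ∀ p, W p (dl (of c)) = dl (of c) := fun p => hWfix p c hac.symm (by simp)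
  have hg : ∀ g : FreeGroup ι,
      Tendsto (fun p => ‖W p (dl g) - cut (Gam a c) (W p (dl g))‖) l (𝓝 0) := by
    intro g
    induction g using FreeGroup.induction_on with
    | C1 => simp [(hW _).fix, cut_dl_mem (Gam a c).one_mem]
    | of j =>
      by_cases h1 : j = a
      · subst h1
        refine squeeze_zero (fun _ => norm_nonneg _) (fun p => ?_) hone
        exact (norm_sub_cut_le_dist _ _ _ (cut_dl_mem (a_mem_Gam j c))).trans (hWa p)
      by_cases h2 : j = c
      · subst h2
        simp [hc, cut_dl_mem (c_mem_Gam a j)]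
      · refine squeeze_zero' (Eventually.of_forall fun _ => norm_nonneg _) ?_ hone
        filter_upwards [tendsto_fst.eventually (eventually_ge_atTop ({j} : Finset ι))] with p hp
        exact hWJ p j (by simpa [h1, h2] using hp)
    | inv_of j ih => exact squeeze_zero (fun _ => norm_nonneg _) (fun p => (hW p).out_inv _ _) ih
    | mul x y hx hy =>
      exact squeeze_zero (fun _ => norm_nonneg _) (fun p => (hW p).out_mul _ _ _)
        (by simpa using hx.add hy)
  have hη := tendsto_out hW (Gam a c) hg η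
  obtain ⟨p, p1, p2⟩ :=
    ((hη.eventually (ge_mem_nhds hε)).and (hone.eventually (ge_mem_nhds hε))).exists
  exact ⟨W p, hW p, hc p, (hWa p).trans p2, p1⟩

end Vale.Agent.P086
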