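import Vale.Agent.P086.Basic

/-!
Exponentiating a trace preserving derivation of the real group algebra for short times.
-/

set_option linter.unusedSectionVars false
set_option linter.deprecated false

namespace Vale.Agent.P086

open Finset Filter Topology
open scoped InnerProductSpace ComplexConjugate Nat

variable {G : Type} [Group G]

/-- the real group algebra -/
abbrev GA (G : Type) [Group G] : Type := MonoidAlgebra ℝ G

/-- group element in the group algebra -/
noncomputable abbrev sgl (g : G) : GA G := MonoidAlgebra.single g 1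

/-- `lam` as a monoid homomorphism -/
noncomputable def lamHom : G →* Op G where
  toFun := lam
  map_one' := lam_one
  map_mul' := lam_mul

theorem lam_comm_aux (x : ℝ) (y : G) :
    Commute (((algebraMap ℂ (Op G)).comp Complex.ofRealHom) x) (lamHom y) :=
  Algebra.commutes (x : ℂ) (lamHom y)

/-- the left regular representation of the group algebra -/
noncomputable def Lam : GA G →+* Op G :=
  MonoidAlgebra.liftNCRingHom ((algebraMap ℂ (Op G)).comp Complex.ofRealHom) lamHom lam_comm_aux

theorem Lam_single (g : G) (r : ℝ) : Lam (MonoidAlgebra.single g r) = (r : ℂ) • lam g := by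
  rw [Lam, MonoidAlgebra.liftNCRingHom_single, Algebra.smul_def]
  rfl

theorem Lam_sgl (g : G) : Lam (sgl g) = lam g := by simp [Lam_single]

theorem Lam_smul (r : ℝ) (f : GA G) : Lam (r • f) = (r : ℂ) • Lam f := by
  induction f using MonoidAlgebra.induction_linear with
  | zero => simp
  | add f g hf hg => rw [smul_add, map_add, map_add, hf, hg, smul_add]
  | single g c => rw [MonoidAlgebra.smul_single, Lam_single, Lam_single, smul_smul]; simp

theorem Lam_mem (f : GA G) : Lam f ∈ VN G := by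
  induction f using MonoidAlgebra.induction_linear with
  | zero => simp
  | add f g hf hg => rw [map_add]; exact add_mem hf hg
  | single g c => rw [Lam_single]; exact SMulMemClass.smul_mem _ (lam_mem g)

/-- the inversion anti-automorphism -/
noncomputable def sg : GA G →ₗ[ℝ] GA G := MonoidAlgebra.mapDomainLinearMap ℝ ℝ (fun g => g⁻¹)

theorem sg_single (g : G) (r : ℝ) : sg (MonoidAlgebra.single g r) = MonoidAlgebra.single g⁻¹ r :=
  MonoidAlgebra.mapDomainLinearMap_single _ _ _

theorem sg_mul (f g : GA G) : sg (f * g) = sg g * sg f := by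
  induction f using MonoidAlgebra.induction_linear with
  | zero => simp
  | add f f' hf hf' => rw [add_mul, map_add, map_add, hf, hf', mul_add]
  | single a c =>
    induction g using MonoidAlgebra.induction_linear with
    | zero => simp
    | add g g' hg hg' => rw [mul_add, map_add, map_add, hg, hg', add_mul]
    | single b d =>
      simp only [MonoidAlgebra.single_mul_single, sg_single, mul_inv_rev, mul_comm c d]

theorem Lam_sg (f : GA G) : Lam (sg f) = star (Lam f) := by
  induction f using MonoidAlgebra.induction_linear with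
  | zero => simp
  | add f g hf hg => rw [map_add, map_add, map_add, hf, hg, star_add]
  | single g c => rw [sg_single, Lam_single, Lam_single, star_smul, star_lam]; simp

/-- the vector of coefficients -/
noncomputable def io (f : GA G) : L2 G := Lam f (dl 1)

theorem io_add (f g : GA G) : io (f + g) = io f + io g := by simp [io]

theorem io_sub (f g : GA G) : io (f - g) = io f - io g := by simp [io]

theorem io_zero : io (0 : GA G) = 0 := by simp [io]

theorem io_smul (r : ℝ) (f : GA G) : io (r • f) = (r : ℂ) • io f := by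
  rw [io, Lam_smul]; rfl

theorem io_single (g : G) (r : ℝ) : io (MonoidAlgebra.single g r) = (r : ℂ) • dl g := by
  rw [io, Lam_single, ContinuousLinearMap.smul_apply, lam_dl, mul_one]

theorem io_sgl (g : G) : io (sgl g) = dl g := by simp [io_single]

theorem io_apply (f : GA G) (h : G) : io f h = (f.coeff h : ℂ) := by
  classical
  induction f using MonoidAlgebra.induction_linear with
  | zero => simp [io_zero]
  | add f g hf hg => rw [io_add, l2_add_apply, hf, hg]; simp
  | single g c =>
    rw [io_single, l2_smul_apply, dl_apply, MonoidAlgebra.coeff_single, Finsupp.single_apply]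
    by_cases hh : h = g
    · simp [hh]
    · simp [hh, Ne.symm hh]

theorem inner_io (f g : GA G) : ⟪io f, io g⟫_ℂ = ((sg f * g).coeff 1 : ℂ) := by
  rw [← io_apply, ← inner_dl_left, io, io, io, map_mul, Lam_sg, op_mul_apply, inner_star_right]

theorem norm_io_le (f : GA G) : ‖io f‖ ≤ ‖Lam f‖ := by
  have := (Lam f).le_opNorm (dl 1)
  rwa [norm_dl, mul_one] at this

section Der

variable (D : GA G →ₗ[ℝ] GA G)

theorem der_pow_succ (m : ℕ) (f : GA G) : (D ^ (m + 1)) f = D ((D ^ m) f) := by
  rw [pow_succ']; rfl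

theorem der_pow_succ' (m : ℕ) (f : GA G) : (D ^ (m + 1)) f = (D ^ m) (D f) := by
  rw [pow_succ]; rfl

theorem der_pow_mul (hleib : ∀ f g, D (f * g) = D f * g + f * D g) (m : ℕ) (f g : GA G) :
    (D ^ m) (f * g) = ∑ p ∈ antidiagonal m, m.choose p.1 • ((D ^ p.1) f * (D ^ p.2) g) := by
  induction m with
  | zero => simp
  | succ m ih =>
    rw [der_pow_succ, ih, map_sum,
      Finset.sum_antidiagonal_choose_succ_nsmul (fun i j => (D ^ i) f * (D ^ j) g) m,
      ← sum_add_distrib]
    refine sum_congr rfl fun p hp => ?_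
    rw [map_nsmul, hleib, ← der_pow_succ, ← der_pow_succ, nsmul_add, add_comm,
      Nat.choose_symm_of_eq_add (mem_antidiagonal.1 hp).symm]

/-- the divided powers -/
noncomputable def dv (m : ℕ) (f : GA G) : GA G := ((m ! : ℝ)⁻¹) • (D ^ m) f

theorem dv_mul (hleib : ∀ f g, D (f * g) = D f * g + f * D g) (m : ℕ) (f g : GA G) :
    dv D m (f * g) = ∑ p ∈ antidiagonal m, dv D p.1 f * dv D p.2 g := by
  unfold dv
  rw [der_pow_mul D hleib, smul_sum]
  refine sum_congr rfl fun p hp => ?_
  have hp' := mem_antidiagonal.1 hp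
  rw [smul_mul_smul_comm, ← Nat.cast_smul_eq_nsmul ℝ, smul_smul]
  congr 1
  have h := Nat.add_choose_mul_factorial_mul_factorial p.1 p.2
  rw [hp'] at h
  have h2 : m.choose p.1 = m.choose p.2 := Nat.choose_symm_of_eq_add hp'.symm
  rw [h2, ← h]
  have h3 : (m.choose p.2 : ℝ) ≠ 0 := by
    have : 0 < m.choose p.2 := Nat.choose_pos (by omega)
    positivity
  have h4 : (p.1 ! : ℝ) ≠ 0 := by positivity
  have h5 : (p.2 ! : ℝ) ≠ 0 := by positivity
  push_cast
  field_simp

theorem der_pow_sg (hstar : ∀ f, D (sg f) = sg (D f)) (m : ℕ) (f : GA G) :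
    (D ^ m) (sg f) = sg ((D ^ m) f) := by
  induction m with
  | zero => simp
  | succ m ih => rw [der_pow_succ, ih, hstar, ← der_pow_succ]

theorem der_skew (hleib : ∀ f g, D (f * g) = D f * g + f * D g)
    (hstar : ∀ f, D (sg f) = sg (D f)) (htr : ∀ f, (D f).coeff 1 = 0) (f g : GA G) :
    ⟪io (D f), io g⟫_ℂ = -⟪io f, io (D g)⟫_ℂ := by
  have h := htr (sg f * g)
  rw [hleib, hstar] at h
  rw [inner_io, inner_io, eq_neg_iff_add_eq_zero]
  exact_mod_cast h

theorem der_pow_skew (hleib : ∀ f g, D (f * g) = D f * g + f * D g)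
    (hstar : ∀ f, D (sg f) = sg (D f)) (htr : ∀ f, (D f).coeff 1 = 0) (m : ℕ) (f g : GA G) :
    ⟪io ((D ^ m) f), io g⟫_ℂ = (-1) ^ m * ⟪io f, io ((D ^ m) g)⟫_ℂ := by
  induction m generalizing g with
  | zero => simp
  | succ m ih => rw [der_pow_succ, der_skew D hleib hstar htr, ih, ← der_pow_succ']; ring

/-- the terms of the exponential series -/
noncomputable def trm (s : ℝ) (f : GA G) (m : ℕ) : Op G := (s : ℂ) ^ m • Lam (dv D m f)

/-- the exponential series -/
noncomputable def ex (s : ℝ) (f : GA G) : Op G := ∑' m, trm D s f m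

variable {D} {K : ℝ}

theorem trm_bound {f : GA G} {C : ℝ} (hC : ∀ m, ‖Lam ((D ^ m) f)‖ ≤ C * m ! * K ^ m) (s : ℝ)
    (m : ℕ) : ‖trm D s f m‖ ≤ C * (|s| * K) ^ m := by
  unfold trm dv
  rw [Lam_smul, norm_smul, norm_smul, norm_pow, Complex.norm_real, Complex.norm_real,
    Real.norm_eq_abs, Real.norm_eq_abs, abs_of_pos (a := (m ! : ℝ)⁻¹) (by positivity)]
  have h := hC m
  have h1 : (m ! : ℝ)⁻¹ * ‖Lam ((D ^ m) f)‖ ≤ C * K ^ m := by
    rw [inv_mul_le_iff₀ (by positivity)]
    linarith
  calc |s| ^ m * ((m ! : ℝ)⁻¹ * ‖Lam ((D ^ m) f)‖) ≤ |s| ^ m * (C * K ^ m) :=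
        mul_le_mul_of_nonneg_left h1 (by positivity)
    _ = _ := by rw [mul_pow]; ring

theorem C_nonneg {f : GA G} {C : ℝ} (hC : ∀ m, ‖Lam ((D ^ m) f)‖ ≤ C * m ! * K ^ m) : 0 ≤ C := by
  have := (norm_nonneg _).trans (hC 0)
  simpa using this

theorem trm_summable (hK : 0 < K) (hgr : ∀ f, ∃ C : ℝ, ∀ m, ‖Lam ((D ^ m) f)‖ ≤ C * m ! * K ^ m)
    {s : ℝ} (hs : |s| * K ≤ 1 / 2) (f : GA G) : Summable (fun m => ‖trm D s f m‖) := by
  obtain ⟨C, hC⟩ := hgr f
  refine Summable.of_nonneg_of_le (fun _ => norm_nonneg _) (trm_bound hC s) ?_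
  exact (summable_geometric_of_lt_one (by positivity) (by linarith)).mul_left C

theorem exists_flow (hleib : ∀ f g, D (f * g) = D f * g + f * D g)
    (hstar : ∀ f, D (sg f) = sg (D f)) (htr : ∀ f, (D f).coeff 1 = 0) (hK : 0 < K)
    (hgr : ∀ f, ∃ C : ℝ, ∀ m, ‖Lam ((D ^ m) f)‖ ≤ C * m ! * K ^ m) :
    ∃ V : ℝ → Op G, (∀ s, |s| * K ≤ 1 / 2 → IsAut (V s) ∧ star (V s) = V (-s) ∧
      ∀ f, D f = 0 → V s (io f) = io f) ∧
      ∀ f, ∃ C : ℝ, ∀ s, |s| * K ≤ 1 / 2 →
        ‖V s (io f) - io f - (s : ℂ) • io (D f)‖ ≤ C * s ^ 2 := by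
  classical
  have hsum : ∀ {s : ℝ}, |s| * K ≤ 1 / 2 → ∀ f, HasSum (trm D s f) (ex D s f) :=
    fun hs f => (trm_summable hK hgr hs f).of_norm.hasSum
  have hmem : ∀ {s : ℝ}, |s| * K ≤ 1 / 2 → ∀ f, ex D s f ∈ VN G := by
    intro s hs f
    rw [mem_VN]
    intro g
    have h1 := (hsum hs f).mul_left (rho g)
    have h2 := (hsum hs f).mul_right (rho g)
    have e : ∀ m, rho g * trm D s f m = trm D s f m * rho g := fun m =>
      mem_VN.1 (SMulMemClass.smul_mem _ (Lam_mem _)) g
    simp only [e] at h1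
    exact h1.unique h2
  have hmul : ∀ {s : ℝ}, |s| * K ≤ 1 / 2 → ∀ f g, ex D s (f * g) = ex D s f * ex D s g := by
    intro s hs f g
    unfold ex
    rw [tsum_mul_tsum_eq_tsum_sum_antidiagonal_of_summable_norm (trm_summable hK hgr hs f)
      (trm_summable hK hgr hs g)]
    congr 1
    funext m
    unfold trm
    rw [dv_mul D hleib, map_sum, smul_sum]
    refine sum_congr rfl fun p hp => ?_
    rw [smul_mul_smul_comm, ← pow_add, mem_antidiagonal.1 hp, map_mul]
  have hsg : ∀ {s : ℝ}, |s| * K ≤ 1 / 2 → ∀ f, ex D s (sg f) = star (ex D s f) := by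
    intro s hs f
    have h1 := (hsum hs f).star
    have e : ∀ m, star (trm D s f m) = trm D s (sg f) m := by
      intro m
      unfold trm dv
      rw [star_smul, ← Lam_sg, der_pow_sg D hstar, map_smul]
      simp
    simp only [e] at h1
    exact (hsum hs _).unique h1
  have hvec : ∀ {s : ℝ}, |s| * K ≤ 1 / 2 → ∀ f,
      HasSum (fun m => (s : ℂ) ^ m • io (dv D m f)) (ex D s f (dl 1)) := by
    intro s hs f
    exact (hsum hs f).mapL (ContinuousLinearMap.apply ℂ (L2 G) (dl 1))
  have htrace : ∀ {s : ℝ}, |s| * K ≤ 1 / 2 → ∀ f, ex D s f (dl 1) 1 = (f.coeff 1 : ℂ) := by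
    intro s hs f
    have h1 := (hvec hs f).mapL (innerSL ℂ (dl 1))
    simp only [innerSL_apply_apply, inner_dl_left, l2_smul_apply, io_apply] at h1
    have h2 : HasSum (fun m => (s : ℂ) ^ m * (((dv D m f).coeff 1 : ℝ) : ℂ))
        ((s : ℂ) ^ 0 * (((dv D 0 f).coeff 1 : ℝ) : ℂ)) := by
      apply hasSum_single 0
      intro m hm
      obtain ⟨n, rfl⟩ := Nat.exists_eq_succ_of_ne_zero hm
      simp [dv, der_pow_succ, htr]
    rw [h1.unique h2]
    simp [dv]
  have horth : ∀ {s : ℝ}, |s| * K ≤ 1 / 2 →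
      Orthonormal ℂ (fun g : G => ex D s (sgl g) (dl 1)) := by
    intro s hs
    rw [orthonormal_iff_ite]
    intro g h
    rw [← inner_star_right, ← hsg hs, ← op_mul_apply, ← hmul hs, inner_dl_left, htrace hs,
      sg_single, MonoidAlgebra.single_mul_single, MonoidAlgebra.coeff_single, Finsupp.single_apply]
    by_cases hh : g = h
    · simp [hh]
    · have : ¬ g⁻¹ * h = 1 := fun e => hh (inv_mul_eq_one.1 e)
      simp [hh, this]
  let V : ℝ → Op G := fun s =>
    if hs : |s| * K ≤ 1 / 2 then (isoOf (horth hs)).toContinuousLinearMap else 0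
  have hV : ∀ {s : ℝ} (hs : |s| * K ≤ 1 / 2), V s = (isoOf (horth hs)).toContinuousLinearMap :=
    fun hs => dif_pos hs
  have hVdl : ∀ {s : ℝ}, |s| * K ≤ 1 / 2 → ∀ g, V s (dl g) = ex D s (sgl g) (dl 1) := by
    intro s hs g
    rw [hV hs]
    exact isoOf_dl (horth hs) g
  have hVio : ∀ {s : ℝ}, |s| * K ≤ 1 / 2 → ∀ f, V s (io f) = ex D s f (dl 1) := by
    intro s hs f
    induction f using MonoidAlgebra.induction_linear with
    | zero =>
      have := hvec hs 0
      simp only [dv, map_zero, smul_zero, io_zero] at this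
      rw [io_zero, map_zero]
      exact hasSum_zero.unique this
    | add f g hf hg =>
      rw [io_add, map_add, hf, hg]
      have h1 := (hvec hs f).add (hvec hs g)
      have h2 := hvec hs (f + g)
      simp only [dv, map_add, smul_add, io_add] at h1 h2
      exact h1.unique h2
    | single g c =>
      rw [io_single, map_smul, hVdl hs]
      have h1 := (hvec hs (sgl g)).const_smul (c : ℂ)
      have h2 := hvec hs (MonoidAlgebra.single g c)
      have e : MonoidAlgebra.single g c = c • sgl g := by simp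
      have e2 : ∀ m, (s : ℂ) ^ m • io (dv D m (MonoidAlgebra.single g c))
          = (c : ℂ) • (s : ℂ) ^ m • io (dv D m (sgl g)) := by
        intro m
        rw [e, dv, dv, map_smul, smul_comm _ c, io_smul, smul_comm]
      simp only [e2] at h2
      exact h1.unique h2
  have hneg : ∀ {s : ℝ}, |s| * K ≤ 1 / 2 → |-s| * K ≤ 1 / 2 := fun hs => by rwa [abs_neg]
  have hadj : ∀ {s : ℝ}, |s| * K ≤ 1 / 2 → star (V s) = V (-s) := by
    intro s hs
    apply op_ext
    intro h
    apply lp.ext
    funext g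
    rw [← inner_dl_left, ← inner_dl_left, inner_star_right, hVdl hs, hVdl (hneg hs)]
    have h1 := (hvec hs (sgl g)).mapL (innerSL ℂ (dl h))
    have h2 := (hvec (hneg hs) (sgl h)).mapL (innerSL ℂ (dl g))
    have h3 := h1.star
    simp only [innerSL_apply_apply] at h2 h3
    have e : ∀ m, star ⟪dl h, (s : ℂ) ^ m • io (dv D m (sgl g))⟫_ℂ
        = ⟪dl g, ((-s : ℝ) : ℂ) ^ m • io (dv D m (sgl h))⟫_ℂ := by
      intro m
      have := der_pow_skew D hleib hstar htr m (sgl g) (sgl h)
      rw [io_sgl, io_sgl] at this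
      rw [Complex.star_def, inner_conj_symm, dv, dv, io_smul, io_smul, inner_smul_left,
        inner_smul_left, inner_smul_right, inner_smul_right, this]
      simp only [map_pow, Complex.conj_ofReal, Complex.ofReal_neg]
      rw [neg_pow (s : ℂ)]
      ring
    simp only [e] at h3
    rw [← h3.unique h2, Complex.star_def, inner_conj_symm]
  have hiso : ∀ {s : ℝ}, |s| * K ≤ 1 / 2 → star (V s) * V s = 1 := by
    intro s hs
    rw [hV hs]
    exact star_mul_self_of_isometry _
  have huni : ∀ {s : ℝ}, |s| * K ≤ 1 / 2 → V s ∈ unitary (Op G) := by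
    intro s hs
    rw [Unitary.mem_iff]
    refine ⟨hiso hs, ?_⟩
    have h1 := hiso (hneg hs)
    rwa [hadj (hneg hs), neg_neg, ← hadj hs] at h1
  have hfix : ∀ {s : ℝ}, |s| * K ≤ 1 / 2 → ∀ f, D f = 0 → V s (io f) = io f := by
    intro s hs f hf
    rw [hVio hs]
    have h2 : HasSum (fun m => (s : ℂ) ^ m • io (dv D m f)) ((s : ℂ) ^ 0 • io (dv D 0 f)) := by
      apply hasSum_single 0
      intro m hm
      obtain ⟨n, rfl⟩ := Nat.exists_eq_succ_of_ne_zero hm
      simp [dv, der_pow_succ', hf, io_zero]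
    rw [(hvec hs f).unique h2]
    simp [dv]
  have hfwd : ∀ {s : ℝ}, |s| * K ≤ 1 / 2 → ∀ g, V s * lam g * star (V s) ∈ VN G := by
    intro s hs g
    have e : V s * lam g = ex D s (sgl g) * V s := by
      apply op_ext
      intro h
      rw [op_mul_apply, op_mul_apply, lam_dl, hVdl hs, hVdl hs, ← op_mul_apply, ← hmul hs,
        MonoidAlgebra.single_mul_single, mul_one]
    rw [e, mul_assoc, (Unitary.mem_iff.1 (huni hs)).2, mul_one]
    exact hmem hs _
  have hD1 : D 1 = 0 := by
    have := hleib 1 1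
    simpa using this
  refine ⟨V, fun s hs => ⟨⟨huni hs, ?_, hfwd hs, fun g => ?_⟩, hadj hs, hfix hs⟩, fun f => ?_⟩
  · have := hfix hs 1 hD1
    rwa [MonoidAlgebra.one_def, io_sgl] at this
  · have := hfwd (hneg hs) g
    rwa [hadj (hneg hs), neg_neg, ← hadj hs] at this
  · obtain ⟨C, hC⟩ := hgr f
    have hC0 := C_nonneg hC
    refine ⟨2 * C * K ^ 2, fun s hs => ?_⟩
    have h1 := (hasSum_nat_add_iff' 2).2 (hvec hs f)
    have e : ex D s f (dl 1) - ∑ i ∈ range 2, (s : ℂ) ^ i • io (dv D i f)
        = V s (io f) - io f - (s : ℂ) • io (D f) := by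
      rw [hVio hs]
      simp [sum_range_succ, dv, sub_sub]
    rw [e] at h1
    have h2 := hasSum_geometric_two.mul_left (C * (|s| * K) ^ 2)
    refine (h1.norm_le_of_bounded h2 fun m => ?_).trans (le_of_eq ?_)
    · have h3 := trm_bound hC s (m + 2)
      have h4 : ‖(s : ℂ) ^ (m + 2) • io (dv D (m + 2) f)‖ ≤ ‖trm D s f (m + 2)‖ := by
        have := (trm D s f (m + 2)).le_opNorm (dl 1)
        rwa [norm_dl, mul_one] at this
      refine h4.trans (h3.trans ?_)
      rw [pow_add, mul_comm ((|s| * K) ^ m), ← mul_assoc]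
      exact mul_le_mul_of_nonneg_left (pow_le_pow_left₀ (by positivity) hs m) (by positivity)
    · rw [mul_pow, sq_abs]; ring

end Der

end Vale.Agent.P086
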