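import Vale.Agent.P086.Step
import Vale.Agent.P086.Cut

/-!
Spectral gap for the conjugation action of the chosen words.
-/

set_option linter.unusedSectionVars false
set_option linter.deprecated false

namespace Vale.Agent.P086

open Finset Filter Topology
open FreeGroup (of startsWith)
open scoped InnerProductSpace ComplexConjugate

variable {ι : Type} [DecidableEq ι]

theorem reduce_append_letter (q : ι × Bool) (L : List (ι × Bool)) : ∀ p : ι × Bool,
    FreeGroup.IsReduced (p :: L) →
      FreeGroup.reduce (p :: (L ++ [q])) = [] ∨ (FreeGroup.reduce (p :: (L ++ [q])))[0]? = some p := by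
  induction L with
  | nil =>
    intro p _
    simp only [List.nil_append, FreeGroup.reduce.cons, FreeGroup.reduce_nil]
    split_ifs <;> simp
  | cons p' L ih =>
    intro p hp
    have h1 := FreeGroup.isReduced_cons_cons.1 hp
    rw [FreeGroup.reduce.cons, List.cons_append]
    rcases ih p' h1.2 with h | h
    · rw [h]; simp
    · rcases hL : FreeGroup.reduce (p' :: (L ++ [q])) with _ | ⟨hd, tl⟩
      · simp
      · rw [hL] at h
        have e : hd = p' := by simpa using h
        subst e
        have : ¬ (p.1 = hd.1 ∧ p.2 = !hd.2) := by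
          rintro ⟨e1, e2⟩
          have := h1.1 e1
          rw [this] at e2
          simp at e2
        simp [this]

theorem startsWith_mul_letter {p : ι × Bool} {y : FreeGroup ι} (hy : y ∈ startsWith p)
    (q : ι × Bool) : y * FreeGroup.mk [q] = 1 ∨ y * FreeGroup.mk [q] ∈ startsWith p := by
  have hy' : (FreeGroup.toWord y)[0]? = some p := hy
  rcases hL : FreeGroup.toWord y with _ | ⟨hd, tl⟩
  · rw [hL] at hy'; simp at hy'
  · rw [hL] at hy'
    have e : hd = p := by simpa using hy'
    subst e
    have hred : FreeGroup.IsReduced (hd :: tl) := hL ▸ FreeGroup.isReduced_toWord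
    have e2 : (y * FreeGroup.mk [q]).toWord = FreeGroup.reduce (hd :: (tl ++ [q])) := by
      rw [FreeGroup.toWord_mul, hL, FreeGroup.toWord_mk, FreeGroup.reduce_singleton]; rfl
    rcases reduce_append_letter q tl hd hred with h | h
    · left; rw [← FreeGroup.toWord_eq_nil_iff, e2, h]
    · right; show (FreeGroup.toWord _)[0]? = _; rw [e2, h]

theorem startsWith_unique {p q : ι × Bool} {y : FreeGroup ι} (h1 : y ∈ startsWith p)
    (h2 : y ∈ startsWith q) : p = q := by
  have a1 : (FreeGroup.toWord y)[0]? = some p := h1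
  have a2 : (FreeGroup.toWord y)[0]? = some q := h2
  rw [a1] at a2
  exact Option.some.inj a2

theorem conj_a_starts (a : ι) {w : FreeGroup ι} (h1 : w ≠ 1) (h2 : w ∉ startsWith (a, false)) :
    of a * w * (of a)⁻¹ ∈ startsWith (a, true) := by
  have h3 : of a * w ∈ startsWith (a, true) := FreeGroup.startsWith_mk_mul (w := (a, true)) w h2
  rcases startsWith_mul_letter h3 (a, false) with h | h
  · exfalso
    apply h1
    have : of a * w * (of a)⁻¹ = 1 := h
    calc w = (of a)⁻¹ * (of a * w * (of a)⁻¹) * of a := by group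
      _ = 1 := by rw [this]; group
  · exact h

theorem conj_c_starts {a c : ι} (hac : a ≠ c) (s : Bool) {y : FreeGroup ι}
    (hy : y ∈ startsWith (a, s)) (n : ℕ) :
    of c ^ (n + 1) * y * (of c ^ (n + 1))⁻¹ ∈ startsWith (c, true) := by
  have r : ∀ m : ℕ, y * (of c ^ m)⁻¹ ∈ startsWith (a, s) := by
    intro m
    induction m with
    | zero => simpa using hy
    | succ m ih =>
      have e : y * (of c ^ (m + 1))⁻¹ = y * (of c ^ m)⁻¹ * FreeGroup.mk [(c, false)] := by
        show _ = y * (of c ^ m)⁻¹ * (of c)⁻¹
        rw [pow_succ']; group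
      rw [e]
      rcases startsWith_mul_letter ih (c, false) with h | h
      · exfalso
        have h' : y * (of c ^ m)⁻¹ * (of c)⁻¹ = 1 := h
        rw [mul_inv_eq_one] at h'
        rw [h'] at ih
        have : of c ∈ startsWith (c, true) := by simp [startsWith]
        exact hac (congrArg Prod.fst (startsWith_unique ih this))
      · exact h
  have l : ∀ (z : FreeGroup ι), z ∈ startsWith (a, s) → ∀ m : ℕ,
      of c ^ (m + 1) * z ∈ startsWith (c, true) := by
    intro z hz m
    induction m with
    | zero =>
      rw [zero_add, pow_one]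
      exact FreeGroup.startsWith_mk_mul (w := (c, true)) z
        (fun h => hac (congrArg Prod.fst (startsWith_unique hz h)))
    | succ m ih =>
      rw [pow_succ', mul_assoc]
      exact FreeGroup.startsWith_mk_mul (w := (c, true)) _
        (fun h => by simpa using congrArg Prod.snd (startsWith_unique ih h))
  rw [mul_assoc]
  exact l _ (r _) n

theorem conj_disjoint {a c : ι} (hac : a ≠ c) (s : Bool) (i j : ℕ) (x : FreeGroup ι)
    (hi : (of c ^ i)⁻¹ * x * of c ^ i ∈ startsWith (a, s))
    (hj : (of c ^ j)⁻¹ * x * of c ^ j ∈ startsWith (a, s)) : i = j := by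
  have key : ∀ i j : ℕ, i < j → (of c ^ i)⁻¹ * x * of c ^ i ∈ startsWith (a, s) →
      (of c ^ j)⁻¹ * x * of c ^ j ∈ startsWith (a, s) → False := by
    intro i j hij hi hj
    obtain ⟨n, rfl⟩ := Nat.exists_eq_add_of_lt hij
    have h := conj_c_starts hac s hj n
    have e : of c ^ (n + 1) * ((of c ^ (i + n + 1))⁻¹ * x * of c ^ (i + n + 1)) * (of c ^ (n + 1))⁻¹
        = (of c ^ i)⁻¹ * x * of c ^ i := by group
    rw [e] at h
    exact hac (congrArg Prod.fst (startsWith_unique hi h))
  rcases lt_trichotomy i j with h | h | h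
  · exact (key i j h hi hj).elim
  · exact h
  · exact (key j i h hj hi).elim

omit [DecidableEq ι] in
theorem uw_gap {a c : ι} (hac : a ≠ c) (k m : ℕ) (ξ : L2 (FreeGroup ι)) (h1 : ξ 1 = 0) :
    ‖∑ i ∈ range m, adj (uw a c k i) ξ‖ ≤ 2 * √m * ‖ξ‖ := by
  classical
  have := pingpong (range m) (gw a c)
    (fun i => {x | (of c ^ i)⁻¹ * x * of c ^ i ∈ startsWith (a, true)})
    (fun i => {x | (of c ^ i)⁻¹ * x * of c ^ i ∈ startsWith (a, false)})
    (fun i _ j _ x hi hj => conj_disjoint hac true i j x hi hj)
    (fun i _ j _ x hi hj => conj_disjoint hac false i j x hi hj)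
    (fun i _ w hw hB => by
      have h2 : (of c ^ i)⁻¹ * w * of c ^ i ≠ 1 := by
        intro e
        apply hw
        calc w = of c ^ i * ((of c ^ i)⁻¹ * w * of c ^ i) * (of c ^ i)⁻¹ := by group
          _ = 1 := by rw [e]; group
      have h3 := conj_a_starts a h2 hB
      show (of c ^ i)⁻¹ * (gw a c i * w * (gw a c i)⁻¹) * of c ^ i ∈ startsWith (a, true)
      have e : (of c ^ i)⁻¹ * (gw a c i * w * (gw a c i)⁻¹) * of c ^ i
          = of a * ((of c ^ i)⁻¹ * w * of c ^ i) * (of a)⁻¹ := by rw [gw]; group
      rw [e]; exact h3) ξ h1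
  rw [card_range] at this
  simp only [uw_eq, adj_mul_apply]
  rw [← map_sum, norm_adj]
  exact this

end Vale.Agent.P086
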