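import Vale.Agent.P086.Finite

/-!
A generating orthonormal unitary representation gives an isomorphism.
-/

set_option linter.unusedSectionVars false
set_option linter.deprecated false

namespace Vale.Agent.P086

open Finset Filter Topology
open scoped InnerProductSpace ComplexConjugate

theorem starIso_of_equiv {A B : Type} [CStarAlgebra A] [CStarAlgebra B] (S : StarSubalgebra ℂ A)
    (T : StarSubalgebra ℂ B) (Φ : A ≃⋆ₐ[ℂ] B) (h : ∀ x, x ∈ S ↔ Φ x ∈ T) : StarIsomorphic S T :=
  ⟨{ toFun := fun x => ⟨Φ x.1, (h _).1 x.2⟩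
     invFun := fun y => ⟨Φ.symm y.1, (h _).2 (by simp)⟩
     left_inv := fun x => Subtype.ext (by simp)
     right_inv := fun y => Subtype.ext (by simp)
     map_mul' := fun x y => Subtype.ext (map_mul Φ x.1 y.1)
     map_add' := fun x y => Subtype.ext (map_add Φ x.1 y.1)
     map_star' := fun x => Subtype.ext (map_star Φ x.1)
     map_smul' := fun c x => Subtype.ext (map_smul Φ c x.1) }⟩

theorem StarIsomorphic.symm {A B : Type} [CStarAlgebra A] [CStarAlgebra B]
    {S : StarSubalgebra ℂ A} {T : StarSubalgebra ℂ B} (h : StarIsomorphic S T) :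
    StarIsomorphic T S := by
  obtain ⟨e⟩ := h
  exact ⟨e.symm⟩

theorem StarIsomorphic.trans {A B C : Type} [CStarAlgebra A] [CStarAlgebra B] [CStarAlgebra C]
    {S : StarSubalgebra ℂ A} {T : StarSubalgebra ℂ B} {R : StarSubalgebra ℂ C}
    (h : StarIsomorphic S T) (h' : StarIsomorphic T R) : StarIsomorphic S R := by
  obtain ⟨e⟩ := h
  obtain ⟨e'⟩ := h'
  exact ⟨e.trans e'⟩

variable {G H : Type} [Group G] [Group H]

theorem iso_right (π : H →* unitary (Op G)) (hπ : ∀ w, (π w : Op G) ∈ VN G)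
    (E : L2 H ≃ₗᵢ[ℂ] L2 G) (hE : ∀ w, E (dl w) = (π w : Op G) (dl 1)) {x : Op G} (hx : x ∈ VN G)
    (w : H) : E (rho w (E.symm (x (dl 1)))) = x ((π w⁻¹ : Op G) (dl 1)) := by
  rw [← sub_eq_zero, ← norm_le_zero_iff]
  refine le_of_forall_pos_le_add fun ε hε => ?_
  set ξ := E.symm (x (dl 1)) with hξ
  obtain ⟨W, -, hW⟩ := exists_truncation ξ 1 (ε / 2) (by positivity)
  set y : Op G := ∑ u ∈ W, ξ u • (π u : Op G) with hy
  have hyV : y ∈ VN G := sum_mem fun u _ => SMulMemClass.smul_mem _ (hπ u)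
  have e1 : E (∑ u ∈ W, ξ u • dl u) = y (dl 1) := by
    simp only [hy, map_sum, map_smul, hE, ContinuousLinearMap.sum_apply,
      ContinuousLinearMap.smul_apply]
  have e2 : E (rho w (∑ u ∈ W, ξ u • dl u)) = y ((π w⁻¹ : Op G) (dl 1)) := by
    simp only [hy, map_sum, map_smul, rho_dl, hE, ContinuousLinearMap.sum_apply,
      ContinuousLinearMap.smul_apply, map_mul, Submonoid.coe_mul, op_mul_apply]
  have e3 : E (rho w ξ) - x ((π w⁻¹ : Op G) (dl 1)) = E (rho w (ξ - ∑ u ∈ W, ξ u • dl u))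
      + (y - x) ((π w⁻¹ : Op G) (dl 1)) := by
    rw [map_sub, map_sub, e2, ContinuousLinearMap.sub_apply]; abel
  have h1 := norm_mul_hat_le (sub_mem hyV hx) (hπ w⁻¹)
  have h2 : ‖(y - x) (dl 1)‖ ≤ ε / 2 := by
    rw [ContinuousLinearMap.sub_apply, ← e1, ← E.apply_symm_apply (x (dl 1)), ← hξ, ← map_sub,
      E.norm_map, norm_sub_rev]
    exact hW
  have h3 := unitary_opnorm (π w⁻¹).2
  rw [e3]
  refine (norm_add_le _ _).trans ?_
  rw [E.norm_map, norm_rho]
  nlinarith [norm_nonneg ((y - x) (dl 1))]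

theorem iso_of_rep (π : H →* unitary (Op G)) (hπ : ∀ w, (π w : Op G) ∈ VN G)
    (horth : Orthonormal ℂ (fun w => (π w : Op G) (dl 1)))
    (hdense : ∀ g : G, ∀ ε : ℝ, 0 < ε → ∃ f : H →₀ ℂ,
      ‖dl g - f.sum (fun w z => z • (π w : Op G) (dl 1))‖ < ε) : VNIsomorphic H G := by
  have hsurj : Function.Surjective (isoOf horth) := by
    have hcl : IsClosed (Set.range (isoOf horth)) :=
      (isoOf horth).isometry.isClosedEmbedding.isClosed_range
    intro η
    refine l2_induction (fun η => η ∈ Set.range (isoOf horth)) hcl ⟨0, map_zero _⟩ ?_ ?_ η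
    · rintro _ _ ⟨a, rfl⟩ ⟨b, rfl⟩
      exact ⟨a + b, map_add _ _ _⟩
    · intro c g
      have : dl g ∈ Set.range (isoOf horth) := by
        rw [← hcl.closure_eq, Metric.mem_closure_iff]
        intro ε hε
        obtain ⟨f, hf⟩ := hdense g ε hε
        refine ⟨_, ⟨f.sum (fun w z => z • dl w), rfl⟩, ?_⟩
        rw [dist_eq_norm]
        simpa only [Finsupp.sum, map_sum, map_smul, isoOf_dl] using hf
      obtain ⟨a, ha⟩ := this
      exact ⟨c • a, by rw [map_smul, ha]⟩
  let E : L2 H ≃ₗᵢ[ℂ] L2 G := LinearIsometryEquiv.ofSurjective (isoOf horth) hsurj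
  have hE : ∀ w, E (dl w) = (π w : Op G) (dl 1) := fun w => isoOf_dl horth w
  have hlam : ∀ w, E.conjStarAlgEquiv (lam w) = π w := by
    intro w
    have : (E : L2 H →L[ℂ] L2 G) ∘L lam w = (π w : Op G) ∘L (E : L2 H →L[ℂ] L2 G) := by
      apply op_ext
      intro u
      show E (lam w (dl u)) = (π w : Op G) (E (dl u))
      rw [lam_dl, hE, hE, map_mul, Submonoid.coe_mul, op_mul_apply]
    ext1 η
    have h2 : E (lam w (E.symm η)) = (π w : Op G) (E (E.symm η)) :=
      congrArg (fun T => T (E.symm η)) this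
    rw [E.apply_symm_apply] at h2
    exact h2
  refine starIso_of_equiv _ _ E.conjStarAlgEquiv fun x => ?_
  rw [mem_bicommutant, mem_bicommutant]
  constructor
  · intro hx
    rw [mem_VN]
    intro g
    have h1 := comm_of_VN hx (y := E.conjStarAlgEquiv.symm (rho g)) (fun w => by
      apply EquivLike.injective E.conjStarAlgEquiv
      rw [map_mul, map_mul, hlam, StarAlgEquiv.apply_symm_apply]
      exact (mem_VN.1 (hπ w) g).symm)
    have h2 := congrArg E.conjStarAlgEquiv h1
    rw [map_mul, map_mul, StarAlgEquiv.apply_symm_apply] at h2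
    exact h2.symm
  · intro hy
    set y := E.conjStarAlgEquiv x with hyx
    have hxy : ∀ ξ, E (x ξ) = y (E ξ) := fun ξ => by
      rw [hyx, LinearIsometryEquiv.conjStarAlgEquiv_apply_apply, E.symm_apply_apply]
    rw [mem_VN]
    intro w
    apply op_ext
    intro u
    apply E.injective
    have h1 := iso_right π hπ E hE (mul_mem hy (hπ u)) w
    rw [op_mul_apply, op_mul_apply, ← hE u, ← hxy, E.symm_apply_apply] at h1
    rw [op_mul_apply, op_mul_apply, h1, rho_dl, hxy, hE, map_mul, Submonoid.coe_mul, op_mul_apply]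

end Vale.Agent.P086
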