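import Vale.Agent.P086.Baire

/-!
All free group factors are isomorphic.
-/

namespace Vale.Agent.P086

theorem rank_iso (n : ℕ∞) (hn : 2 ≤ n) : VNIsomorphic (FreeGroup Bool) (FreeGroupOfRank n) := by
  have h0 : ((0 : ℕ) : ℕ∞) < n := lt_of_lt_of_le (by norm_num) hn
  have h1 : ((1 : ℕ) : ℕ∞) < n := lt_of_lt_of_le (by norm_num) hn
  exact free_iso (ι := {i : ℕ // (i : ℕ∞) < n}) (a := ⟨0, h0⟩) (c := ⟨1, h1⟩) (by simp)

theorem all_iso (m n : ℕ∞) (hm : 2 ≤ m) (hn : 2 ≤ n) :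
    VNIsomorphic (FreeGroupOfRank m) (FreeGroupOfRank n) :=
  StarIsomorphic.trans (StarIsomorphic.symm (rank_iso m hm)) (rank_iso n hn)

end Vale.Agent.P086
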