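import Vale.Agent.P086.Words

/-!
One step of the deformation.
-/

set_option linter.unusedSectionVars false
set_option linter.deprecated false

namespace Vale.Agent.P086

open Finset Filter Topology
open FreeGroup (of)
open scoped InnerProductSpace ComplexConjugate

variable {ι : Type}

/-- conjugates of the first generator by powers of the second -/
def gw (a c : ι) (m : ℕ) : FreeGroup ι := of c ^ m * of a * (of c ^ m)⁻¹

/-- the exponents -/
def ms (k i q : ℕ) : ℕ := if q < k then q ^ 2 else i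

/-- products of the conjugates -/
def Pr (a c : ι) (m : ℕ → ℕ) : ℕ → FreeGroup ι
  | 0 => 1
  | q + 1 => Pr a c m q * gw a c (m q)

/-- the long word -/
def uw (a c : ι) (k i : ℕ) : FreeGroup ι := Pr a c (ms k i) (k + 1)

theorem Pr_congr (a c : ι) {m m' : ℕ → ℕ} (n : ℕ) (h : ∀ q < n, m q = m' q) :
    Pr a c m n = Pr a c m' n := by
  induction n with
  | zero => rfl
  | succ n ih => rw [Pr, Pr, ih (fun q hq => h q (by omega)), h n (by omega)]

theorem uw_eq (a c : ι) (k i : ℕ) : uw a c k i = Pr a c (fun q => q ^ 2) k * gw a c i := by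
  rw [uw, Pr, Pr_congr a c k (m' := fun q => q ^ 2) (fun q hq => by simp [ms, hq])]
  simp [ms]

theorem gw_mem (a c : ι) (m : ℕ) : gw a c m ∈ Gam a c :=
  mul_mem (mul_mem (pow_mem (c_mem_Gam a c) _) (a_mem_Gam a c)) (inv_mem (pow_mem (c_mem_Gam a c) _))

theorem Pr_mem (a c : ι) (m : ℕ → ℕ) (n : ℕ) : Pr a c m n ∈ Gam a c := by
  induction n with
  | zero => exact one_mem _
  | succ n ih => exact mul_mem ih (gw_mem a c _)

theorem uw_mem (a c : ι) (k i : ℕ) : uw a c k i ∈ Gam a c := Pr_mem _ _ _ _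

theorem abz_Pr (a c : ι) (m : ℕ → ℕ) (n : ℕ) : abz a c (Pr a c m n) = ((n : ℤ), 0) := by
  induction n with
  | zero => simp [Pr, abz_one, Prod.ext_iff]
  | succ n ih =>
    rw [Pr, abz_mul, ih, gw, abz_mul, abz_mul, abz_inv, abz_a]
    simp

/-- prefixes in front of the occurrences of the first generator -/
def Pq (a c : ι) (m : ℕ → ℕ) (q : ℕ) : FreeGroup ι := Pr a c m q * of c ^ m q

theorem Pq_mem (a c : ι) (m : ℕ → ℕ) (q : ℕ) : Pq a c m q ∈ Gam a c :=
  mul_mem (Pr_mem _ _ _ _) (pow_mem (c_mem_Gam a c) _)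

theorem abz_Pq {a c : ι} (h : a ≠ c) (m : ℕ → ℕ) (q : ℕ) :
    abz a c (Pq a c m q) = ((q : ℤ), (m q : ℤ)) := by
  rw [Pq, abz_mul, abz_Pr, abz_c_pow h]; simp

theorem coc_Pr {a c : ι} {co : FreeGroup ι → GA (FreeGroup ι)}
    (hc : ∀ g h, co (g * h) = co g + Ad g (co h)) (h0 : co (of c) = 0) (m : ℕ → ℕ) (n : ℕ) :
    co (Pr a c m n) = ∑ q ∈ range n, Ad (Pq a c m q) (co (of a)) := by
  have hp : ∀ j : ℕ, co (of c ^ j) = 0 := by
    intro j
    induction j with
    | zero => rw [pow_zero, coc_one hc]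
    | succ j ih => rw [pow_succ, hc, ih, h0, Ad_zero, add_zero]
  induction n with
  | zero => simp [Pr, coc_one hc]
  | succ n ih =>
    rw [Pr, hc, ih, sum_range_succ, gw, hc, hc, coc_inv hc, hp, Ad_zero, neg_zero, Ad_zero,
      add_zero, zero_add, ← Ad_mul, Pq]

theorem final_arith (k s : ℝ) (hk : 1 ≤ k) (hs : s ≤ k * k) :
    1 / k * (2 * s + 2 * k) * (2 / k) ≤ 8 := by
  rw [show 1 / k * (2 * s + 2 * k) * (2 / k) = (4 * s + 4 * k) / (k * k) by field_simp; ring,
    div_le_iff₀ (by positivity)]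
  nlinarith

theorem exists_good_der {a c b : ι} (hac : a ≠ c) (hab : a ≠ b) (hcb : c ≠ b) (k : ℕ) (hk : 1 ≤ k)
    (i : ℕ) : ∃ co : FreeGroup ι → GA (FreeGroup ι), (∀ g h, co (g * h) = co g + Ad g (co h)) ∧
      (∀ g, sg (co g) = -co g) ∧ (∀ g, (co g).coeff g⁻¹ = 0) ∧
      (∃ R, ∀ j, Bd len R 2 (co (of j))) ∧ (∀ j, j ≠ a → j ≠ b → co (of j) = 0) ∧
      co (of b) = kap (uw a c k i * (of b)⁻¹) ∧ ‖io (co (of a))‖ ^ 2 ≤ 2 / k ∧
      ‖io (co (uw a c k i * (of b)⁻¹))‖ ^ 2 ≤ 8 ∧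
      ∀ x, |(co (uw a c k i * (of b)⁻¹)).coeff x| ≤ 2 / k := by
  classical
  set u := uw a c k i with hu
  set γ := u * (of b)⁻¹ with hγ
  set m := ms k i with hm
  have huG : u ∈ Gam a c := uw_mem a c k i
  have hk' : (0 : ℝ) < k := by positivity
  let ca : GA (FreeGroup ι) := (1 / (k : ℝ)) • ∑ j ∈ range k, Ad (Pq a c m j)⁻¹ (kap γ)
  obtain ⟨co, hco, hc⟩ := exists_cocycle
    (fun j => if j = b then kap γ else if j = a then ca else 0)
  have hb : co (of b) = kap γ := by rw [hco]; simp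
  have ha : co (of a) = ca := by rw [hco]; simp [hab]
  have hz : ∀ j, j ≠ a → j ≠ b → co (of j) = 0 := fun j h1 h2 => by rw [hco]; simp [h1, h2]
  have hskew : ∀ g, sg (co g) = -co g := by
    intro g
    induction g using FreeGroup.induction_on with
    | C1 => simp [coc_one hc]
    | of j =>
      by_cases h1 : j = b
      · rw [h1, hb, sg_kap]
      · by_cases h2 : j = a
        · rw [h2, ha]
          simp only [ca, map_smul, map_sum, sg_Ad, sg_kap, Ad_neg, sum_neg_distrib, smul_neg]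
        · rw [hz j h2 h1]; simp
    | inv_of j ih => rw [coc_inv hc, map_neg, sg_Ad, ih, Ad_neg]
    | mul x y hx hy => rw [hc, map_add, sg_Ad, hx, hy, Ad_neg]; abel
  -- the value on `γ`
  let S1 := (range k).offDiag
  let g1 : ℕ × ℕ → FreeGroup ι := fun p => Pq a c m p.1 * (Pq a c m p.2)⁻¹
  let g2 : ℕ → FreeGroup ι := fun j => Pq a c m k * (Pq a c m j)⁻¹
  have hη : co γ = (1 / (k : ℝ)) •
      (∑ p ∈ S1, Ad (g1 p) (kap γ) + ∑ j ∈ range k, Ad (g2 j) (kap γ)) := by
    have e1 : co γ = co u - kap γ := by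
      rw [hγ, hc, coc_inv hc, hb, Ad_neg, ← Ad_mul, ← hγ, Ad_kap_self, sub_eq_add_neg]
    have e2 : co u = ∑ q ∈ range (k + 1), Ad (Pq a c m q) ca := by
      rw [hu, uw, coc_Pr hc (hz c hac.symm hcb), ha]
    have e3 : ∀ q, Ad (Pq a c m q) ca
        = (1 / (k : ℝ)) • ∑ j ∈ range k, Ad (Pq a c m q * (Pq a c m j)⁻¹) (kap γ) := by
      intro q
      simp only [ca, Ad_smul, Ad_sum, Ad_mul]
    have e4 : ∑ q ∈ range k, ∑ j ∈ range k, Ad (Pq a c m q * (Pq a c m j)⁻¹) (kap γ)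
        = (k : ℝ) • kap γ + ∑ p ∈ S1, Ad (g1 p) (kap γ) := by
      rw [← sum_product' (f := fun q j => Ad (Pq a c m q * (Pq a c m j)⁻¹) (kap γ)),
        ← diag_union_offDiag, sum_union (disjoint_diag_offDiag _), sum_diag]
      simp only [mul_inv_cancel, Ad_one, sum_const, card_range, Nat.cast_smul_eq_nsmul]
      rfl
    rw [e1, e2]
    simp only [e3]
    rw [← smul_sum, sum_range_succ, e4, smul_add, smul_add, smul_add, smul_smul,
      one_div_mul_cancel hk'.ne', one_smul]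
    abel
  have hg1 : ∀ p ∈ S1, g1 p ∈ Gam a c := fun p _ => mul_mem (Pq_mem _ _ _ _) (inv_mem (Pq_mem _ _ _ _))
  have hg2 : ∀ j ∈ range k, g2 j ∈ Gam a c :=
    fun p _ => mul_mem (Pq_mem _ _ _ _) (inv_mem (Pq_mem _ _ _ _))
  have ab1 : ∀ p, abz a c (g1 p) = ((p.1 : ℤ) - p.2, (m p.1 : ℤ) - m p.2) := by
    intro p
    simp only [g1, abz_mul, abz_inv, abz_Pq hac]
    simp [sub_eq_add_neg]
  have ab2 : ∀ j, abz a c (g2 j) = ((k : ℤ) - j, (m k : ℤ) - m j) := by
    intro p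
    simp only [g2, abz_mul, abz_inv, abz_Pq hac]
    simp [sub_eq_add_neg]
  have inj1 : ∀ p ∈ S1, ∀ q ∈ S1, abz a c (g1 p) = abz a c (g1 q) → p = q := by
    rintro ⟨p1, p2⟩ hp ⟨q1, q2⟩ hq e
    rw [ab1, ab1] at e
    simp only [S1, mem_offDiag, mem_range] at hp hq
    simp only [hm, ms, hp.1, hp.2.1, hq.1, hq.2.1, if_true, Prod.mk.injEq] at e
    push_cast at e
    obtain ⟨e1, e2⟩ := e
    have hne : (p1 : ℤ) - p2 ≠ 0 := by have := hp.2.2; omega
    have e3 : ((p1 : ℤ) - p2) * ((p1 + p2) - (q1 + q2)) = 0 := by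
      have : (q1 : ℤ) = p1 - p2 + q2 := by omega
      rw [this] at e2 ⊢
      linear_combination e2
    have e4 := (mul_eq_zero.1 e3).resolve_left hne
    ext <;> simp <;> omega
  have inj2 : ∀ p ∈ range k, ∀ q ∈ range k, abz a c (g2 p) = abz a c (g2 q) → p = q := by
    intro p _ q _ e
    rw [ab2, ab2] at e
    simp only [Prod.mk.injEq] at e
    omega
  have hsup : ∀ x, |(co γ).coeff x| ≤ 2 / k := by
    intro x
    have h1 := coeff_sum_Ad_le hab hcb huG S1 g1 hg1 inj1 x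
    have h2 := coeff_sum_Ad_le hab hcb huG (range k) g2 hg2 inj2 x
    rw [hη, MonoidAlgebra.coeff_smul_apply, smul_eq_mul, abs_mul, abs_of_pos (by positivity),
      MonoidAlgebra.coeff_add, Finsupp.add_apply]
    have := (abs_add_le _ _).trans (add_le_add h1 h2)
    calc _ ≤ 1 / (k : ℝ) * (1 + 1) := mul_le_mul_of_nonneg_left this (by positivity)
      _ = _ := by ring
  have hzero : (co γ).coeff γ = 0 ∧ (co γ).coeff γ⁻¹ = 0 := by
    have z1 : ∀ p ∈ S1, abz a c (g1 p) ≠ 0 := by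
      intro p hp e
      rw [ab1] at e
      simp only [S1, mem_offDiag, mem_range] at hp
      have := congrArg Prod.fst e
      simp only [Prod.fst_zero] at this
      have := hp.2.2
      omega
    have z2 : ∀ p ∈ range k, abz a c (g2 p) ≠ 0 := by
      intro p hp e
      rw [ab2] at e
      have := congrArg Prod.fst e
      simp only [Prod.fst_zero] at this
      have := mem_range.1 hp
      omega
    rw [hη]
    simp only [MonoidAlgebra.coeff_smul_apply, MonoidAlgebra.coeff_add, Finsupp.add_apply,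
      MonoidAlgebra.coeff_sum, Finsupp.finset_sum_apply]
    rw [sum_eq_zero (fun p hp => (coeff_Ad_kap_zero hab hcb huG (hg1 p hp) (z1 p hp)).1),
      sum_eq_zero (fun p hp => (coeff_Ad_kap_zero hab hcb huG (hg2 p hp) (z2 p hp)).1),
      sum_eq_zero (fun p hp => (coeff_Ad_kap_zero hab hcb huG (hg1 p hp) (z1 p hp)).2),
      sum_eq_zero (fun p hp => (coeff_Ad_kap_zero hab hcb huG (hg2 p hp) (z2 p hp)).2)]
    simp
  have hsupp : ∀ g x, (∀ h, h * γ * h⁻¹ ≠ x ∧ h * γ⁻¹ * h⁻¹ ≠ x) → (co g).coeff x = 0 := by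
    have hinv : ∀ g x, (∀ h, h * γ * h⁻¹ ≠ x ∧ h * γ⁻¹ * h⁻¹ ≠ x) →
        ∀ h, h * γ * h⁻¹ ≠ g⁻¹ * x * g ∧ h * γ⁻¹ * h⁻¹ ≠ g⁻¹ * x * g := by
      intro g x hx h
      constructor
      · intro e
        apply (hx (g * h)).1
        calc g * h * γ * (g * h)⁻¹ = g * (h * γ * h⁻¹) * g⁻¹ := by group
          _ = x := by rw [e]; group
      · intro e
        apply (hx (g * h)).2
        calc g * h * γ⁻¹ * (g * h)⁻¹ = g * (h * γ⁻¹ * h⁻¹) * g⁻¹ := by group
          _ = x := by rw [e]; group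
    have hk0 : ∀ h x, (∀ h, h * γ * h⁻¹ ≠ x ∧ h * γ⁻¹ * h⁻¹ ≠ x) → (Ad h (kap γ)).coeff x = 0 := by
      intro h x hx
      rw [Ad_kap_coeff, if_neg (hx h).1, if_neg (hx h).2, sub_zero]
    intro g
    induction g using FreeGroup.induction_on with
    | C1 => intro x _; simp [coc_one hc]
    | of j =>
      intro x hx
      by_cases h1 : j = b
      · rw [h1, hb, ← Ad_one (kap γ), hk0 _ _ hx]
      · by_cases h2 : j = a
        · rw [h2, ha]
          simp only [ca, MonoidAlgebra.coeff_smul_apply, MonoidAlgebra.coeff_sum,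
            Finsupp.finset_sum_apply]
          rw [sum_eq_zero (fun j _ => hk0 _ _ hx), smul_zero]
        · rw [hz j h2 h1]; simp
    | inv_of j ih =>
      intro x hx
      rw [coc_inv hc, MonoidAlgebra.coeff_neg, Finsupp.neg_apply, Ad_coeff, ih _ (hinv _ x hx),
        neg_zero]
    | mul y z hy hz' =>
      intro x hx
      rw [hc, MonoidAlgebra.coeff_add, Finsupp.add_apply, Ad_coeff, hy x hx, hz' _ (hinv _ x hx),
        add_zero]
  have htr : ∀ g, (co g).coeff g⁻¹ = 0 := by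
    intro g
    by_cases hx : ∀ h, h * γ * h⁻¹ ≠ g⁻¹ ∧ h * γ⁻¹ * h⁻¹ ≠ g⁻¹
    · exact hsupp g _ hx
    · push Not at hx
      obtain ⟨h, hh⟩ := hx
      by_cases e : h * γ * h⁻¹ = g⁻¹
      · have e' : g = h * γ⁻¹ * h⁻¹ := by rw [← inv_inv g, ← e]; group
        rw [← e]
        conv_lhs => rw [e']
        rw [coc_conj_coeff hc h γ⁻¹ γ (by group), coc_inv hc, MonoidAlgebra.coeff_neg,
          Finsupp.neg_apply, Ad_coeff]
        simp [hzero.1]
      · have e1 := hh e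
        have e' : g = h * γ * h⁻¹ := by rw [← inv_inv g, ← e1]; group
        rw [← e1]
        conv_lhs => rw [e']
        rw [coc_conj_coeff hc h γ γ⁻¹ (by group), hzero.2]
  obtain ⟨Ra, hRa⟩ := Bd_sum_Ad (range k) (fun j => (Pq a c m j)⁻¹) γ
  have hBa : Bd len Ra 2 ca := by
    refine (hRa.smul (1 / (k : ℝ))).mono le_rfl (le_of_eq ?_)
    rw [abs_of_pos (by positivity), card_range]
    field_simp
  obtain ⟨Rb, hRb⟩ := Bd_sum_Ad ({0} : Finset ℕ) (fun _ => (1 : FreeGroup ι)) γ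
  have hBb : Bd len Rb 2 (kap γ) := by simpa [Ad_one] using hRb
  refine ⟨co, hc, hskew, htr, ⟨Ra + Rb, fun j => ?_⟩, hz, hb, ?_, ?_, hsup⟩
  · by_cases h1 : j = b
    · rw [h1, hb]; exact hBb.mono (by omega) le_rfl
    · by_cases h2 : j = a
      · rw [h2, ha]; exact hBa.mono (by omega) le_rfl
      · rw [hz j h2 h1]; exact Bd.zero (by norm_num)
  · rw [ha]
    refine (hBa.norm_io_sq_le (B := 1 / k) fun x => ?_).trans (le_of_eq (by ring))
    have h1 := coeff_sum_Ad_le hab hcb huG (range k) (fun j => (Pq a c m j)⁻¹)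
      (fun j _ => inv_mem (Pq_mem _ _ _ _)) (fun p _ q _ e => by
        rw [abz_inv, abz_inv, neg_inj, abz_Pq hac, abz_Pq hac] at e
        simp only [Prod.mk.injEq] at e
        omega) x
    simp only [ca]
    rw [MonoidAlgebra.coeff_smul_apply, smul_eq_mul, abs_mul, abs_of_pos (by positivity)]
    calc _ ≤ 1 / (k : ℝ) * 1 := mul_le_mul_of_nonneg_left h1 (by positivity)
      _ = _ := by ring
  · obtain ⟨R1, hR1⟩ := Bd_sum_Ad S1 g1 γ
    obtain ⟨R2, hR2⟩ := Bd_sum_Ad (range k) g2 γ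
    have h3 := ((hR1.mono (n' := R1 + R2) (by omega) le_rfl).add
      (hR2.mono (n' := R1 + R2) (by omega) le_rfl)).smul (1 / (k : ℝ))
    rw [← hη] at h3
    refine (h3.norm_io_sq_le hsup).trans ?_
    have c1 : (S1.card : ℝ) ≤ k * k := by
      have : S1.card ≤ k * k := by
        simp only [S1]
        rw [offDiag_card, card_range]
        omega
      exact_mod_cast this
    have hk1 : (1 : ℝ) ≤ k := by exact_mod_cast hk
    rw [abs_of_pos (a := 1 / (k : ℝ)) (by positivity), card_range]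
    exact final_arith _ _ hk1 c1

open Classical in
theorem step_pkg {a c b : ι} (hac : a ≠ c) (hab : a ≠ b) (hcb : c ≠ b) (k : ℕ) (hk : 1 ≤ k)
    (i : ℕ) (t : ℝ) (W : Finset (FreeGroup ι)) (hW : ∀ w ∈ W, |(abz a c w).1| < 2 * (k + 1))
    (ε : ℝ) (hε : 0 < ε) :
    ∃ (V : Op (FreeGroup ι)) (r : L2 (FreeGroup ι)), IsAut V ∧
      (∀ j, j ≠ a → j ≠ b → V (dl (of j)) = dl (of j)) ∧
      ‖V (dl (of a)) - dl (of a)‖ ≤ |t| * √(2 / k) + ε ∧
      V (dl (of b)) = dl (of b) + (t : ℂ) • (dl (uw a c k i) - dl (of b * (uw a c k i)⁻¹ * of b))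
        + r ∧ ‖r‖ ≤ 10 * t ^ 2 + ε ∧
      ∀ w ∈ W, ‖r w + (if w = of b then ((t ^ 2 : ℝ) : ℂ) else 0)‖
        ≤ 2 * t ^ 2 / k + 20 * |t| ^ 3 * len w + ε := by
  obtain ⟨co, hc, hskew, htr, ⟨R, hR⟩, hz, hb, na, nη, hsup⟩ := exists_good_der hac hab hcb k hk i
  set u := uw a c k i with hu
  set γ := u * (of b)⁻¹ with hγ
  set D := derOf co with hD
  have hBd := Bd_derOf hc hR
  obtain ⟨V, h1, h2, h3, h4⟩ := exists_step (D := D) (K := 2 * 2 * ((R + 2 : ℕ) : ℝ))
    (derOf_leib hc) (derOf_star hc hskew) (derOf_trace htr) (by positivity)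
    (growth_of_Bd (l := len) (by omega) (by norm_num) hBd) t
  have hDb : D (sgl (of b)) = kap γ * sgl (of b) := by rw [hD, derOf_sgl, hb]
  have hioDb : io (D (sgl (of b))) = dl u - dl (of b * u⁻¹ * of b) := by
    rw [hDb, kap, sub_mul, sgl_mul, sgl_mul, io_sub, io_sgl, io_sgl, hγ]
    congr 2 <;> group
  have hDD : D (D (sgl (of b))) = co γ * sgl (γ * of b) + sgl γ⁻¹ * co γ * sgl (of b)
      + (sgl (γ * γ * of b) - sgl (of b) - sgl (of b) + sgl (γ⁻¹ * γ⁻¹ * of b)) := by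
    rw [hDb, hD, derOf_leib hc, ← hD, hDb, kap, map_sub, hD, derOf_sgl, derOf_sgl, coc_inv hc, Ad]
    simp only [sub_mul, mul_sub, neg_mul, mul_assoc, sgl_mul, inv_inv, mul_inv_cancel_left,
      inv_mul_cancel_left]
    abel
  have nη' : ‖io (co γ)‖ ≤ 3 := by nlinarith [norm_nonneg (io (co γ))]
  have nDD : ‖io (D (D (sgl (of b))))‖ ≤ 10 := by
    rw [hDD, io_add, io_add, io_add, io_sub, io_sub, io_sgl, io_sgl, io_sgl]
    have a1 : ‖io (co γ * sgl (γ * of b))‖ ≤ 3 := by rw [norm_io_mul_sgl]; exact nη'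
    have a2 : ‖io (sgl γ⁻¹ * co γ * sgl (of b))‖ ≤ 3 := by
      rw [norm_io_mul_sgl, norm_io_sgl_mul]; exact nη'
    have a3 : ‖dl (γ * γ * of b) - dl (of b) - dl (of b) + dl (γ⁻¹ * γ⁻¹ * of b)‖ ≤ 4 := by
      refine (norm_add_le _ _).trans ?_
      have := norm_sub_le (dl (γ * γ * of b) - dl (of b)) (dl (of b))
      have := norm_sub_le (dl (γ * γ * of b)) (dl (of b))
      simp only [norm_dl] at *
      linarith
    exact (norm_add₃_le).trans (by linarith)
  have abγ : (abz a c γ).1 = k + 1 := by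
    rw [hγ, abz_mul, abz_inv, abz_other hab.symm hcb.symm, hu, uw, abz_Pr]; simp
  have hcoef : ∀ w ∈ W, |(D (D (sgl (of b)))).coeff w + (if w = of b then 2 else 0)| ≤ 4 / k := by
    intro w hw
    have hw' := abs_lt.1 (hW w hw)
    have n1 : ¬ γ * γ * of b = w := by
      intro e
      have := congrArg (fun x => (abz a c x).1) e
      simp only [abz_mul, abz_other hab.symm hcb.symm, Prod.fst_add, abγ, Prod.fst_zero] at this
      omega
    have n2 : ¬ γ⁻¹ * γ⁻¹ * of b = w := by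
      intro e
      have := congrArg (fun x => (abz a c x).1) e
      simp only [abz_mul, abz_inv, abz_other hab.symm hcb.symm, Prod.fst_add, abγ, Prod.fst_zero,
        Prod.fst_neg] at this
      omega
    have e : (D (D (sgl (of b)))).coeff w + (if w = of b then 2 else 0)
        = (co γ).coeff (w * (γ * of b)⁻¹) + (co γ).coeff (γ * (w * (of b)⁻¹)) := by
      rw [hDD]
      simp only [MonoidAlgebra.coeff_add, MonoidAlgebra.coeff_sub, Finsupp.add_apply,
        Finsupp.sub_apply, MonoidAlgebra.coeff_mul_single_apply,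
        MonoidAlgebra.coeff_single_mul_apply, MonoidAlgebra.coeff_single, Finsupp.single_apply,
        n1, n2, if_false, mul_one, one_mul, inv_inv]
      by_cases hh : w = of b
      · simp [hh]; ring
      · simp [hh, Ne.symm hh]
    rw [e]
    refine (abs_add_le _ _).trans ((add_le_add (hsup _) (hsup _)).trans (le_of_eq (by ring)))
  have hfin := (eventually_all_finset W).2 (fun w _ => h4 (sgl (of b)) (sgl w) ε hε)
  obtain ⟨N, ⟨hN1, hN1'⟩, hN2, hN3, hN4⟩ :=
    (h1.and ((h2 (sgl (of a)) ε hε).and ((h3 (sgl (of b)) ε hε).and hfin))).exists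
  rw [io_sgl] at hN2
  rw [io_sgl, hioDb] at hN3
  refine ⟨V N, V N (dl (of b)) - dl (of b) - (t : ℂ) • (dl u - dl (of b * u⁻¹ * of b)), hN1,
    fun j j1 j2 => ?_, hN2.trans ?_, by abel, hN3.trans (by nlinarith [sq_nonneg t]),
    fun w hw => ?_⟩
  · have := hN1' (sgl (of j)) (by rw [hD, derOf_sgl, hz j j1 j2, zero_mul])
    rwa [io_sgl] at this
  · rw [hD, derOf_sgl, norm_io_mul_sgl]
    have := Real.le_sqrt_of_sq_le na
    gcongr
  · have h5 := hN4 w hw
    rw [io_sgl, io_sgl, hioDb, inner_dl_left, inner_dl_left, io_apply] at h5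
    have h6 := hcoef w hw
    have h7 : ‖io (D (sgl w))‖ ≤ 2 * len w := (norm_io_le _).trans (hBd w).norm_Lam_le
    set z := (V N (dl (of b)) - dl (of b) - (t : ℂ) • (dl u - dl (of b * u⁻¹ * of b))) w
    set d := (D (D (sgl (of b)))).coeff w
    have e : z + (if w = of b then ((t ^ 2 : ℝ) : ℂ) else 0)
        = (z - ((t ^ 2 / 2 : ℝ) : ℂ) * (d : ℂ))
          + ((t ^ 2 / 2 * (d + if w = of b then 2 else 0) : ℝ) : ℂ) := by
      split_ifs <;> push_cast <;> ring
    rw [e]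
    refine (norm_add_le _ _).trans ?_
    rw [Complex.norm_real, Real.norm_eq_abs, abs_mul, abs_of_nonneg (a := t ^ 2 / 2) (by positivity)]
    have h8 : t ^ 2 / 2 * |d + if w = of b then 2 else 0| ≤ t ^ 2 / 2 * (4 / k) :=
      mul_le_mul_of_nonneg_left h6 (by positivity)
    have h9 : |t| ^ 3 * ‖io (D (D (sgl (of b))))‖ * ‖io (D (sgl w))‖ ≤ |t| ^ 3 * 10 * (2 * len w) := by
      gcongr
    have h10 : t ^ 2 / 2 * (4 / k) = 2 * t ^ 2 / k := by ring
    linarith

end Vale.Agent.P086
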