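import Vale.Agent.P086.Flow

/-!
Long time flow as a power of a short time flow, with discrete Taylor estimates.
-/

set_option linter.unusedSectionVars false
set_option linter.deprecated false

namespace Vale.Agent.P086

open Finset Filter Topology
open scoped InnerProductSpace ComplexConjugate Nat

variable {G : Type} [Group G]

theorem exists_taylor {V : Op G} (hV : V ∈ unitary (Op G)) (N : ℕ) :
    ∃ R1 R2 R3 : Op G, V ^ N = 1 + R1 * (V - 1) ∧ R1 = (N : ℂ) • 1 + R2 * (V - 1) ∧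
      R2 = ((N : ℂ) * (N - 1) / 2) • 1 + (V - 1) * R3 ∧
      ‖R1‖ ≤ N ∧ ‖R2‖ ≤ (N : ℝ) ^ 2 ∧ ‖R3‖ ≤ (N : ℝ) ^ 3 := by
  suffices h : ∃ R1 R2 R3 : Op G, V ^ N = 1 + R1 * (V - 1) ∧ V ^ N = 1 + (V - 1) * R1 ∧
      R1 = (N : ℂ) • 1 + R2 * (V - 1) ∧ R1 = (N : ℂ) • 1 + (V - 1) * R2 ∧
      R2 = ((N : ℂ) * (N - 1) / 2) • 1 + (V - 1) * R3 ∧
      ‖R1‖ ≤ N ∧ ‖R2‖ ≤ (N : ℝ) ^ 2 ∧ ‖R3‖ ≤ (N : ℝ) ^ 3 by
    obtain ⟨R1, R2, R3, h1, _, h3, _, h5, h6⟩ := h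
    exact ⟨R1, R2, R3, h1, h3, h5, h6⟩
  induction N with
  | zero => exact ⟨0, 0, 0, by simp, by simp, by simp, by simp, by simp, by simp, by simp, by simp⟩
  | succ N ih =>
    obtain ⟨R1, R2, R3, h1, h2, h3, h4, h5, n1, n2, n3⟩ := ih
    have nV : ‖V ^ N‖ ≤ 1 := unitary_opnorm (pow_mem hV N)
    have hN : (0 : ℝ) ≤ N := Nat.cast_nonneg N
    refine ⟨R1 + V ^ N, R2 + R1, R3 + R2, ?_, ?_, ?_, ?_, ?_, ?_, ?_, ?_⟩
    · rw [add_mul, ← add_assoc, ← h1, pow_succ]; noncomm_ring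
    · rw [mul_add, ← add_assoc, ← h2, pow_succ']; noncomm_ring
    · rw [add_mul]
      conv_lhs => rw [h3, h1]
      push_cast
      rw [add_smul, one_smul]
      abel
    · rw [mul_add]
      conv_lhs => rw [h4, h2]
      push_cast
      rw [add_smul, one_smul]
      abel
    · rw [mul_add]
      conv_lhs => rw [h5, h4]
      have : (((N + 1 : ℕ) : ℂ) * (((N + 1 : ℕ) : ℂ) - 1) / 2) = (N : ℂ) * (N - 1) / 2 + N := by
        push_cast; ring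
      rw [this, add_smul]
      abel
    · push_cast
      exact (norm_add_le _ _).trans (by linarith)
    · push_cast
      exact (norm_add_le _ _).trans (by nlinarith)
    · push_cast
      exact (norm_add_le _ _).trans (by nlinarith [sq_nonneg (N : ℝ)])

theorem eventually_div_le (C ε : ℝ) (hε : 0 < ε) : ∀ᶠ N : ℕ in atTop, C / N ≤ ε :=
  (tendsto_const_div_atTop_nhds_zero_nat C).eventually (ge_mem_nhds hε)

theorem op_apply_le {R : Op G} {c : ℝ} (h : ‖R‖ ≤ c) (ξ : L2 G) : ‖R ξ‖ ≤ c * ‖ξ‖ :=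
  (R.le_opNorm ξ).trans (mul_le_mul_of_nonneg_right h (norm_nonneg _))

theorem taylor_one {V : Op G} (hV : V ∈ unitary (Op G)) (N : ℕ) (hN : 0 < N) (t : ℝ)
    (x x1 : L2 G) (C : ℝ) (h0 : ‖V x - x - ((t / N : ℝ) : ℂ) • x1‖ ≤ C * (t / N) ^ 2) :
    ‖(V ^ N) x - x‖ ≤ |t| * ‖x1‖ + C * t ^ 2 / N := by
  obtain ⟨R1, R2, R3, h1, -, -, n1, -, -⟩ := exists_taylor hV N
  have hN' : (0 : ℝ) < N := by positivity
  have e : (V ^ N) x - x = R1 (V x - x) := by rw [h1]; simp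
  rw [e]
  refine (op_apply_le n1 _).trans ?_
  have : ‖V x - x‖ ≤ |t| / N * ‖x1‖ + C * (t / N) ^ 2 := by
    have h2 := norm_add_le (((t / N : ℝ) : ℂ) • x1) (V x - x - ((t / N : ℝ) : ℂ) • x1)
    rw [add_sub_cancel, norm_smul, Complex.norm_real, Real.norm_eq_abs, abs_div,
      abs_of_pos hN'] at h2
    linarith
  calc (N : ℝ) * ‖V x - x‖ ≤ N * (|t| / N * ‖x1‖ + C * (t / N) ^ 2) :=
        mul_le_mul_of_nonneg_left this hN'.le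
    _ = _ := by field_simp

theorem taylor_expand {V R1 R2 : Op G} (N : ℕ) (hN : 0 < N) (t : ℝ)
    (h1 : V ^ N = 1 + R1 * (V - 1)) (h2 : R1 = (N : ℂ) • 1 + R2 * (V - 1)) (x x1 x2 : L2 G) :
    (V ^ N) x - x - (t : ℂ) • x1 = R1 (V x - x - ((t / N : ℝ) : ℂ) • x1) +
      ((t / N : ℝ) : ℂ) • R2 (V x1 - x1 - ((t / N : ℝ) : ℂ) • x2) +
      (((t / N : ℝ) : ℂ) * ((t / N : ℝ) : ℂ)) • R2 x2 := by
  have hN' : (N : ℂ) ≠ 0 := by exact_mod_cast hN.ne'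
  have e1 : (V ^ N) x - x = R1 (V x - x) := by rw [h1]; simp
  have e2 : R1 x1 = (N : ℂ) • x1 + R2 (V x1 - x1) := by
    conv_lhs => rw [h2]
    simp
  have e3 : (t : ℂ) = ((t / N : ℝ) : ℂ) * N := by push_cast; field_simp
  rw [e1, map_sub R1 (V x - x), map_smul, e2, map_sub R2 (V x1 - x1), map_smul]
  conv_lhs => rw [e3]
  module

theorem taylor_two {V : Op G} (hV : V ∈ unitary (Op G)) (N : ℕ) (hN : 0 < N) (t : ℝ)
    (x x1 x2 : L2 G) (C0 C1 : ℝ) (h0 : ‖V x - x - ((t / N : ℝ) : ℂ) • x1‖ ≤ C0 * (t / N) ^ 2)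
    (h1 : ‖V x1 - x1 - ((t / N : ℝ) : ℂ) • x2‖ ≤ C1 * (t / N) ^ 2) :
    ‖(V ^ N) x - x - (t : ℂ) • x1‖ ≤ t ^ 2 * ‖x2‖ + (C0 * t ^ 2 + C1 * |t| * t ^ 2) / N := by
  obtain ⟨R1, R2, R3, e1, e2, -, n1, n2, -⟩ := exists_taylor hV N
  have hN' : (0 : ℝ) < N := by positivity
  rw [taylor_expand N hN t e1 e2 x x1 x2]
  have a1 := (op_apply_le n1 _).trans (mul_le_mul_of_nonneg_left h0 hN'.le)
  have a2 := (op_apply_le n2 _).trans (mul_le_mul_of_nonneg_left h1 (by positivity))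
  have a3 := op_apply_le n2 x2
  have hs : ‖((t / N : ℝ) : ℂ)‖ = |t| / N := by
    rw [Complex.norm_real, Real.norm_eq_abs, abs_div, abs_of_pos hN']
  refine (norm_add₃_le).trans ?_
  rw [norm_smul, norm_smul, norm_mul, hs]
  have b2 := mul_le_mul_of_nonneg_left a2 (show 0 ≤ |t| / N by positivity)
  have b3 := mul_le_mul_of_nonneg_left a3 (show 0 ≤ |t| / N * (|t| / N) by positivity)
  refine (add_le_add (add_le_add a1 b2) b3).trans (le_of_eq ?_)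
  field_simp
  rw [sq_abs]
  ring

theorem taylor_three {V : Op G} (hV : V ∈ unitary (Op G)) (N : ℕ) (hN : 0 < N) (t : ℝ)
    (x x1 x2 y y1 : L2 G) (C0 C1 C2 : ℝ)
    (h0 : ‖V x - x - ((t / N : ℝ) : ℂ) • x1‖ ≤ C0 * (t / N) ^ 2)
    (h1 : ‖V x1 - x1 - ((t / N : ℝ) : ℂ) • x2‖ ≤ C1 * (t / N) ^ 2)
    (h2 : ‖star V y - y - ((-(t / N) : ℝ) : ℂ) • y1‖ ≤ C2 * (-(t / N)) ^ 2) :
    ‖⟪y, (V ^ N) x - x - (t : ℂ) • x1⟫_ℂ - ((t ^ 2 / 2 : ℝ) : ℂ) * ⟪y, x2⟫_ℂ‖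
      ≤ |t| ^ 3 * ‖x2‖ * ‖y1‖ + (‖y‖ * (C0 * t ^ 2 + C1 * |t| * t ^ 2) + t ^ 2 / 2 * ‖y‖ * ‖x2‖
        + C2 * t ^ 4 * ‖x2‖) / N := by
  obtain ⟨R1, R2, R3, e1, e2, e3, n1, n2, n3⟩ := exists_taylor hV N
  have hN' : (0 : ℝ) < N := by positivity
  have hNc : (N : ℂ) ≠ 0 := by exact_mod_cast hN.ne'
  rw [taylor_expand N hN t e1 e2 x x1 x2]
  set s : ℂ := ((t / N : ℝ) : ℂ) with hsdef
  have hs : ‖s‖ = |t| / N := by
    rw [hsdef, Complex.norm_real, Real.norm_eq_abs, abs_div, abs_of_pos hN']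
  have e4 : ⟪y, R2 x2⟫_ℂ = ((N : ℂ) * (N - 1) / 2) * ⟪y, x2⟫_ℂ + ⟪star V y - y, R3 x2⟫_ℂ := by
    rw [e3, inner_sub_left, inner_star_left]
    simp
  have e5 : ⟪y, R1 (V x - x - s • x1) + s • R2 (V x1 - x1 - s • x2) + (s * s) • R2 x2⟫_ℂ
      - ((t ^ 2 / 2 : ℝ) : ℂ) * ⟪y, x2⟫_ℂ
      = ⟪y, R1 (V x - x - s • x1) + s • R2 (V x1 - x1 - s • x2)⟫_ℂ
        + (-((t ^ 2 / 2 / N : ℝ) : ℂ)) * ⟪y, x2⟫_ℂ + (s * s) * ⟪star V y - y, R3 x2⟫_ℂ := by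
    rw [inner_add_right _ _ ((s * s) • R2 x2), inner_smul_right, e4, hsdef]
    push_cast
    field_simp
    ring
  rw [e5]
  have a1 := (op_apply_le n1 _).trans (mul_le_mul_of_nonneg_left h0 hN'.le)
  have a2 := (op_apply_le n2 _).trans (mul_le_mul_of_nonneg_left h1 (by positivity))
  have a3 := op_apply_le n3 x2
  have a4 : ‖star V y - y‖ ≤ |t| / N * ‖y1‖ + C2 * (t / N) ^ 2 := by
    have h3 := norm_add_le (((-(t / N) : ℝ) : ℂ) • y1) (star V y - y - ((-(t / N) : ℝ) : ℂ) • y1)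
    rw [add_sub_cancel, norm_smul, Complex.norm_real, Real.norm_eq_abs, abs_neg, abs_div,
      abs_of_pos hN'] at h3
    rw [neg_sq] at h2
    linarith
  have b1 : ‖⟪y, R1 (V x - x - s • x1) + s • R2 (V x1 - x1 - s • x2)⟫_ℂ‖
      ≤ ‖y‖ * (N * (C0 * (t / N) ^ 2) + |t| / N * ((N : ℝ) ^ 2 * (C1 * (t / N) ^ 2))) := by
    refine (norm_inner_le_norm _ _).trans (mul_le_mul_of_nonneg_left ?_ (norm_nonneg _))
    refine (norm_add_le _ _).trans (add_le_add a1 ?_)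
    rw [norm_smul, hs]
    exact mul_le_mul_of_nonneg_left a2 (by positivity)
  have b2 : ‖(-((t ^ 2 / 2 / N : ℝ) : ℂ)) * ⟪y, x2⟫_ℂ‖ ≤ t ^ 2 / 2 / N * (‖y‖ * ‖x2‖) := by
    rw [norm_mul, norm_neg, Complex.norm_real, Real.norm_of_nonneg (by positivity)]
    exact mul_le_mul_of_nonneg_left (norm_inner_le_norm _ _) (by positivity)
  have b3 : ‖(s * s) * ⟪star V y - y, R3 x2⟫_ℂ‖
      ≤ |t| / N * (|t| / N) * ((|t| / N * ‖y1‖ + C2 * (t / N) ^ 2) * ((N : ℝ) ^ 3 * ‖x2‖)) := by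
    rw [norm_mul, norm_mul, hs]
    refine mul_le_mul_of_nonneg_left ((norm_inner_le_norm _ _).trans ?_) (by positivity)
    exact mul_le_mul a4 a3 (norm_nonneg _) ((norm_nonneg _).trans a4)
  refine (norm_add₃_le).trans ((add_le_add (add_le_add b1 b2) b3).trans (le_of_eq ?_))
  have ht : |t| ^ 2 = t ^ 2 := sq_abs t
  field_simp
  rw [ht]
  have ht3 : |t| ^ 3 = |t| * t ^ 2 := by rw [← ht]; ring
  rw [ht3]
  ring

theorem exists_step {D : GA G →ₗ[ℝ] GA G} {K : ℝ}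
    (hleib : ∀ f g, D (f * g) = D f * g + f * D g)
    (hstar : ∀ f, D (sg f) = sg (D f)) (htr : ∀ f, (D f).coeff 1 = 0) (hK : 0 < K)
    (hgr : ∀ f, ∃ C : ℝ, ∀ m, ‖Lam ((D ^ m) f)‖ ≤ C * m ! * K ^ m) (t : ℝ) :
    ∃ W : ℕ → Op G, (∀ᶠ N in atTop, IsAut (W N) ∧ ∀ f, D f = 0 → W N (io f) = io f) ∧
      (∀ f ε, 0 < ε → ∀ᶠ N in atTop, ‖W N (io f) - io f‖ ≤ |t| * ‖io (D f)‖ + ε) ∧
      (∀ f ε, 0 < ε → ∀ᶠ N in atTop,
        ‖W N (io f) - io f - (t : ℂ) • io (D f)‖ ≤ t ^ 2 * ‖io (D (D f))‖ + ε) ∧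
      (∀ f y ε, 0 < ε → ∀ᶠ N in atTop,
        ‖⟪io y, W N (io f) - io f - (t : ℂ) • io (D f)⟫_ℂ
          - ((t ^ 2 / 2 : ℝ) : ℂ) * ⟪io y, io (D (D f))⟫_ℂ‖
          ≤ |t| ^ 3 * ‖io (D (D f))‖ * ‖io (D y)‖ + ε) := by
  obtain ⟨V, hV, hE⟩ := exists_flow hleib hstar htr hK hgr
  have hsm : ∀ᶠ N : ℕ in atTop, 0 < N ∧ |t / N| * K ≤ 1 / 2 := by
    filter_upwards [eventually_div_le (|t| * K) (1 / 2) (by norm_num), eventually_gt_atTop 0]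
      with N h1 h2
    refine ⟨h2, ?_⟩
    rw [abs_div, Nat.abs_cast]
    calc |t| / N * K = |t| * K / N := by ring
      _ ≤ _ := h1
  refine ⟨fun N => V (t / N) ^ N, ?_, ?_, ?_, ?_⟩
  · filter_upwards [hsm] with N h
    obtain ⟨h1, -, h3⟩ := hV _ h.2
    refine ⟨h1.pow N, fun f hf => ?_⟩
    have : ∀ n : ℕ, (V (t / N) ^ n) (io f) = io f := by
      intro n
      induction n with
      | zero => simp
      | succ n ih => rw [pow_succ, op_mul_apply, h3 f hf, ih]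
    exact this N
  · intro f ε hε
    obtain ⟨C, hC⟩ := hE f
    filter_upwards [hsm, eventually_div_le (C * t ^ 2) ε hε] with N h h2
    exact (taylor_one (hV _ h.2).1.uni N h.1 t _ _ C (hC _ h.2)).trans (by linarith)
  · intro f ε hε
    obtain ⟨C0, hC0⟩ := hE f
    obtain ⟨C1, hC1⟩ := hE (D f)
    filter_upwards [hsm, eventually_div_le (C0 * t ^ 2 + C1 * |t| * t ^ 2) ε hε] with N h h2
    exact (taylor_two (hV _ h.2).1.uni N h.1 t _ _ _ C0 C1 (hC0 _ h.2) (hC1 _ h.2)).trans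
      (by linarith)
  · intro f y ε hε
    obtain ⟨C0, hC0⟩ := hE f
    obtain ⟨C1, hC1⟩ := hE (D f)
    obtain ⟨C2, hC2⟩ := hE y
    filter_upwards [hsm, eventually_div_le (‖io y‖ * (C0 * t ^ 2 + C1 * |t| * t ^ 2)
      + t ^ 2 / 2 * ‖io y‖ * ‖io (D (D f))‖ + C2 * t ^ 4 * ‖io (D (D f))‖) ε hε] with N h h2
    have h3 := hC2 (-(t / N)) (by rw [abs_neg]; exact h.2)
    rw [← (hV _ h.2).2.1] at h3
    exact (taylor_three (hV _ h.2).1.uni N h.1 t _ _ _ _ _ C0 C1 C2 (hC0 _ h.2) (hC1 _ h.2)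
      h3).trans (by linarith)

end Vale.Agent.P086
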