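import Vale.Agent.P086.Cocycle

/-!
The explicit words and the explicit derivation.
-/

set_option linter.unusedSectionVars false
set_option linter.deprecated false

namespace Vale.Agent.P086

open Finset Filter Topology
open FreeGroup (of)
open scoped InnerProductSpace ComplexConjugate

variable {ι : Type}

/-- the subgroup generated by two generators -/
def Gam (a c : ι) : Subgroup (FreeGroup ι) := Subgroup.closure {of a, of c}

theorem a_mem_Gam (a c : ι) : of a ∈ Gam a c := Subgroup.subset_closure (by simp)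

theorem c_mem_Gam (a c : ι) : of c ∈ Gam a c := Subgroup.subset_closure (by simp)

open Classical in
/-- exponent sums of two generators -/
noncomputable def abHom (a c : ι) : FreeGroup ι →* Multiplicative (ℤ × ℤ) :=
  FreeGroup.lift (fun j => if j = a then Multiplicative.ofAdd (1, 0)
    else if j = c then Multiplicative.ofAdd (0, 1) else 1)

/-- exponent sums of two generators, additively -/
noncomputable def abz (a c : ι) (g : FreeGroup ι) : ℤ × ℤ := Multiplicative.toAdd (abHom a c g)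

theorem abz_mul (a c : ι) (g h : FreeGroup ι) : abz a c (g * h) = abz a c g + abz a c h := by
  simp [abz]

theorem abz_inv (a c : ι) (g : FreeGroup ι) : abz a c g⁻¹ = -abz a c g := by simp [abz]

theorem abz_one (a c : ι) : abz a c 1 = 0 := by simp [abz]

theorem abz_a (a c : ι) : abz a c (of a) = (1, 0) := by simp [abz, abHom]

theorem abz_c {a c : ι} (h : a ≠ c) : abz a c (of c) = (0, 1) := by simp [abz, abHom, h.symm]

theorem abz_other {a c j : ι} (h1 : j ≠ a) (h2 : j ≠ c) : abz a c (of j) = 0 := by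
  simp [abz, abHom, h1, h2]

theorem abz_c_pow {a c : ι} (h : a ≠ c) (m : ℕ) : abz a c (of c ^ m) = (0, (m : ℤ)) := by
  induction m with
  | zero => simp [abz_one, Prod.ext_iff]
  | succ m ih => rw [pow_succ, abz_mul, ih, abz_c h]; simp

/-- translation on one of two copies of the plane -/
def sh (v : ℤ × ℤ) : Equiv.Perm ((ℤ × ℤ) × Bool) where
  toFun p := if p.2 then (v + p.1, p.2) else p
  invFun p := if p.2 then (-v + p.1, p.2) else p
  left_inv := by rintro ⟨x, _ | _⟩ <;> simp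
  right_inv := by rintro ⟨x, _ | _⟩ <;> simp

theorem sh_true (v x : ℤ × ℤ) : sh v (x, true) = (v + x, true) := rfl

theorem sh_false (v x : ℤ × ℤ) : sh v (x, false) = (x, false) := rfl

theorem sh_add (v w : ℤ × ℤ) : sh (v + w) = sh v * sh w := by
  ext1 ⟨x, _ | _⟩ <;> simp [sh_true, sh_false, add_assoc]

theorem sh_zero : sh 0 = 1 := by
  ext1 ⟨x, _ | _⟩ <;> simp [sh_true, sh_false]

/-- exchange of the two copies -/
def fl : Equiv.Perm ((ℤ × ℤ) × Bool) where
  toFun p := (p.1, !p.2)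
  invFun p := (p.1, !p.2)
  left_inv := by rintro ⟨x, _ | _⟩ <;> simp
  right_inv := by rintro ⟨x, _ | _⟩ <;> simp

theorem abz_eq_zero_of_comm {a c b : ι} (hab : a ≠ b) (hcb : c ≠ b) {u h : FreeGroup ι}
    (hu : u ∈ Gam a c) (hh : h ∈ Gam a c)
    (e : h * (u * (of b)⁻¹) * h⁻¹ = u * (of b)⁻¹) : abz a c h = 0 := by
  classical
  let ps : FreeGroup ι →* Equiv.Perm ((ℤ × ℤ) × Bool) :=
    FreeGroup.lift (fun j => if j = b then fl else sh (abz a c (of j)))
  have hG : ∀ g ∈ Gam a c, ps g = sh (abz a c g) := by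
    intro g hg
    induction hg using Subgroup.closure_induction with
    | mem x hx =>
      rcases hx with rfl | rfl
      · simp [ps, hab]
      · simp [ps, hcb]
    | one => rw [map_one, abz_one, sh_zero]
    | mul x y _ _ hx hy => rw [map_mul, hx, hy, abz_mul, sh_add]
    | inv x _ hx =>
      rw [map_inv, hx, abz_inv, inv_eq_iff_mul_eq_one, ← sh_add, add_neg_cancel, sh_zero]
  have e2 : h * u * (of b)⁻¹ = u * (of b)⁻¹ * h := by
    calc h * u * (of b)⁻¹ = (h * (u * (of b)⁻¹) * h⁻¹) * h := by group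
      _ = _ := by rw [e]
  have e3 := congrArg (fun g => ps g ((0 : ℤ × ℤ), false)) e2
  have hb : ps (of b) = fl := by simp [ps]
  have hfl : ∀ x : ℤ × ℤ, fl⁻¹ (x, false) = (x, true) := fun _ => rfl
  simp only [map_mul, map_inv, hG h hh, hG u hu, hb, Equiv.Perm.mul_apply, hfl, sh_true,
    sh_false] at e3
  simpa using e3

open Classical in
/-- exponent sum of one generator -/
noncomputable def exb (b : ι) : FreeGroup ι →* Multiplicative ℤ :=
  FreeGroup.lift (fun j => if j = b then Multiplicative.ofAdd 1 else 1)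

theorem exb_Gam {a c b : ι} (hab : a ≠ b) (hcb : c ≠ b) {g : FreeGroup ι} (hg : g ∈ Gam a c) :
    exb b g = 1 := by
  induction hg using Subgroup.closure_induction with
  | mem x hx =>
    rcases hx with rfl | rfl
    · simp [exb, hab]
    · simp [exb, hcb]
  | one => rw [map_one]
  | mul x y _ _ hx hy => rw [map_mul, hx, hy, mul_one]
  | inv x _ hx => rw [map_inv, hx, inv_one]

theorem conj_ne_inv {a c b : ι} (hab : a ≠ b) (hcb : c ≠ b) {u : FreeGroup ι} (hu : u ∈ Gam a c)
    (g : FreeGroup ι) : g * (u * (of b)⁻¹) * g⁻¹ ≠ (u * (of b)⁻¹)⁻¹ := by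
  intro e
  have := congrArg (fun x => Multiplicative.toAdd (exb b x)) e
  have hb : exb b (of b) = Multiplicative.ofAdd 1 := by simp [exb]
  simp only [map_mul, map_inv, exb_Gam hab hcb hu, hb, toAdd_mul, toAdd_inv, toAdd_ofAdd,
    toAdd_one] at this
  omega

/-- the basic skew element -/
noncomputable def kap (γ : FreeGroup ι) : GA (FreeGroup ι) := sgl γ - sgl γ⁻¹

theorem sg_kap (γ : FreeGroup ι) : sg (kap γ) = -kap γ := by
  simp [kap, sg_single]

theorem Ad_kap_self (γ : FreeGroup ι) : Ad γ (kap γ) = kap γ := by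
  rw [kap, Ad_sgl_sub]; simp

open Classical in
theorem Ad_kap_coeff (g γ x : FreeGroup ι) : (Ad g (kap γ)).coeff x
    = (if g * γ * g⁻¹ = x then 1 else 0) - (if g * γ⁻¹ * g⁻¹ = x then 1 else 0) := by
  rw [kap, Ad_sgl_sub]
  simp [Finsupp.single_apply]

theorem Bd_sum_Ad {I : Type} (S : Finset I) (g : I → FreeGroup ι) (γ : FreeGroup ι) :
    ∃ R, Bd len R (2 * S.card) (∑ p ∈ S, Ad (g p) (kap γ)) := by
  classical
  induction S using Finset.induction_on with
  | empty => exact ⟨0, by simpa using Bd.zero le_rfl⟩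
  | insert p S hp ih =>
    obtain ⟨R, hR⟩ := ih
    rw [sum_insert hp, card_insert_of_notMem hp, kap, Ad_sgl_sub]
    set x := g p * γ * (g p)⁻¹
    set y := g p * γ⁻¹ * (g p)⁻¹
    refine ⟨R + len x + len y, ?_⟩
    have h1 := Bd.single (l := len) (n := R + len x + len y) x 1 (by omega)
    have h2 := (Bd.single (l := len) (n := R + len x + len y) y 1 (by omega)).neg
    have h3 := (h1.add h2).add (hR.mono (n' := R + len x + len y) (by omega) le_rfl)
    rw [← sub_eq_add_neg] at h3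
    exact h3.mono le_rfl (by push_cast; simp; linarith)

theorem coeff_sum_Ad_le {a c b : ι} (hab : a ≠ b) (hcb : c ≠ b) {u : FreeGroup ι}
    (hu : u ∈ Gam a c) {I : Type} (S : Finset I) (g : I → FreeGroup ι)
    (hg : ∀ p ∈ S, g p ∈ Gam a c)
    (hinj : ∀ p ∈ S, ∀ q ∈ S, abz a c (g p) = abz a c (g q) → p = q) (x : FreeGroup ι) :
    |(∑ p ∈ S, Ad (g p) (kap (u * (of b)⁻¹))).coeff x| ≤ 1 := by
  classical
  set γ := u * (of b)⁻¹ with hγ
  have key : ∀ p ∈ S, ∀ q ∈ S, g p * γ * (g p)⁻¹ = g q * γ * (g q)⁻¹ → p = q := by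
    intro p hp q hq e
    apply hinj p hp q hq
    have := abz_eq_zero_of_comm hab hcb hu (h := (g q)⁻¹ * g p)
      ((Gam a c).mul_mem ((Gam a c).inv_mem (hg q hq)) (hg p hp)) (by
        rw [← hγ]
        calc (g q)⁻¹ * g p * γ * ((g q)⁻¹ * g p)⁻¹ = (g q)⁻¹ * (g p * γ * (g p)⁻¹) * g q := by group
          _ = γ := by rw [e]; group)
    rw [abz_mul, abz_inv] at this
    exact (neg_add_eq_zero.1 this).symm
  have c1 : (S.filter (fun p => g p * γ * (g p)⁻¹ = x)).card ≤ 1 := by
    rw [card_le_one]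
    intro p hp q hq
    exact key p (mem_filter.1 hp).1 q (mem_filter.1 hq).1
      ((mem_filter.1 hp).2.trans (mem_filter.1 hq).2.symm)
  have c2 : (S.filter (fun p => g p * γ⁻¹ * (g p)⁻¹ = x)).card ≤ 1 := by
    rw [card_le_one]
    intro p hp q hq
    refine key p (mem_filter.1 hp).1 q (mem_filter.1 hq).1 ?_
    have := congrArg (·⁻¹) ((mem_filter.1 hp).2.trans (mem_filter.1 hq).2.symm)
    simpa [mul_assoc] using this
  rw [MonoidAlgebra.coeff_sum, Finsupp.finset_sum_apply]
  simp only [Ad_kap_coeff, sum_sub_distrib, sum_boole]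
  have d1 : ((S.filter (fun p => g p * γ * (g p)⁻¹ = x)).card : ℝ) ≤ 1 := by exact_mod_cast c1
  have d2 : ((S.filter (fun p => g p * γ⁻¹ * (g p)⁻¹ = x)).card : ℝ) ≤ 1 := by exact_mod_cast c2
  rw [abs_le]
  constructor
  · linarith [Nat.cast_nonneg (α := ℝ) (S.filter (fun p => g p * γ * (g p)⁻¹ = x)).card]
  · linarith [Nat.cast_nonneg (α := ℝ) (S.filter (fun p => g p * γ⁻¹ * (g p)⁻¹ = x)).card]

theorem coeff_Ad_kap_zero {a c b : ι} (hab : a ≠ b) (hcb : c ≠ b) {u g : FreeGroup ι}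
    (hu : u ∈ Gam a c) (hg : g ∈ Gam a c) (h0 : abz a c g ≠ 0) :
    (Ad g (kap (u * (of b)⁻¹))).coeff (u * (of b)⁻¹) = 0 ∧
    (Ad g (kap (u * (of b)⁻¹))).coeff (u * (of b)⁻¹)⁻¹ = 0 := by
  have n1 : g * (u * (of b)⁻¹) * g⁻¹ ≠ u * (of b)⁻¹ :=
    fun e => h0 (abz_eq_zero_of_comm hab hcb hu hg e)
  have n2 := conj_ne_inv hab hcb hu g
  have n3 : g * (u * (of b)⁻¹)⁻¹ * g⁻¹ ≠ u * (of b)⁻¹ := by
    intro e
    apply n2
    have := congrArg (·⁻¹) e
    simpa [mul_assoc] using this
  have n4 : g * (u * (of b)⁻¹)⁻¹ * g⁻¹ ≠ (u * (of b)⁻¹)⁻¹ := by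
    intro e
    apply n1
    have := congrArg (·⁻¹) e
    simpa [mul_assoc] using this
  rw [Ad_kap_coeff, Ad_kap_coeff, if_neg n1, if_neg n2, if_neg n3, if_neg n4]
  simp

end Vale.Agent.P086
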